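import Mathlib

/-! Combinatorial lemmas for the failure of the duality of covering numbers. -/

set_option autoImplicit false
open Finset

namespace Crest.Agent.Ent

/-- a total relation without small dominating sets -/
lemma exists_rel (t : ℕ) : ∃ (I : Type) (_ : Fintype I) (dom : I → I → Prop),
    (∀ i j, dom i j ∨ dom j i) ∧ ∀ Z : Finset I, Z.card ≤ t → ∃ i, ∀ z ∈ Z, ¬ dom z i := by
  classical
  refine ⟨Fin (t * t + 1) × {X : Finset (Fin (t * t + 1)) // X.card ≤ t}, inferInstance,
    fun z i => ¬ (z.1 ∈ i.2.1 ∧ i.1 ∉ z.2.1), fun i j => by tauto, fun Z hZ => ?_⟩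
  have h1 : (Z.biUnion fun z => z.2.1).card < (univ : Finset (Fin (t * t + 1))).card := by
    have := card_biUnion_le_card_mul Z (fun z => z.2.1) t fun z _ => z.2.2
    have h2 : Z.card * t ≤ t * t := Nat.mul_le_mul_right t hZ
    simp only [card_univ, Fintype.card_fin]
    omega
  obtain ⟨a, -, ha⟩ := exists_mem_notMem_of_card_lt_card h1
  refine ⟨(a, ⟨Z.image Prod.fst, card_image_le.trans hZ⟩), fun z hz => ?_⟩
  rw [not_not]
  exact ⟨mem_image_of_mem _ hz, fun h => ha (mem_biUnion.mpr ⟨z, hz, h⟩)⟩

open scoped Classical in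
/-- greedy covering of cliques -/
lemma greedy {C X : Type*} [Fintype C] (μ : C → ℝ) (h0 : ∀ c, 0 ≤ μ c) (h1 : ∑ c, μ c ≤ 1)
    (r : C → C → Prop) (A : X → C → Prop) (hA : ∀ x c c', A x c → A x c' → r c c' ∨ r c' c)
    {δ : ℝ} (hδ : 0 < δ) : ∃ N : Finset C, (N.card : ℝ) ≤ 2 / δ ∧
      ∀ x, ∑ c, μ c * (if A x c ∧ ∀ c' ∈ N, ¬ r c' c then 1 else 0) ≤ δ := by
  let cov : Finset C → ℝ := fun N => ∑ c, μ c * (if ∃ c' ∈ N, r c' c then 1 else 0)
  obtain ⟨N, -, hN⟩ := exists_max_image (univ : Finset (Finset C))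
    (fun N => cov N - δ / 2 * N.card) univ_nonempty
  refine ⟨N, ?_, fun x => ?_⟩
  · have h2 := hN ∅ (mem_univ _)
    have h3 : cov N ≤ 1 := (sum_le_sum fun c _ => by
      have := h0 c
      split_ifs <;> simp [this]).trans h1
    simp only [cov, notMem_empty, false_and, exists_false, if_false, mul_zero, sum_const_zero,
      card_empty, Nat.cast_zero, sub_zero] at h2
    rw [le_div_iff₀ hδ]
    simp only [cov] at h3
    linarith
  · set w : C → ℝ := fun c => μ c * (if A x c ∧ ∀ c' ∈ N, ¬ r c' c then 1 else 0) with hw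
    have hw0 : ∀ c, 0 ≤ w c := fun c => mul_nonneg (h0 c) (by split_ifs <;> simp)
    have hout : ∀ c', ∑ c, w c * (if r c' c then 1 else 0) ≤ δ / 2 := by
      intro c'
      have h2 := hN (insert c' N) (mem_univ _)
      have h3 : ((insert c' N).card : ℝ) ≤ N.card + 1 := by exact_mod_cast card_insert_le _ _
      have h4 : cov N + ∑ c, w c * (if r c' c then 1 else 0) ≤ cov (insert c' N) := by
        simp only [cov, ← sum_add_distrib]
        refine sum_le_sum fun c _ => ?_
        have := h0 c
        by_cases ha : ∃ c' ∈ N, r c' c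
        · have hb : ∃ c'' ∈ insert c' N, r c'' c := by
            obtain ⟨d, hd, hd'⟩ := ha
            exact ⟨d, mem_insert_of_mem hd, hd'⟩
          have hc : ¬ (A x c ∧ ∀ c' ∈ N, ¬ r c' c) := by
            obtain ⟨d, hd, hd'⟩ := ha
            exact fun h => h.2 d hd hd'
          simp only [hw, if_pos ha, if_pos hb, if_neg hc]; simp
        · by_cases hr : r c' c
          · have hb : ∃ c'' ∈ insert c' N, r c'' c := ⟨c', mem_insert_self _ _, hr⟩
            simp only [hw, if_neg ha, if_pos hb, if_pos hr]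
            split_ifs <;> simp [this]
          · simp only [hw, if_neg ha, if_neg hr]
            split_ifs <;> simp [this]
      nlinarith
    have hsq : (∑ c, w c) * (∑ c, w c) ≤ 2 * ∑ c', w c' * ∑ c, w c * (if r c' c then 1 else 0) := by
      have e1 : ∑ c', w c' * ∑ c, w c * (if r c' c then 1 else 0) =
          ∑ c', ∑ c, w c' * w c * (if r c' c then 1 else 0) := by
        simp only [mul_sum, mul_assoc]
      have e2 : ∑ c', w c' * ∑ c, w c * (if r c' c then 1 else 0) =
          ∑ c', ∑ c, w c' * w c * (if r c c' then 1 else 0) := by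
        rw [e1, sum_comm]
        exact sum_congr rfl fun _ _ => sum_congr rfl fun _ _ => by ring
      rw [two_mul]
      nth_rewrite 1 [e1]
      rw [e2, ← sum_add_distrib, sum_mul_sum]
      refine sum_le_sum fun c' _ => ?_
      rw [← sum_add_distrib]
      refine sum_le_sum fun c _ => ?_
      have hp : 0 ≤ w c' * w c := mul_nonneg (hw0 _) (hw0 _)
      by_cases ha : A x c ∧ A x c'
      · rcases hA x c c' ha.1 ha.2 with h | h
        · rw [if_pos h]; split_ifs <;> linarith
        · rw [if_pos h]; split_ifs <;> linarith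
      · have : w c' * w c = 0 := by
          simp only [hw]
          by_cases h1 : A x c
          · have h2 : ¬ A x c' := fun h => ha ⟨h1, h⟩
            simp [h2]
          · simp [h1]
        rw [this]; simp
    have h5 : ∑ c', w c' * ∑ c, w c * (if r c' c then 1 else 0) ≤ (∑ c, w c) * (δ / 2) := by
      rw [sum_mul]
      exact sum_le_sum fun c' _ => mul_le_mul_of_nonneg_left (hout c') (hw0 _)
    by_contra hcon
    push Not at hcon
    nlinarith

section cyl
variable {I : Type} [Fintype I] {L : ℕ}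

open scoped Classical in
/-- cylinder sets -/
noncomputable def cyl (L : ℕ) (A : Finset I) : Finset (I → Fin (L + 1)) :=
  univ.filter fun l => ∀ i ∈ A, l i = 0

lemma mem_cyl {A : Finset I} {l : I → Fin (L + 1)} : l ∈ cyl L A ↔ ∀ i ∈ A, l i = 0 := by
  simp [cyl]

open scoped Classical in
lemma card_cyl (A : Finset I) : ((cyl L A).card : ℝ) =
    (1 / (L + 1 : ℝ)) ^ A.card * Fintype.card (I → Fin (L + 1)) := by
  have h : cyl L A = Fintype.piFinset fun i => if i ∈ A then {0} else univ := by
    ext l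
    simp only [mem_cyl, Fintype.mem_piFinset]
    refine forall_congr' fun i => ?_
    split_ifs with h <;> simp [h]
  have h2 : (cyl L A).card * (L + 1) ^ A.card = Fintype.card (I → Fin (L + 1)) := by
    rw [h, Fintype.card_piFinset, Fintype.card_fun, Fintype.card_fin, ← card_univ, ← prod_const,
      ← prod_const, ← prod_ite_mem_eq A, ← prod_mul_distrib]
    refine prod_congr rfl fun i _ => ?_
    split_ifs <;> simp
  rw [← h2, one_div, inv_pow]
  push_cast
  field_simp

open scoped Classical in
lemma matching (g : (I → Fin (L + 1)) → ℝ) (h0 : ∀ l, 0 ≤ g l) (h1 : ∀ l, g l ≤ 1) {τ η : ℝ}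
    (hη : 0 < η) (hτ : τ * Fintype.card (I → Fin (L + 1)) ≤ ∑ l, g l) :
    ∃ Z : Finset I, (Z.card : ℝ) ≤ 2 * ((L + 1) ^ 2 / η ^ 2) ∧ ∀ i ∉ Z, ∀ i' ∉ Z,
      (τ - η) * (cyl L {i, i'}).card ≤ ∑ l ∈ cyl L {i, i'}, g l := by
  set N : ℝ := ((Fintype.card (I → Fin (L + 1)) : ℕ) : ℝ) with hN
  have hNpos : 0 < N := by rw [hN]; exact_mod_cast Fintype.card_pos
  let p : Finset I → ℝ := fun A => (1 / (L + 1 : ℝ)) ^ A.card
  have hp : ∀ A, ((cyl L A).card : ℝ) = p A * N := fun A => card_cyl A
  have hp0 : ∀ A, 0 < p A := fun A => by positivity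
  let bad : Finset I → Prop := fun A => A.card ≤ 2 ∧ ∑ l ∈ cyl L A, g l < (τ - η) * (cyl L A).card
  obtain ⟨M, hM, hmax⟩ := exists_max_image ((univ : Finset (Finset (Finset I))).filter fun M =>
    (∀ A ∈ M, bad A) ∧ ∀ A ∈ M, ∀ B ∈ M, A ≠ B → Disjoint A B) card ⟨∅, by simp⟩
  obtain ⟨-, hbad, hdis⟩ := mem_filter.mp hM
  refine ⟨M.biUnion id, ?_, fun i hi i' hi' => ?_⟩
  · let X : (I → Fin (L + 1)) → ℝ := fun l => ∑ A ∈ M, ((if l ∈ cyl L A then 1 else 0) - p A)
    set P := ∑ A ∈ M, p A with hP
    have hind : ∀ A : Finset I, ∑ l, (if l ∈ cyl L A then (1 : ℝ) else 0) = p A * N := by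
      intro A
      rw [← hp]; simp
    have hXX : ∑ l, X l ^ 2 ≤ N * P := by
      have e : ∑ l, X l ^ 2 = ∑ A ∈ M, ∑ B ∈ M, (p (A ∪ B) * N - p A * p B * N) := by
        simp only [X, sq, sum_mul_sum]
        rw [sum_comm]
        refine sum_congr rfl fun A _ => ?_
        rw [sum_comm]
        refine sum_congr rfl fun B _ => ?_
        have : ∀ l, ((if l ∈ cyl L A then (1 : ℝ) else 0) - p A) *
            ((if l ∈ cyl L B then 1 else 0) - p B) = (if l ∈ cyl L (A ∪ B) then 1 else 0) -
              p B * (if l ∈ cyl L A then 1 else 0) - p A * (if l ∈ cyl L B then 1 else 0) +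
              p A * p B := by
          intro l
          have : l ∈ cyl L (A ∪ B) ↔ l ∈ cyl L A ∧ l ∈ cyl L B := by
            simp only [mem_cyl, mem_union, or_imp, forall_and]
          by_cases ha : l ∈ cyl L A <;> by_cases hb : l ∈ cyl L B <;> simp [this, ha, hb] <;> ring
        simp only [this, sum_add_distrib, sum_sub_distrib, ← mul_sum, hind, sum_const, card_univ,
          nsmul_eq_mul, ← hN]
        ring
      rw [e, hP, mul_sum]
      refine sum_le_sum fun A hA => ?_
      rw [sum_eq_single A]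
      · rw [union_self]
        have := mul_pos (mul_pos (hp0 A) (hp0 A)) hNpos
        linarith
      · intro B hB hne
        simp only [p]
        rw [card_union_of_disjoint (hdis A hA B hB hne.symm), pow_add, sub_self]
      · intro h; exact absurd hA h
    have hgX : ∑ l, g l * X l ≤ -(η * N * P) := by
      have e : ∑ l, g l * X l = ∑ A ∈ M, (∑ l ∈ cyl L A, g l - p A * ∑ l, g l) := by
        simp only [X, mul_sum]
        rw [sum_comm]
        refine sum_congr rfl fun A _ => ?_
        simp only [mul_sub, sum_sub_distrib, mul_ite, mul_one, mul_zero, sum_ite_mem, univ_inter,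
          mul_comm]
      rw [e, hP, mul_sum, ← sum_neg_distrib]
      refine sum_le_sum fun A hA => ?_
      have h2 := (hbad A hA).2
      rw [hp] at h2
      have := mul_le_mul_of_nonneg_left hτ (hp0 A).le
      nlinarith
    have hgg : ∑ l, g l ^ 2 ≤ N := by
      calc _ ≤ ∑ _l : I → Fin (L + 1), (1 : ℝ) := sum_le_sum fun l _ => by
            have := h0 l; have := h1 l; nlinarith
        _ = N := by simp [hN]
    have hcs := sum_mul_sq_le_sq_mul_sq univ g X
    have hP0 : 0 ≤ P := sum_nonneg fun A _ => (hp0 A).le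
    have h3 : (η * N * P) ^ 2 ≤ N * (N * P) := by
      have h4 : (η * N * P) ^ 2 ≤ (∑ l, g l * X l) ^ 2 := by
        have : 0 ≤ η * N * P := by positivity
        nlinarith
      exact h4.trans (hcs.trans (mul_le_mul hgg hXX (sum_nonneg fun _ _ => sq_nonneg _) hNpos.le))
    have h5 : η ^ 2 * P ≤ 1 := by
      rcases hP0.eq_or_lt with h | h
      · rw [← h]; simp
      · have : N * N * P * (η ^ 2 * P) ≤ N * N * P * 1 := by nlinarith
        exact le_of_mul_le_mul_left this (by positivity)
    have h6 : (M.card : ℝ) * (1 / (L + 1 : ℝ)) ^ 2 ≤ P := by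
      rw [hP, ← nsmul_eq_mul, ← sum_const]
      refine sum_le_sum fun A hA => pow_le_pow_of_le_one (by positivity) ?_ (hbad A hA).1
      rw [div_le_one (by positivity)]; linarith [Nat.cast_nonneg (α := ℝ) L]
    have h7 : ((M.biUnion id).card : ℝ) ≤ M.card * 2 := by
      exact_mod_cast card_biUnion_le_card_mul M id 2 fun A hA => (hbad A hA).1
    have h8 : (M.card : ℝ) ≤ (L + 1) ^ 2 / η ^ 2 := by
      rw [le_div_iff₀ (by positivity)]
      have : (0 : ℝ) ≤ (L + 1) ^ 2 := by positivity
      calc _ = (η ^ 2 * (M.card * (1 / (L + 1 : ℝ)) ^ 2)) * (L + 1) ^ 2 := by field_simp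
        _ ≤ (η ^ 2 * P) * (L + 1) ^ 2 := by gcongr
        _ ≤ _ := by nlinarith
    linarith
  · by_contra hcon
    push Not at hcon
    have hd : ∀ B ∈ M, Disjoint ({i, i'} : Finset I) B := by
      intro B hB
      rw [disjoint_left]
      intro a ha haB
      have : a ∈ M.biUnion id := mem_biUnion.mpr ⟨B, hB, haB⟩
      rcases mem_insert.mp ha with rfl | ha
      · exact hi this
      · rw [mem_singleton.mp ha] at this; exact hi' this
    have hn : ({i, i'} : Finset I) ∉ M := fun h =>
      hi (mem_biUnion.mpr ⟨_, h, mem_insert_self _ _⟩)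
    have := hmax (insert {i, i'} M) (mem_filter.mpr ⟨mem_univ _, ?_, ?_⟩)
    · rw [card_insert_of_notMem hn] at this; omega
    · intro A hA
      rcases mem_insert.mp hA with rfl | hA
      · exact ⟨card_le_two, hcon⟩
      · exact hbad A hA
    · intro A hA B hB hne
      rcases mem_insert.mp hA with rfl | hA' <;> rcases mem_insert.mp hB with rfl | hB'
      · exact absurd rfl hne
      · exact hd B hB'
      · exact (hd A hA').symm
      · exact hdis A hA' B hB' hne

end cyl

end Crest.Agent.Ent
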