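import Crest.Agent.Ent.A

/-! The iterated construction. -/

set_option autoImplicit false
set_option linter.unusedSectionVars false
open Finset

namespace Crest.Agent.Ent

open scoped Classical in
/-- agreement set -/
noncomputable def ag {Ω S : Type} [Fintype Ω] (x α : Ω → S) : Finset Ω :=
  univ.filter fun ω => x ω = α ω

open scoped Classical in
/-- named part of the agreement set -/
noncomputable def agH {Ω S : Type} [Fintype Ω] (H : Finset (Ω × S)) (x α : Ω → S) : Finset Ω :=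
  univ.filter fun ω => x ω = α ω ∧ (ω, x ω) ∈ H

lemma mem_ag {Ω S : Type} [Fintype Ω] {x α : Ω → S} {ω : Ω} : ω ∈ ag x α ↔ x ω = α ω := by
  simp [ag]

lemma mem_agH {Ω S : Type} [Fintype Ω] {H : Finset (Ω × S)} {x α : Ω → S} {ω : Ω} :
    ω ∈ agH H x α ↔ x ω = α ω ∧ (ω, x ω) ∈ H := by
  simp [agH]

/-- the set contains a witness -/
def Out {U Ω : Type} (wit : U → Finset Ω → Prop) (u : U) (T : Finset Ω) : Prop :=
  ∃ W, wit u W ∧ W ⊆ T

open scoped Classical in
/-- the inductive invariant -/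
structure Good (j : ℕ) (ε κ η : ℝ) {U Ω : Type} [Fintype Ω] (wit : U → Finset Ω → Prop)
    (lev : U → Finset Ω → ℕ) : Prop where
  ne : Nonempty Ω
  ex : ∀ u, ∃ W, wit u W
  wne : ∀ u W, wit u W → W.Nonempty
  mono : ∀ u T T', T ⊆ T' → lev u T ≤ lev u T'
  top : ∀ u, lev u univ = j
  bot : ∀ u T, ¬ Out wit u T → lev u T = 0
  strong : ∀ f : Ω → ℝ, (∀ ω, 0 ≤ f ω) → (∀ ω, f ω ≤ 1) → 1 / 2 * (Fintype.card Ω : ℝ) ≤ ∑ ω, f ω →
    ∃ u, ∀ W, wit u W → (1 / 2 - j * η) * (W.card : ℝ) ≤ ∑ ω ∈ W, f ω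
  weak : ∀ (S C : Type) [Fintype C] (u : C → U) (α : C → Ω → S) (μ : C → ℝ), (∀ c, 0 ≤ μ c) →
    ∑ c, μ c ≤ 1 → ∃ H : Finset (Ω × S), (H.card : ℝ) ≤ j * κ * Fintype.card Ω ∧ ∀ x : Ω → S,
      ∑ c, μ c * ((lev (u c) (ag x (α c)) : ℝ) - (if Out wit (u c) (ag x (α c)) then 1 else 0) -
        lev (u c) (agH H x (α c))) ≤ j * ε

lemma good_zero (ε κ η : ℝ) :
    Good 0 ε κ η (fun (_ : Unit) (W : Finset Unit) => W = univ) fun _ _ => 0 where
  ne := inferInstance
  ex := fun _ => ⟨_, rfl⟩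
  wne := fun _ _ h => h ▸ univ_nonempty
  mono := fun _ _ _ _ => le_rfl
  top := fun _ => rfl
  bot := fun _ _ _ => rfl
  strong := fun f _ _ h => ⟨(), fun W hW => by subst hW; simpa using h⟩
  weak := fun S C _ u α μ h0 _ => ⟨∅, by simp, fun x => by
    simp only [Nat.cast_zero, zero_mul]
    refine sum_nonpos fun c _ => mul_nonpos_of_nonneg_of_nonpos (h0 c) ?_
    split_ifs <;> simp⟩

section step
variable {U Ω I : Type} [Fintype Ω] [Fintype I]

open scoped Classical in
/-- projection of a subset of the extended token set -/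
noncomputable def proj {Λ : Type} (T : Finset (Ω × Λ)) : Finset Ω :=
  univ.filter fun ω => ∀ l, (ω, l) ∈ T

lemma mem_proj {Λ : Type} {T : Finset (Ω × Λ)} {ω : Ω} : ω ∈ proj T ↔ ∀ l, (ω, l) ∈ T := by
  simp [proj]

open scoped Classical in
/-- new witnesses -/
def wit' (wit : U → Finset Ω → Prop) (dom : I → I → Prop) (L : ℕ) (u : U × I)
    (W' : Finset (Ω × (I → Fin (L + 1)))) : Prop :=
  ∃ W i', wit u.1 W ∧ dom i' u.2 ∧ W' = W ×ˢ cyl L {u.2, i'}

open scoped Classical in
/-- new level function -/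
noncomputable def lev' (wit : U → Finset Ω → Prop) (lev : U → Finset Ω → ℕ) (dom : I → I → Prop)
    (L : ℕ) (u : U × I) (T : Finset (Ω × (I → Fin (L + 1)))) : ℕ :=
  lev u.1 (proj T) + if Out (wit' wit dom L) u T then 1 else 0

lemma out_step {wit : U → Finset Ω → Prop} {dom : I → I → Prop} {L : ℕ} {u : U × I} {i' : I}
    {T : Finset (Ω × (I → Fin (L + 1)))} {W : Finset Ω} (hW : wit u.1 W) (hi : dom i' u.2)
    (h : ∀ ω ∈ W, ∀ l, l i' = 0 → (ω, l) ∈ T) : Out (wit' wit dom L) u T := by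
  classical
  refine ⟨_, ⟨W, i', hW, hi, rfl⟩, fun p hp => ?_⟩
  obtain ⟨h1, h2⟩ := mem_product.mp hp
  exact h p.1 h1 p.2 (mem_cyl.mp h2 i' (by simp))

open scoped Classical in
theorem good_step {j : ℕ} {ε κ η : ℝ} (hε : 0 < ε) (hκ : 0 < κ) (hη : 0 < η)
    {wit : U → Finset Ω → Prop} {lev : U → Finset Ω → ℕ} (G : Good j ε κ η wit lev)
    {dom : I → I → Prop} {L : ℕ} (htot : ∀ i j, dom i j ∨ dom j i)
    (hdom : ∀ Z : Finset I, (Z.card : ℝ) ≤ Fintype.card (Finset Ω) * (2 * ((L + 1) ^ 2 / η ^ 2)) →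
      ∃ i, ∀ z ∈ Z, ¬ dom z i)
    (hL : 2 * (Fintype.card (Finset Ω) : ℝ) ^ 2 / (ε * κ) ≤ L + 1) :
    Good (j + 1) ε κ η (wit' wit dom L) (lev' wit lev dom L) := by
  have hrefl : ∀ i, dom i i := fun i => (htot i i).elim id id
  have hΛ : (0 : ℝ) < Fintype.card (I → Fin (L + 1)) := by exact_mod_cast Fintype.card_pos
  have hF : (0 : ℝ) < Fintype.card (Finset Ω) := by exact_mod_cast Fintype.card_pos
  have hout : ∀ (u : U × I) (T : Finset (Ω × (I → Fin (L + 1)))), Out wit u.1 (proj T) →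
      Out (wit' wit dom L) u T := by
    rintro u T ⟨W, hW, hT⟩
    exact out_step hW (hrefl _) fun ω hω l _ => mem_proj.mp (hT hω) l
  have := G.ne
  refine ⟨inferInstance, fun u => ?_, ?_, ?_, ?_, ?_, ?_, ?_⟩
  · obtain ⟨W, hW⟩ := G.ex u.1
    exact ⟨_, W, u.2, hW, hrefl _, rfl⟩
  · rintro u _ ⟨W, i', hW, -, rfl⟩
    exact (G.wne _ _ hW).product ⟨0, mem_cyl.mpr fun _ _ => rfl⟩
  · intro u T T' h
    refine add_le_add (G.mono _ _ _ fun ω hω => mem_proj.mpr fun l => h (mem_proj.mp hω l)) ?_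
    split_ifs with h1 h2
    · rfl
    · obtain ⟨W, hW, hT⟩ := h1
      exact absurd ⟨W, hW, hT.trans h⟩ h2
    · omega
    · rfl
  · intro u
    have e : proj (univ : Finset (Ω × (I → Fin (L + 1)))) = univ :=
      eq_univ_of_forall fun ω => mem_proj.mpr fun _ => mem_univ _
    obtain ⟨W, hW⟩ := G.ex u.1
    rw [lev', e, G.top, if_pos (hout u _ ⟨W, hW, e ▸ subset_univ _⟩)]
  · intro u T h
    rw [lev', if_neg h, G.bot _ _ fun h' => h (hout u T h')]
  · intro f h0 h1 hf
    obtain ⟨u, hu⟩ := G.strong (fun ω => (∑ l, f (ω, l)) / Fintype.card (I → Fin (L + 1)))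
      (fun ω => div_nonneg (sum_nonneg fun _ _ => h0 _) hΛ.le)
      (fun ω => by
        rw [div_le_one hΛ]
        exact (sum_le_sum fun l _ => h1 (ω, l)).trans (by simp))
      (by
        rw [← sum_div, le_div_iff₀ hΛ, ← Fintype.sum_prod_type, mul_assoc]
        simpa using hf)
    have key : ∀ W : Finset Ω, ∃ Z : Finset I, (Z.card : ℝ) ≤ 2 * ((L + 1) ^ 2 / η ^ 2) ∧
        (wit u W → ∀ i ∉ Z, ∀ i' ∉ Z, (1 / 2 - j * η - η) * (cyl L {i, i'}).card ≤
          ∑ l ∈ cyl L {i, i'}, (∑ ω ∈ W, f (ω, l)) / W.card) := by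
      intro W
      by_cases hW : wit u W
      · have hc : (0 : ℝ) < W.card := by exact_mod_cast (G.wne _ _ hW).card_pos
        obtain ⟨Z, hZ, hZ'⟩ := matching (fun l => (∑ ω ∈ W, f (ω, l)) / W.card)
          (fun l => div_nonneg (sum_nonneg fun _ _ => h0 _) hc.le)
          (fun l => by
            rw [div_le_one hc]
            exact (sum_le_sum fun ω _ => h1 (ω, l)).trans (by simp))
          hη (τ := 1 / 2 - j * η) (by
            have := hu W hW
            rw [← sum_div, le_div_iff₀ hΛ] at this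
            rw [← sum_div, le_div_iff₀ hc, sum_comm]
            convert this using 1
            ring)
        exact ⟨Z, hZ, fun _ => hZ'⟩
      · exact ⟨∅, by simp only [card_empty, Nat.cast_zero]; positivity, fun h => absurd h hW⟩
    choose Z hZ hZ' using key
    obtain ⟨i, hi⟩ := hdom (univ.biUnion Z) (by
      calc ((univ.biUnion Z).card : ℝ) ≤ ∑ W, ((Z W).card : ℝ) := by
            exact_mod_cast card_biUnion_le
        _ ≤ ∑ _W : Finset Ω, 2 * (((L : ℝ) + 1) ^ 2 / η ^ 2) := sum_le_sum fun W _ => hZ W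
        _ = _ := by simp)
    refine ⟨(u, i), ?_⟩
    rintro _ ⟨W, i', hW, hi', rfl⟩
    have hn : ∀ z, dom z i → z ∉ Z W := fun z hz h => hi z (mem_biUnion.mpr ⟨W, mem_univ _, h⟩) hz
    have hc : (0 : ℝ) < W.card := by exact_mod_cast (G.wne _ _ hW).card_pos
    have := hZ' W hW i (hn i (hrefl i)) i' (hn i' hi')
    rw [← sum_div, le_div_iff₀ hc, sum_comm] at this
    rw [sum_product, card_product]
    push_cast
    refine le_trans (le_of_eq ?_) this
    ring
  · intro S C _ u α μ h0 h1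
    obtain ⟨H₁, hH₁, hH₁'⟩ := G.weak ((I → Fin (L + 1)) → S) C (fun c => (u c).1)
      (fun c ω l => α c (ω, l)) μ h0 h1
    have hδ : 0 < ε / Fintype.card (Finset Ω) := by positivity
    choose N hN hN' using fun W : Finset Ω => greedy μ h0 h1
      (fun c' c => dom (u c').2 (u c).2 ∧ ∀ ω ∈ W, ∀ l, α c' (ω, l) = α c (ω, l))
      (fun (x : Ω × (I → Fin (L + 1)) → S) c => ∀ ω ∈ W, ∀ l, x (ω, l) = α c (ω, l))
      (fun x c c' hc hc' => (htot (u c).2 (u c').2).imp
        (fun h => ⟨h, fun ω hω l => (hc ω hω l).symm.trans (hc' ω hω l)⟩)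
        fun h => ⟨h, fun ω hω l => (hc' ω hω l).symm.trans (hc ω hω l)⟩) hδ
    let Ha : Finset ((Ω × (I → Fin (L + 1))) × S) :=
      (H₁ ×ˢ (univ : Finset (I → Fin (L + 1)))).image fun p => ((p.1.1, p.2), p.1.2 p.2)
    let Hb : Finset ((Ω × (I → Fin (L + 1))) × S) := univ.biUnion fun W => (N W).biUnion fun c =>
      ((univ : Finset Ω) ×ˢ cyl L {(u c).2}).image fun p => (p, α c p)
    refine ⟨Ha ∪ Hb, ?_, fun x => ?_⟩
    · have ha : (Ha.card : ℝ) ≤ j * κ * Fintype.card Ω * Fintype.card (I → Fin (L + 1)) := by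
        calc (Ha.card : ℝ) ≤ ((H₁ ×ˢ (univ : Finset (I → Fin (L + 1)))).card : ℝ) := by
              exact_mod_cast card_image_le
          _ = H₁.card * Fintype.card (I → Fin (L + 1)) := by rw [card_product]; simp
          _ ≤ _ := by gcongr
      have hb : (Hb.card : ℝ) ≤ κ * Fintype.card Ω * Fintype.card (I → Fin (L + 1)) := by
        set B : ℝ := Fintype.card Ω * (1 / (L + 1 : ℝ) * Fintype.card (I → Fin (L + 1))) with hB
        have hB0 : 0 ≤ B := by positivity
        calc (Hb.card : ℝ) ≤ ∑ W, ∑ c ∈ N W,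
              (((univ : Finset Ω) ×ˢ cyl L {(u c).2}).card : ℝ) := by
              exact_mod_cast card_biUnion_le.trans (sum_le_sum fun W _ =>
                card_biUnion_le.trans (sum_le_sum fun c _ => card_image_le))
          _ = ∑ W, ((N W).card : ℝ) * B := by
              refine sum_congr rfl fun W _ => ?_
              rw [← nsmul_eq_mul, ← sum_const]
              refine sum_congr rfl fun c _ => ?_
              rw [card_product, Nat.cast_mul, card_cyl, card_singleton, pow_one, card_univ]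
          _ ≤ ∑ _W : Finset Ω, 2 / (ε / Fintype.card (Finset Ω)) * B :=
              sum_le_sum fun W _ => mul_le_mul_of_nonneg_right (hN W) hB0
          _ = 2 * (Fintype.card (Finset Ω) : ℝ) ^ 2 / (ε * κ) * κ * B := by
              rw [sum_const, card_univ, nsmul_eq_mul]; field_simp
          _ ≤ (L + 1) * κ * B := by gcongr
          _ = _ := by rw [hB]; field_simp
      calc ((Ha ∪ Hb).card : ℝ) ≤ Ha.card + Hb.card := by exact_mod_cast card_union_le _ _
        _ ≤ _ := by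
          rw [Fintype.card_prod]; push_cast; nlinarith
    · have h2 := hH₁' fun ω l => x (ω, l)
      have h3 : ∑ W : Finset Ω, ∑ c, μ c * (if (∀ ω ∈ W, ∀ l, x (ω, l) = α c (ω, l)) ∧
          ∀ c' ∈ N W, ¬ (dom (u c').2 (u c).2 ∧ ∀ ω ∈ W, ∀ l, α c' (ω, l) = α c (ω, l))
          then 1 else 0) ≤ ε := by
        refine (sum_le_sum fun W _ => (le_of_eq ?_).trans (hN' W x)).trans (le_of_eq ?_)
        · exact sum_congr rfl fun c _ => by congr
        · rw [sum_const, card_univ, nsmul_eq_mul]; field_simp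
      rw [sum_comm] at h3
      push_cast
      rw [add_mul, one_mul]
      refine le_trans ?_ (add_le_add h2 h3)
      rw [← sum_add_distrib]
      refine sum_le_sum fun c _ => ?_
      rw [← mul_sum, ← mul_add]
      refine mul_le_mul_of_nonneg_left ?_ (h0 c)
      have e1 : proj (ag x (α c)) = ag (fun ω l => x (ω, l)) fun ω l => α c (ω, l) := by
        ext ω
        simp only [mem_proj, mem_ag, funext_iff]
      have e2 : (lev (u c).1 (agH H₁ (fun ω l => x (ω, l)) fun ω l => α c (ω, l)) : ℝ) ≤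
          lev (u c).1 (proj (agH (Ha ∪ Hb) x (α c))) := by
        refine Nat.cast_le.mpr (G.mono _ _ _ fun ω hω => mem_proj.mpr fun l => ?_)
        obtain ⟨h4, h5⟩ := mem_agH.mp hω
        exact mem_agH.mpr ⟨congrFun h4 l, mem_union_left _ (mem_image.mpr
          ⟨((ω, fun l => x (ω, l)), l), mem_product.mpr ⟨h5, mem_univ _⟩, rfl⟩)⟩
      have e3 : (if Out wit (u c).1 (ag (fun ω l => x (ω, l)) fun ω l => α c (ω, l))
          then (1 : ℝ) else 0) ≤
          (if Out (wit' wit dom L) (u c) (agH (Ha ∪ Hb) x (α c)) then 1 else 0) +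
          ∑ W : Finset Ω, (if (∀ ω ∈ W, ∀ l, x (ω, l) = α c (ω, l)) ∧
            ∀ c' ∈ N W, ¬ (dom (u c').2 (u c).2 ∧ ∀ ω ∈ W, ∀ l, α c' (ω, l) = α c (ω, l))
            then 1 else 0) := by
        have hs : ∀ W : Finset Ω, (0 : ℝ) ≤ (if (∀ ω ∈ W, ∀ l, x (ω, l) = α c (ω, l)) ∧
            ∀ c' ∈ N W, ¬ (dom (u c').2 (u c).2 ∧ ∀ ω ∈ W, ∀ l, α c' (ω, l) = α c (ω, l))
            then 1 else 0) := fun W => by split_ifs <;> simp
        have hs' := sum_nonneg fun W (_ : W ∈ univ) => hs W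
        split_ifs with h4 h5
        · linarith
        · obtain ⟨W, hW, hT⟩ := h4
          have hact : ∀ ω ∈ W, ∀ l, x (ω, l) = α c (ω, l) :=
            fun ω hω l => congrFun (mem_ag.mp (hT hω)) l
          have hcond : (∀ ω ∈ W, ∀ l, x (ω, l) = α c (ω, l)) ∧
              ∀ c' ∈ N W, ¬ (dom (u c').2 (u c).2 ∧ ∀ ω ∈ W, ∀ l, α c' (ω, l) = α c (ω, l)) := by
            refine ⟨hact, fun c' hc' h6 => h5 (out_step hW h6.1 fun ω hω l hl => ?_)⟩
            refine mem_agH.mpr ⟨hact ω hω l, mem_union_right _ (mem_biUnion.mpr ⟨W, mem_univ _,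
              mem_biUnion.mpr ⟨c', hc', mem_image.mpr ⟨(ω, l), mem_product.mpr ⟨mem_univ _,
                mem_cyl.mpr fun i hi => ?_⟩, ?_⟩⟩⟩)⟩
            · rw [mem_singleton.mp hi]; exact hl
            · rw [hact ω hω l, h6.2 ω hω l]
          have h7 := single_le_sum (fun W _ => hs W) (mem_univ W)
          rw [if_pos hcond] at h7
          linarith
        · linarith
        · linarith
      simp only [lev', e1]
      push_cast
      linarith

end step

theorem exists_good (j : ℕ) {ε κ η : ℝ} (hε : 0 < ε) (hκ : 0 < κ) (hη : 0 < η) :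
    ∃ (U Ω : Type) (_ : Fintype U) (_ : Fintype Ω) (wit : U → Finset Ω → Prop)
      (lev : U → Finset Ω → ℕ), Good j ε κ η wit lev := by
  induction j with
  | zero => exact ⟨Unit, Unit, inferInstance, inferInstance, _, _, good_zero ε κ η⟩
  | succ j ih =>
    classical
    obtain ⟨U, Ω, _, _, wit, lev, G⟩ := ih
    let L : ℕ := ⌈2 * (Fintype.card (Finset Ω) : ℝ) ^ 2 / (ε * κ)⌉₊
    obtain ⟨I, _, dom, htot, hdom⟩ :=
      exists_rel ⌊(Fintype.card (Finset Ω) : ℝ) * (2 * ((L + 1) ^ 2 / η ^ 2))⌋₊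
    exact ⟨U × I, Ω × (I → Fin (L + 1)), inferInstance, _, _, _,
      good_step hε hκ hη G htot (fun Z hZ => hdom Z (Nat.le_floor hZ))
        ((Nat.le_ceil _).trans (by simp [L]))⟩

end Crest.Agent.Ent
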