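import Mathlib

set_option autoImplicit false

open Filter Topology Function

namespace Crest.Agent.Ent

local notation "Ψ" => Real.smoothTransition

/-- smooth staircase: rises on `[0,1/2]`, flat on `[1/2,1]`. -/
noncomputable def Phi (x : ℝ) : ℝ := ⌊x⌋ + Ψ (2 * Int.fract x)

lemma Phi_local (k : ℤ) {x : ℝ} (h1 : (k : ℝ) - 1 < x) (h2 : x < k + 1) :
    Phi x = k - 1 + Ψ (2 * (x - k + 1)) + Ψ (2 * (x - k)) := by
  unfold Phi
  rcases lt_or_ge x k with h | h
  · have hf : ⌊x⌋ = k - 1 := by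
      rw [Int.floor_eq_iff]; push_cast; constructor <;> linarith
    have : Ψ (2 * (x - k)) = 0 := Real.smoothTransition.zero_of_nonpos (by linarith)
    rw [this, Int.fract, hf]; push_cast; ring_nf
  · have hf : ⌊x⌋ = k := by
      rw [Int.floor_eq_iff]; constructor <;> linarith
    have : Ψ (2 * (x - k + 1)) = 1 := Real.smoothTransition.one_of_one_le (by linarith)
    rw [this, Int.fract, hf]; ring_nf

lemma Phi_smooth : ContDiff ℝ 1 Phi := by
  rw [contDiff_iff_contDiffAt]
  intro x0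
  have h : Phi =ᶠ[𝓝 x0] fun x => ((⌊x0⌋ : ℝ) - 1 + Ψ (2 * (x - ⌊x0⌋ + 1)) + Ψ (2 * (x - ⌊x0⌋))) := by
    have : Set.Ioo ((⌊x0⌋ : ℝ) - 1) (⌊x0⌋ + 1) ∈ 𝓝 x0 :=
      Ioo_mem_nhds (by linarith [Int.floor_le x0]) (Int.lt_floor_add_one x0)
    filter_upwards [this] with x hx using Phi_local _ hx.1 hx.2
  refine ContDiffAt.congr_of_eventuallyEq ?_ h
  have hs : ContDiff ℝ 1 Ψ := Real.smoothTransition.contDiff
  refine ContDiff.contDiffAt ?_
  exact (contDiff_const.add (hs.comp (by fun_prop))).add (hs.comp (by fun_prop))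

lemma Phi_mono : Monotone Phi := by
  intro x y hxy
  unfold Phi
  rcases (Int.floor_mono hxy).eq_or_lt with h | h
  · have : Int.fract x ≤ Int.fract y := by unfold Int.fract; rw [h]; linarith
    have := Real.smoothTransition.monotone (show 2 * Int.fract x ≤ 2 * Int.fract y by linarith)
    rw [h]; linarith
  · have h' : ((⌊x⌋ : ℝ) + 1) ≤ ⌊y⌋ := by exact_mod_cast h
    linarith [Real.smoothTransition.le_one (2 * Int.fract x),
      Real.smoothTransition.nonneg (2 * Int.fract y)]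

lemma Phi_add_one (x : ℝ) : Phi (x + 1) = Phi x + 1 := by
  unfold Phi; rw [Int.floor_add_one, Int.fract_add_one]; push_cast; ring

lemma Phi_flat {x : ℝ} (h : 1 / 2 ≤ Int.fract x) : Phi x = ⌊x⌋ + 1 := by
  unfold Phi; rw [Real.smoothTransition.one_of_one_le (by linarith)]

lemma Phi_zero : Phi 0 = 0 := by simp [Phi]

/-- smooth floor -/
noncomputable def Nf (x : ℝ) : ℝ := Phi (x - 1 / 2)

lemma Nf_smooth : ContDiff ℝ 1 Nf := Phi_smooth.comp (by fun_prop)

lemma Nf_add_one (x : ℝ) : Nf (x + 1) = Nf x + 1 := by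
  unfold Nf; rw [← Phi_add_one]; ring_nf

lemma Nf_eq {x : ℝ} (h : Int.fract x < 1 / 2) : Nf x = ⌊x⌋ := by
  unfold Nf
  have h0 := Int.fract_nonneg x
  have hx : x = ⌊x⌋ + Int.fract x := (Int.floor_add_fract x).symm
  have hf : ⌊x - 1 / 2⌋ = ⌊x⌋ - 1 := by
    rw [Int.floor_eq_iff]; push_cast; constructor <;> linarith
  rw [Phi_flat, hf]
  · push_cast; ring
  · rw [Int.fract, hf]; push_cast; linarith

noncomputable def bL (t : ℝ) : CircleDeg1Lift :=
  ⟨⟨fun x => Phi x + t, fun _ _ h => by simpa using Phi_mono h⟩, fun x => by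
    show Phi (x + 1) + t = Phi x + t + 1
    rw [Phi_add_one]; ring⟩

lemma bL_apply (t x : ℝ) : bL t x = Phi x + t := rfl

lemma cont_pow (n : ℕ) : Continuous fun t => (bL t ^ n) 0 := by
  induction n with
  | zero => simpa using continuous_const
  | succ n ih =>
    simp only [pow_succ', CircleDeg1Lift.mul_apply, bL_apply]
    exact (Phi_smooth.continuous.comp ih).add continuous_id

lemma cont_tau : Continuous fun t => (bL t).translationNumber := by
  have : TendstoUniformly (fun (n : ℕ) t => (bL t ^ (n + 1)) 0 / (n + 1 : ℝ))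
      (fun t => (bL t).translationNumber) atTop := by
    rw [Metric.tendstoUniformly_iff]
    intro ε hε
    obtain ⟨N, hN⟩ := exists_nat_one_div_lt hε
    filter_upwards [eventually_ge_atTop N] with n hn t
    have h := (bL t).dist_pow_map_zero_mul_translationNumber_le (n + 1)
    rw [Real.dist_eq] at h ⊢
    have hp : (0 : ℝ) < n + 1 := by positivity
    have e : (bL t).translationNumber - (bL t ^ (n + 1)) 0 / (n + 1 : ℝ)
        = -(((bL t ^ (n + 1)) 0 - ((n + 1 : ℕ) : ℝ) * (bL t).translationNumber) / (n + 1 : ℝ)) := by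
      push_cast; field_simp; ring
    rw [e, abs_neg, abs_div, abs_of_pos hp]
    calc _ ≤ 1 / (n + 1 : ℝ) := by gcongr
      _ ≤ 1 / (N + 1 : ℝ) := by gcongr
      _ < ε := hN
  exact this.continuous (Eventually.of_forall fun n => (cont_pow _).div_const _).frequently

lemma exists_irr : ∃ t, Irrational (bL t).translationNumber := by
  obtain ⟨α, hα, h0, h1⟩ := exists_irrational_btwn (show (0 : ℝ) < 1 by norm_num)
  have e0 : (bL 0).translationNumber = 0 := by
    have := (bL 0).translationNumber_of_eq_add_int (x := 0) (m := 0) (by simp [bL_apply, Phi_zero])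
    simpa using this
  have e1 : (bL 1).translationNumber = 1 := by
    have := (bL 1).translationNumber_of_eq_add_int (x := 0) (m := 1) (by simp [bL_apply, Phi_zero])
    simpa using this
  have := intermediate_value_univ 0 1 cont_tau (show α ∈ Set.Icc _ _ by
    rw [e0, e1]; exact ⟨h0.le, h1.le⟩)
  obtain ⟨t, ht⟩ := this
  exact ⟨t, by simp only at ht; rwa [ht]⟩

section
variable {t : ℝ} (hirr : Irrational (bL t).translationNumber)
include hirr

lemma bad_once (x : ℝ) {i j : ℕ} (hi : 1 / 2 ≤ Int.fract ((bL t)^[i] x))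
    (hj : 1 / 2 ≤ Int.fract ((bL t)^[j] x)) : i = j := by
  wlog h : i < j generalizing i j
  · rcases (not_lt.1 h).eq_or_lt with h | h
    · exact h.symm
    · exact (this hj hi h).symm
  exfalso
  obtain ⟨s, rfl⟩ := Nat.exists_eq_add_of_lt h
  have e1 : (bL t)^[i + 1] x = t + (⌊(bL t)^[i] x⌋ + 1 : ℤ) := by
    rw [iterate_succ_apply', bL_apply, Phi_flat hi]; push_cast; ring
  have e2 : (bL t)^[i + s + 1 + 1] x = t + (⌊(bL t)^[i + s + 1] x⌋ + 1 : ℤ) := by
    rw [iterate_succ_apply', bL_apply, Phi_flat hj]; push_cast; ring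
  have e3 : (bL t)^[i + s + 1 + 1] x = (bL t ^ (s + 1)) ((bL t)^[i + 1] x) := by
    rw [CircleDeg1Lift.coe_pow, ← iterate_add_apply]; congr 1; ring
  rw [e3, e1, CircleDeg1Lift.map_add_int] at e2
  have e4 : (bL t ^ (s + 1)) t = t + ((⌊(bL t)^[i + s + 1] x⌋ + 1) - (⌊(bL t)^[i] x⌋ + 1) : ℤ) := by
    push_cast at e2 ⊢; linarith
  have := (bL t).translationNumber_of_map_pow_eq_add_int e4 (Nat.succ_pos s)
  rw [this] at hirr
  exact hirr ⟨(((⌊(bL t)^[i + s + 1] x⌋ + 1) - (⌊(bL t)^[i] x⌋ + 1) : ℤ) : ℚ) / (s + 1 : ℕ), by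
    push_cast; rfl⟩

lemma ycode (x : ℝ) (W : ℕ) :
    ∃ y : ℝ, ∀ n ≤ W, ⌊(bL t)^[n] x⌋ = ⌊y + n * (bL t).translationNumber⌋ := by
  set α := (bL t).translationNumber with hα
  set ν : ℕ → ℤ := fun n => ⌊(bL t)^[n] x⌋ with hν
  have key : ∀ n m : ℕ, (ν n : ℝ) - n * α < ν m + 1 - m * α := by
    intro n m
    have hn : (ν n : ℝ) ≤ (bL t)^[n] x := Int.floor_le _
    have hm : (bL t)^[m] x < ν m + 1 := Int.lt_floor_add_one _
    rcases lt_trichotomy n m with h | h | h
    · obtain ⟨s, rfl⟩ := Nat.exists_eq_add_of_lt h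
      have e : (bL t)^[n + s + 1] x = (bL t ^ (s + 1)) ((bL t)^[n] x) := by
        rw [CircleDeg1Lift.coe_pow, ← iterate_add_apply]; congr 1; ring
      have h1 := (bL t ^ (s + 1)).translationNumber_le_of_le_add_int (x := (bL t)^[n] x)
        (m := ν (n + s + 1) + 1 - ν n) (by rw [← e]; push_cast; linarith)
      rw [CircleDeg1Lift.translationNumber_pow] at h1
      have h2 : ((s + 1 : ℕ) : ℝ) * α ≠ ((ν (n + s + 1) + 1 - ν n : ℤ) : ℝ) :=
        (hirr.natCast_mul (Nat.succ_ne_zero s)).ne_int _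
      have h3 := lt_of_le_of_ne h1 h2
      push_cast at h3 ⊢; linarith
    · subst h; linarith
    · obtain ⟨s, rfl⟩ := Nat.exists_eq_add_of_lt h
      have e : (bL t)^[m + s + 1] x = (bL t ^ (s + 1)) ((bL t)^[m] x) := by
        rw [CircleDeg1Lift.coe_pow, ← iterate_add_apply]; congr 1; ring
      have h1 := (bL t ^ (s + 1)).le_translationNumber_of_add_int_le (x := (bL t)^[m] x)
        (m := ν (m + s + 1) - ν m - 1) (by rw [← e]; push_cast; linarith)
      rw [CircleDeg1Lift.translationNumber_pow] at h1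
      have h2 : ((s + 1 : ℕ) : ℝ) * α ≠ ((ν (m + s + 1) - ν m - 1 : ℤ) : ℝ) :=
        (hirr.natCast_mul (Nat.succ_ne_zero s)).ne_int _
      have h3 := lt_of_le_of_ne h1 h2.symm
      push_cast at h3 ⊢; linarith
  obtain ⟨n0, hn0, hmax⟩ := Finset.exists_max_image (Finset.range (W + 1))
    (fun n => (ν n : ℝ) - n * α) ⟨0, by simp⟩
  refine ⟨ν n0 - n0 * α, fun n hn => ?_⟩
  symm
  rw [Int.floor_eq_iff]
  have h1 := hmax n (by simp; omega)
  have h2 := key n0 n
  constructor
  · show (ν n : ℝ) ≤ _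
    linarith
  · show _ < (ν n : ℝ) + 1
    linarith

end

end Crest.Agent.Ent
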