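import Crest.Agent.Ent.Base1

set_option autoImplicit false

open Filter Topology Function

namespace Crest.Agent.Ent

local notation "Ψ" => Real.smoothTransition

/-- the exactness / separation / recurrence property of the markers along the orbit of `θ`. -/
structure Good (b : ℝ → ℝ) (V : ℕ → ℝ → ℝ) (T : ℕ → ℕ) (j : ℕ) (θ : ℝ) : Prop where
  exact : ∀ k ≤ j, ∀ t ≤ T j, V k (b^[t] θ) = 0 ∨ V k (b^[t] θ) = 1
  sep : ∀ k ≤ j, ∀ t t', t < t' → t' ≤ T j → V k (b^[t] θ) = 1 → V k (b^[t'] θ) = 1 →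
    t + 2 ^ k ≤ t'
  recur : ∀ k ≤ j, ∃ t, 1 ≤ t ∧ t ≤ T k ∧ V k (b^[t] θ) = 1

structure Base where
  b : ℝ → ℝ
  V : ℕ → ℝ → ℝ
  T : ℕ → ℕ
  W : ℕ → ℕ
  b_smooth : ContDiff ℝ 1 b
  b_mono : Monotone b
  b_add : ∀ x, b (x + 1) = b x + 1
  V_smooth : ∀ k, ContDiff ℝ 1 (V k)
  V_per : ∀ k x, V k (x + 1) = V k x
  V_zero : ∀ x, V 0 x = 1
  V_nonneg : ∀ k x, 0 ≤ V k x
  V_anti : ∀ k x, V (k + 1) x ≤ V k x
  T_mono : Monotone T
  good : ∀ θ, ∃ t0 : ℕ, ∀ j t, (t + W j < t0 ∨ t0 < t) → Good b V T j (b^[t] θ)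

section
variable {α : ℝ} (hα : Irrational α)
include hα

lemma exists_eta (h : ℕ) : ∃ η : ℝ, 0 < η ∧ η < 1 ∧
    ∀ s : ℕ, 0 < s → s < h → ∀ m : ℤ, η ≤ |s * α - m| := by
  induction h with
  | zero => exact ⟨1 / 2, by norm_num, by norm_num, fun s _ hs => absurd hs (by omega)⟩
  | succ h ih =>
    obtain ⟨η, h0, h1, H⟩ := ih
    rcases Nat.eq_zero_or_pos h with rfl | hp
    · exact ⟨η, h0, h1, fun s hs hs' => absurd hs' (by omega)⟩
    · have hi : Irrational ((h : ℝ) * α) := hα.natCast_mul hp.ne'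
      have hpos : 0 < |(h : ℝ) * α - round ((h : ℝ) * α)| :=
        abs_pos.2 (sub_ne_zero.2 (hi.ne_int _))
      refine ⟨min η |(h : ℝ) * α - round ((h : ℝ) * α)|, lt_min h0 hpos,
        (min_le_left _ _).trans_lt h1, fun s hs hs' m => ?_⟩
      rcases (Nat.lt_succ_iff.1 hs').eq_or_lt with rfl | hlt
      · exact (min_le_right _ _).trans (round_le _ _)
      · exact (min_le_left _ _).trans (H s hs hlt m)

lemma exists_step {η : ℝ} (hη : 0 < η) :
    ∃ (n : ℕ) (κ : ℤ), 0 < n ∧ 0 < (κ : ℝ) - n * α ∧ (κ : ℝ) - n * α < η := by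
  obtain ⟨N, hN⟩ := exists_nat_one_div_lt hη
  obtain ⟨j, k, hk0, -, hk⟩ := Real.exists_int_int_abs_mul_sub_le α (n := N + 1) (Nat.succ_pos N)
  have hlt : |(k : ℝ) * α - j| < η := by
    refine hk.trans_lt (lt_of_le_of_lt ?_ hN)
    push_cast; gcongr; linarith
  have hlt1 : |(k : ℝ) * α - j| < 1 := by
    refine hk.trans_lt ?_
    rw [div_lt_one (by positivity)]; push_cast; linarith [Nat.cast_nonneg (α := ℝ) N]
  obtain ⟨k, rfl⟩ := Int.eq_ofNat_of_zero_le hk0.le
  have hk0' : 0 < k := by exact_mod_cast hk0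
  have hi : Irrational ((k : ℝ) * α - j) := (hα.natCast_mul hk0'.ne').sub_intCast j
  push_cast at hlt hlt1
  rcases lt_trichotomy ((k : ℝ) * α - j) 0 with h | h | h
  · refine ⟨k, j, hk0', by linarith, ?_⟩
    rw [abs_of_neg h] at hlt; linarith
  · exact absurd (by rw [h]; simp) (hi.ne_int 0)
  · rw [abs_of_pos h] at hlt hlt1
    set δ := (k : ℝ) * α - j with hδ
    set m := ⌊1 / δ⌋₊ with hm
    have hm1 : 1 ≤ m := Nat.le_floor (by rw [Nat.cast_one, le_div_iff₀ h]; linarith)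
    have h1 : (m : ℝ) ≤ 1 / δ := Nat.floor_le (by positivity)
    have h2 : 1 / δ < m + 1 := Nat.lt_floor_add_one _
    rw [le_div_iff₀ h] at h1
    rw [div_lt_iff₀ h] at h2
    have h3 : (m : ℝ) * δ ≠ (1 : ℤ) := (hi.natCast_mul (by omega)).ne_int 1
    have h4 : (m : ℝ) * δ < 1 := lt_of_le_of_ne h1 (by simpa using h3)
    refine ⟨m * k, m * j + 1, Nat.mul_pos hm1 hk0', ?_, ?_⟩
    · push_cast; rw [hδ] at h4; linarith
    · push_cast; rw [hδ] at h2 h4; linarith

lemma exists_recur {η : ℝ} (hη : 0 < η) :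
    ∃ T : ℕ, ∀ y : ℝ, ∃ t : ℕ, 1 ≤ t ∧ t ≤ T ∧ Int.fract (y + t * α) < η := by
  obtain ⟨n, κ, hn, h0, h1⟩ := exists_step hα (lt_min hη one_pos)
  set ε := (κ : ℝ) - n * α with hε
  have hε1 : ε < 1 := h1.trans_le (min_le_right _ _)
  have hεη : ε < η := h1.trans_le (min_le_left _ _)
  refine ⟨⌊2 / ε⌋₊ * n, fun y => ?_⟩
  have hy0 := Int.fract_nonneg y
  have hy1 := Int.fract_lt_one y
  set m := ⌊(Int.fract y + 1) / ε⌋₊ with hm
  have hm1 : 1 ≤ m := Nat.le_floor (by rw [Nat.cast_one, le_div_iff₀ h0]; linarith)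
  have h2 : (m : ℝ) ≤ (Int.fract y + 1) / ε := Nat.floor_le (by positivity)
  have h3 : (Int.fract y + 1) / ε < m + 1 := Nat.lt_floor_add_one _
  rw [le_div_iff₀ h0] at h2
  rw [div_lt_iff₀ h0] at h3
  refine ⟨m * n, Nat.mul_pos hm1 hn, Nat.mul_le_mul_right _ (Nat.floor_mono ?_), ?_⟩
  · gcongr; linarith
  · have e : y + ((m * n : ℕ) : ℝ) * α
        = (Int.fract y + 1 - m * ε) + ((⌊y⌋ - 1 + m * κ : ℤ) : ℝ) := by
      rw [hε, Int.fract]; push_cast; ring
    rw [e, Int.fract_add_intCast, Int.fract_eq_self.2 ⟨by linarith, by linarith⟩]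
    linarith

end

lemma floor_sub_floor {v ε : ℝ} (h0 : 0 < ε) (h1 : ε < 1) :
    (⌊v⌋ : ℝ) - ⌊v - ε⌋ = if Int.fract v < ε then 1 else 0 := by
  have a0 := Int.fract_nonneg v
  have a1 := Int.fract_lt_one v
  have hx : v = ⌊v⌋ + Int.fract v := (Int.floor_add_fract v).symm
  split_ifs with h
  · have : ⌊v - ε⌋ = ⌊v⌋ - 1 := by
      rw [Int.floor_eq_iff]; push_cast; constructor <;> linarith
    rw [this]; push_cast; ring
  · have : ⌊v - ε⌋ = ⌊v⌋ := by
      rw [Int.floor_eq_iff]; constructor <;> linarith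
    rw [this]; ring

lemma prod_ite_eq (k : ℕ) (P : ℕ → Prop) [DecidablePred P] :
    (∏ i ∈ Finset.range k, if P i then (1 : ℝ) else 0) = if ∀ i < k, P i then 1 else 0 := by
  rw [Finset.prod_ite_zero]; simp

theorem exists_base : Nonempty Base := by
  obtain ⟨t, hirr⟩ := exists_irr
  set α := (bL t).translationNumber with hα
  choose η hη0 hη1 hη using fun i : ℕ => exists_eta hirr (2 ^ (i + 1))
  choose n κ hn hκ0 hκ1 using fun i : ℕ => exists_step hirr (hη0 i)
  set ε : ℕ → ℝ := fun i => κ i - n i * α with hε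
  -- minimal ε up to level k
  have hmin : ∀ k : ℕ, ∃ e : ℝ, 0 < e ∧ ∀ i < k, e ≤ ε i := by
    intro k
    induction k with
    | zero => exact ⟨1, one_pos, fun i hi => absurd hi (by omega)⟩
    | succ k ih =>
      obtain ⟨e, he, H⟩ := ih
      refine ⟨min e (ε k), lt_min he (hκ0 k), fun i hi => ?_⟩
      rcases (Nat.lt_succ_iff.1 hi).eq_or_lt with rfl | h
      · exact min_le_right _ _
      · exact (min_le_left _ _).trans (H i h)
  choose e he0 he using hmin
  choose T0 hT0 using fun k => exists_recur hirr (he0 k)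
  set T : ℕ → ℕ := fun k => ∑ i ∈ Finset.range (k + 1), T0 i with hT
  have hTm : Monotone T := fun a b hab =>
    Finset.sum_le_sum_of_subset (Finset.range_mono (by omega))
  have hT0T : ∀ k, T0 k ≤ T k := fun k =>
    Finset.single_le_sum (f := T0) (fun _ _ => Nat.zero_le _) (by simp)
  set b : ℝ → ℝ := ⇑(bL t) with hb
  have hbs : ContDiff ℝ 1 b := Phi_smooth.add contDiff_const
  have hbi : ∀ m, ContDiff ℝ 1 b^[m] := fun m => by
    induction m with
    | zero => exact contDiff_id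
    | succ m ih => rw [iterate_succ']; exact hbs.comp ih
  have hbadd : ∀ x, b (x + 1) = b x + 1 := (bL t).map_add_one
  have hbiadd : ∀ m x, b^[m] (x + 1) = b^[m] x + 1 := fun m x => by
    induction m with
    | zero => rfl
    | succ m ih => rw [iterate_succ_apply', ih, hbadd, iterate_succ_apply']
  set u : ℕ → ℝ → ℝ := fun i θ => Ψ (Nf θ - Nf (b^[n i] θ) + κ i) with hu
  set V : ℕ → ℝ → ℝ := fun k θ => ∏ i ∈ Finset.range k, u i θ with hV
  have hVn : ∀ k x, 0 ≤ V k x := fun k x =>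
    Finset.prod_nonneg fun i _ => Real.smoothTransition.nonneg _
  refine ⟨⟨b, V, T, fun j => T j + ∑ i ∈ Finset.range j, n i, hbs, (bL t).monotone, hbadd,
    ?_, ?_, fun x => by simp [hV], hVn, ?_, hTm, ?_⟩⟩
  · intro k
    refine contDiff_prod fun i _ => ?_
    exact (Real.smoothTransition.contDiff (n := 1)).comp
      ((Nf_smooth.sub (Nf_smooth.comp (hbi _))).add contDiff_const)
  · intro k x
    refine Finset.prod_congr rfl fun i _ => ?_
    simp only [hu, hbiadd, Nf_add_one]; congr 1; ring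
  · intro k x
    simp only [hV, Finset.prod_range_succ]
    exact mul_le_of_le_one_right (hVn k x) (Real.smoothTransition.le_one _)
  · intro θ
    have ht0 : ∃ t0 : ℕ, ∀ m, m ≠ t0 → Int.fract (b^[m] θ) < 1 / 2 := by
      by_cases h : ∃ m, 1 / 2 ≤ Int.fract (b^[m] θ)
      · obtain ⟨m0, hm0⟩ := h
        exact ⟨m0, fun m hm => not_le.1 fun h' => hm (bad_once hirr θ h' hm0)⟩
      · push Not at h
        exact ⟨0, fun m _ => h m⟩
    obtain ⟨t0, ht0⟩ := ht0
    refine ⟨t0, fun j s hs => ?_⟩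
    set W := T j + ∑ i ∈ Finset.range j, n i with hW
    obtain ⟨y, hy⟩ := ycode hirr (b^[s] θ) W
    have hN : ∀ m ≤ W, Nf (b^[m] (b^[s] θ)) = ⌊y + m * α⌋ := by
      intro m hm
      rw [Nf_eq, hy m hm]
      rw [← iterate_add_apply]
      exact ht0 _ (by omega)
    have hVe : ∀ k ≤ j, ∀ m ≤ T j, V k (b^[m] (b^[s] θ))
        = if ∀ i < k, Int.fract (y + m * α) < ε i then 1 else 0 := by
      intro k hk m hm
      rw [← prod_ite_eq]
      refine Finset.prod_congr rfl fun i hi => ?_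
      have hi' : i < j := (Finset.mem_range.1 hi).trans_le hk
      have hni : n i ≤ ∑ i ∈ Finset.range j, n i :=
        Finset.single_le_sum (f := n) (fun _ _ => Nat.zero_le _) (Finset.mem_range.2 hi')
      simp only [hu]
      rw [← iterate_add_apply b (n i), hN m (by omega), hN (n i + m) (by omega)]
      have e1 : y + ((n i + m : ℕ) : ℝ) * α = (y + m * α - ε i) + (κ i : ℤ) := by
        simp only [hε]; push_cast; ring
      rw [e1, Int.floor_add_intCast]
      have := floor_sub_floor (v := y + m * α) (hκ0 i) ((hκ1 i).trans (hη1 i))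
      push_cast
      have e2 : (⌊y + m * α⌋ : ℝ) - (⌊y + m * α - ε i⌋ + κ i) + κ i
          = ⌊y + m * α⌋ - ⌊y + m * α - ε i⌋ := by ring
      rw [e2]
      simp only [hε] at this ⊢
      rw [this]
      split_ifs <;> simp
    refine ⟨fun k hk m hm => ?_, fun k hk m m' hmm hm' h1 h2 => ?_, fun k hk => ?_⟩
    · rw [hVe k hk m hm]; split_ifs <;> simp
    · rw [hVe k hk _ (by omega)] at h1 h2
      rcases k with _ | k
      · simpa using hmm
      by_contra hc
      have h1' : Int.fract (y + m * α) < ε k := by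
        split_ifs at h1 with h
        · exact h k (by omega)
        · simp at h1
      have h2' : Int.fract (y + m' * α) < ε k := by
        split_ifs at h2 with h
        · exact h k (by omega)
        · simp at h2
      have := hη k (m' - m) (by omega) (by omega) (⌊y + m' * α⌋ - ⌊y + m * α⌋)
      have e3 : ((m' - m : ℕ) : ℝ) * α - ((⌊y + m' * α⌋ - ⌊y + m * α⌋ : ℤ) : ℝ)
          = Int.fract (y + m' * α) - Int.fract (y + m * α) := by
        rw [Nat.cast_sub hmm.le, Int.fract, Int.fract]; push_cast; ring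
      rw [e3] at this
      have a1 := Int.fract_nonneg (y + m * α)
      have a2 := Int.fract_nonneg (y + m' * α)
      have a3 := hκ1 k
      have : |Int.fract (y + m' * α) - Int.fract (y + m * α)| < η k := by
        simp only [hε] at h1' h2'
        rw [abs_lt]; constructor <;> linarith
      linarith
    · obtain ⟨m, hm1, hm2, hm3⟩ := hT0 k y
      have hmT : m ≤ T k := hm2.trans (hT0T k)
      refine ⟨m, hm1, hmT, ?_⟩
      rw [hVe k hk m (hmT.trans (hTm hk)), if_pos]
      exact fun i hi => hm3.trans_le (he k i hi)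

end Crest.Agent.Ent
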