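import Crest.Agent.Ent.B

/-! Combinatorial corollaries. -/

set_option autoImplicit false
open Finset

namespace Crest.Agent.Ent

theorem comb {m : ℕ} (hm : 0 < m) {κ : ℝ} (hκ : 0 < κ) :
    ∃ (U Ω : Type) (_ : Fintype U) (_ : Fintype Ω) (lev : U → Finset Ω → ℕ), Nonempty Ω ∧
      (∀ u T T', T ⊆ T' → lev u T ≤ lev u T') ∧ (∀ u, lev u univ = m) ∧
      (∀ T : Finset Ω, 2 * T.card ≤ Fintype.card Ω → ∃ u, lev u T = 0) ∧
      ∀ (S C : Type) [Fintype C] (u : C → U) (α : C → Ω → S) (μ : C → ℝ), (∀ c, 0 ≤ μ c) →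
        ∑ c, μ c ≤ 1 → ∃ H : Finset (Ω × S), (H.card : ℝ) ≤ κ * Fintype.card Ω ∧ ∀ x : Ω → S,
        ∑ c, μ c * ((lev (u c) (ag x (α c)) : ℝ) - lev (u c) (agH H x (α c))) ≤ 2 := by
  classical
  have hm' : (0 : ℝ) < m := by exact_mod_cast hm
  obtain ⟨U, Ω, _, _, wit, lev, G⟩ := exists_good m (ε := 1 / m) (κ := κ / m) (η := 1 / (4 * m))
    (by positivity) (by positivity) (by positivity)
  refine ⟨U, Ω, inferInstance, inferInstance, lev, G.ne, G.mono, G.top, fun T hT => ?_,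
    fun S C _ u α μ h0 h1 => ?_⟩
  · obtain ⟨u, hu⟩ := G.strong (fun ω => if ω ∈ T then 0 else 1)
      (fun ω => by split_ifs <;> simp) (fun ω => by split_ifs <;> simp) (by
        have e : ∑ ω, (if ω ∈ T then (0 : ℝ) else 1) = ∑ ω, (1 - if ω ∈ T then (1 : ℝ) else 0) :=
          sum_congr rfl fun ω _ => by split_ifs <;> simp
        have : (2 : ℝ) * T.card ≤ Fintype.card Ω := by exact_mod_cast hT
        rw [e, sum_sub_distrib]
        simp only [sum_const, card_univ, nsmul_eq_mul, mul_one, sum_ite_mem, univ_inter]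
        linarith)
    refine ⟨u, G.bot _ _ ?_⟩
    rintro ⟨W, hW, hWT⟩
    have h1 := hu W hW
    have hc : (0 : ℝ) < W.card := by exact_mod_cast (G.wne _ _ hW).card_pos
    rw [sum_eq_zero fun ω hω => if_pos (hWT hω)] at h1
    have : (1 : ℝ) / 2 - m * (1 / (4 * m)) = 1 / 4 := by field_simp; norm_num
    rw [this] at h1
    linarith
  · obtain ⟨H, hH, hH'⟩ := G.weak S C u α μ h0 h1
    refine ⟨H, hH.trans (le_of_eq (by field_simp)), fun x => ?_⟩
    have h2 := hH' x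
    rw [mul_one_div_cancel hm'.ne'] at h2
    refine le_trans ?_ ((add_le_add h2 h1).trans (by norm_num))
    rw [← sum_add_distrib]
    refine sum_le_sum fun c _ => ?_
    have := h0 c
    split_ifs <;> nlinarith

lemma exists_enum {β : Type} [DecidableEq β] [Nonempty β] {h : ℕ} (H : Finset β)
    (hH : H.card ≤ h) : ∃ e : Fin h → β, ∀ b ∈ H, ∃ k, e k = b := by
  obtain ⟨f⟩ := Function.Embedding.nonempty_of_card_le (α := H) (β := Fin h) (by simpa using hH)
  exact ⟨Function.extend f Subtype.val fun _ => Classical.arbitrary β,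
    fun b hb => ⟨f ⟨b, hb⟩, f.injective.extend_apply _ _ _⟩⟩

open scoped Classical in
lemma card_near {Ω : Type} [Fintype Ω] {q : ℕ} (hq : 0 < q) (x₀ : Ω → Fin q) :
    (univ.filter fun x : Ω → Fin q => Fintype.card Ω < 2 * (ag x x₀).card).card ≤
      2 ^ Fintype.card Ω * q ^ (Fintype.card Ω / 2) := by
  have hsub : (univ.filter fun x : Ω → Fin q => Fintype.card Ω < 2 * (ag x x₀).card) ⊆
      (univ.filter fun T : Finset Ω => Fintype.card Ω < 2 * T.card).biUnion fun T =>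
        Fintype.piFinset fun ω => if ω ∈ T then {x₀ ω} else univ := by
    intro x hx
    refine mem_biUnion.mpr ⟨ag x x₀, mem_filter.mpr ⟨mem_univ _, (mem_filter.mp hx).2⟩,
      Fintype.mem_piFinset.mpr fun ω => ?_⟩
    split_ifs with h
    · exact mem_singleton.mpr (mem_ag.mp h)
    · exact mem_univ _
  refine (card_le_card hsub).trans ((card_biUnion_le_card_mul _ _ (q ^ (Fintype.card Ω / 2))
    fun T hT => ?_).trans (Nat.mul_le_mul_right _ ?_))
  · have h1 := (mem_filter.mp hT).2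
    have e : (Fintype.piFinset fun ω => if ω ∈ T then ({x₀ ω} : Finset (Fin q)) else univ).card =
        q ^ Tᶜ.card := by
      rw [Fintype.card_piFinset, ← prod_const, ← prod_ite_mem_eq Tᶜ]
      refine prod_congr rfl fun i _ => ?_
      by_cases h : i ∈ T <;> simp [h]
    rw [e, card_compl]
    exact Nat.pow_le_pow_right hq (by omega)
  · exact (card_le_univ _).trans (by simp)

lemma exists_reps {V Γ : Type} [Nonempty V] (Y : Set V) (s : Finset Γ) (r : V → Γ → Prop)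
    (h : ∀ y ∈ Y, ∃ σ ∈ s, r y σ) : ∃ t : Finset V, t.card ≤ s.card ∧
      ∀ y ∈ Y, ∃ y' ∈ t, y' ∈ Y ∧ ∃ σ, r y σ ∧ r y' σ := by
  classical
  have : ∀ σ, ∃ v : V, (∃ y ∈ Y, r y σ) → v ∈ Y ∧ r v σ := fun σ => by
    by_cases h : ∃ y ∈ Y, r y σ
    · obtain ⟨y, hy⟩ := h; exact ⟨y, fun _ => hy⟩
    · exact ⟨Classical.arbitrary V, fun h' => absurd h' h⟩
  choose v hv using this
  refine ⟨s.image v, card_image_le, fun y hy => ?_⟩
  obtain ⟨σ, hσ, hr⟩ := h y hy
  exact ⟨v σ, mem_image_of_mem _ hσ, (hv σ ⟨y, hy, hr⟩).1, σ, hr, (hv σ ⟨y, hy, hr⟩).2⟩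

open scoped Classical in
/-- the covering of the cross-polytope -/
lemma cover {U Ω : Type} [Fintype Ω] [Nonempty Ω] {lev : U → Finset Ω → ℕ} {m h q n : ℕ}
    (hq : 0 < q) (mono : ∀ u T T', T ⊆ T' → lev u T ≤ lev u T') (top : ∀ u, lev u univ = m)
    (u : Fin n → U) (α : Fin n → Ω → Fin q)
    (weak : ∀ μ : Fin n → ℝ, (∀ c, 0 ≤ μ c) → ∑ c, μ c ≤ 1 → ∃ H : Finset (Ω × Fin q),
      H.card ≤ h ∧ ∀ x, ∑ c, μ c * ((lev (u c) (ag x (α c)) : ℝ) - lev (u c) (agH H x (α c))) ≤ 2) :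
    ∃ t : Finset (EuclideanSpace ℝ (Fin n)),
      t.card ≤ (Fintype.card Ω * q) ^ h * (2 * m + 1) ^ 2 ^ h ∧
      ∀ y : EuclideanSpace ℝ (Fin n), ∑ i, |y i| ≤ 1 → ∃ y' ∈ t, ∑ i, |y' i| ≤ 1 ∧
        ∀ x, |∑ i, (y i - y' i) * lev (u i) (ag x (α i))| ≤ 5 := by
  have : Nonempty (Fin q) := ⟨⟨0, hq⟩⟩
  let T : (Fin h → Ω × Fin q) → Finset (Fin h) → Fin n → Finset Ω :=
    fun e π i => univ.filter fun ω => ∃ k ∈ π, e k = (ω, α i ω)
  let G : EuclideanSpace ℝ (Fin n) → (Fin h → Ω × Fin q) → Finset (Fin h) → ℝ :=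
    fun y e π => ∑ i, y i * lev (u i) (T e π i)
  let pat : (Fin h → Ω × Fin q) → (Ω → Fin q) → Finset (Fin h) :=
    fun e x => univ.filter fun k => x (e k).1 = (e k).2
  obtain ⟨t, ht, ht'⟩ := exists_reps {y : EuclideanSpace ℝ (Fin n) | ∑ i, |y i| ≤ 1}
    ((univ : Finset (Fin h → Ω × Fin q)) ×ˢ
      Fintype.piFinset fun _ : Finset (Fin h) => Icc (-(m : ℤ)) m)
    (fun y σ => (∀ π, ⌊G y σ.1 π⌋ = σ.2 π) ∧
      ∀ x, |∑ i, y i * lev (u i) (ag x (α i)) - G y σ.1 (pat σ.1 x)| ≤ 2) (by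
    intro y hy
    obtain ⟨H, hH, hH'⟩ := weak (fun i => |y i|) (fun _ => abs_nonneg _) hy
    obtain ⟨e, he⟩ := exists_enum H hH
    refine ⟨(e, fun π => ⌊G y e π⌋), mem_product.mpr ⟨mem_univ _, Fintype.mem_piFinset.mpr
      fun π => ?_⟩, fun _ => rfl, fun x => ?_⟩
    · have hG : |G y e π| ≤ m := by
        calc |G y e π| ≤ ∑ i, |y i| * m := (abs_sum_le_sum_abs _ _).trans (sum_le_sum fun i _ => by
              rw [abs_mul, Nat.abs_cast]
              refine mul_le_mul_of_nonneg_left (Nat.cast_le.mpr ?_) (abs_nonneg _)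
              exact (mono _ _ _ (subset_univ _)).trans (top _).le)
          _ ≤ m := by
              rw [← sum_mul]
              exact mul_le_of_le_one_left (Nat.cast_nonneg _) hy
      obtain ⟨h1, h2⟩ := abs_le.mp hG
      refine mem_Icc.mpr ⟨Int.le_floor.mpr (by simpa using h1), ?_⟩
      exact_mod_cast (Int.floor_le _).trans h2
    · refine le_trans ?_ (hH' x)
      simp only [G]
      rw [← sum_sub_distrib]
      refine (abs_sum_le_sum_abs _ _).trans (sum_le_sum fun i _ => ?_)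
      have h1 : (lev (u i) (T e (pat e x) i) : ℝ) ≤ lev (u i) (ag x (α i)) := by
        refine Nat.cast_le.mpr (mono _ _ _ fun ω hω => mem_ag.mpr ?_)
        obtain ⟨k, hk, hk'⟩ := (mem_filter.mp hω).2
        have := (mem_filter.mp hk).2
        rwa [hk'] at this
      have h2 : (lev (u i) (agH H x (α i)) : ℝ) ≤ lev (u i) (T e (pat e x) i) := by
        refine Nat.cast_le.mpr (mono _ _ _ fun ω hω => ?_)
        obtain ⟨h3, h4⟩ := mem_agH.mp hω
        obtain ⟨k, hk⟩ := he _ h4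
        exact mem_filter.mpr ⟨mem_univ _, k, mem_filter.mpr ⟨mem_univ _, by rw [hk]⟩, h3 ▸ hk⟩
      rw [← mul_sub, abs_mul, abs_of_nonneg (sub_nonneg.mpr h1)]
      exact mul_le_mul_of_nonneg_left (by linarith) (abs_nonneg _))
  refine ⟨t, ht.trans (le_of_eq ?_), fun y hy => ?_⟩
  · rw [card_product, Fintype.card_piFinset]
    simp only [card_univ, Fintype.card_fun, Fintype.card_prod, Fintype.card_fin, Int.card_Icc,
      prod_const, Fintype.card_finset]
    congr 2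
    omega
  · obtain ⟨y', hy', hy'', σ, ⟨h1, h2⟩, h3, h4⟩ := ht' y hy
    refine ⟨y', hy', hy'', fun x => ?_⟩
    have h5 := Int.abs_sub_lt_one_of_floor_eq_floor ((h1 (pat σ.1 x)).trans (h3 _).symm)
    obtain ⟨a1, a2⟩ := abs_le.mp (h2 x)
    obtain ⟨a3, a4⟩ := abs_le.mp (h4 x)
    obtain ⟨a5, a6⟩ := abs_lt.mp h5
    simp only [sub_mul, sum_sub_distrib]
    rw [abs_le]
    constructor <;> linarith

end Crest.Agent.Ent
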