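import Crest.Agent.Ent.Cocycle

set_option autoImplicit false

open Function Filter Topology Complex
open scoped Real ComplexConjugate

namespace Crest.Agent.Ent

noncomputable def cone (p : ℝ × ℝ) : ℂ := p.1 • ex (p.2 / p.1)

lemma norm_ex (s : ℝ) : ‖ex s‖ = 1 := norm_eq_of_mem_sphere ⟨_, ex_mem s⟩

lemma norm_cone (p : ℝ × ℝ) : ‖cone p‖ = |p.1| := by
  rw [cone, norm_smul, norm_ex, mul_one, Real.norm_eq_abs]

lemma cone_cont : Continuous cone := by
  rw [continuous_iff_continuousAt]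
  intro p
  rcases eq_or_ne p.1 0 with h | h
  · have h0 : cone p = 0 := by simp [cone, h]
    rw [ContinuousAt, h0, tendsto_zero_iff_norm_tendsto_zero]
    simp only [norm_cone]
    have : Tendsto (fun q : ℝ × ℝ => |q.1|) (𝓝 p) (𝓝 |p.1|) :=
      (continuous_fst.abs).continuousAt
    simpa [h] using this
  · exact continuousAt_fst.smul (ex_smooth.continuous.continuousAt.comp
      (continuousAt_snd.div continuousAt_fst h))

def ind (b : Bool) : ℝ := if b then 1 else 0
def sg (s : Bool) : ℝ := if s then 1 else -1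

/-- weighted coordinate sum -/
noncomputable def ws {n : ℕ} (a : Fin (n + 1) → ℝ) (t : Dl n) : ℝ := ∑ i, t i * a i

lemma ws_cont {n : ℕ} (a : Fin (n + 1) → ℝ) : Continuous (ws a) := by
  refine continuous_finset_sum _ fun i _ => Continuous.mul ?_ continuous_const
  exact (continuous_apply i).comp continuous_subtype_val

lemma ws_smap {n m : ℕ} (f : Fin (n + 1) → Fin (m + 1)) (a : Fin (m + 1) → ℝ) (t : Dl n) :
    ws a (smap f t) = ws (a ∘ f) t := by
  unfold ws
  show ∑ i, (stdSimplex.map f t) i * a i = _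
  simp only [stdSimplex.map_coe, FunOnFinite.linearMap_apply_apply, Finset.sum_mul]
  rw [← Finset.sum_fiberwise Finset.univ f]
  refine Finset.sum_congr rfl fun j _ => Finset.sum_congr rfl fun i hi => ?_
  rw [comp_apply, (Finset.mem_filter.1 hi).2]

lemma ws_ind {n : ℕ} (r : Fin (n + 1) → Bool) (t : Dl n) :
    0 ≤ ws (ind ∘ r) t ∧ ws (ind ∘ r) t ≤ 1 := by
  have h : ∀ i, 0 ≤ ind (r i) ∧ ind (r i) ≤ 1 := fun i => by unfold ind; split_ifs <;> norm_num
  refine ⟨Finset.sum_nonneg fun i _ => mul_nonneg (stdSimplex.zero_le t i) (h i).1, ?_⟩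
  rw [← stdSimplex.sum_eq_one t]
  exact Finset.sum_le_sum fun i _ => mul_le_of_le_one_right (stdSimplex.zero_le t i) (h i).2

/-- cap simplices -/
noncomputable def NN (s : Bool) {n : ℕ} (r : Fin (n + 1) → Bool) (a : Fin (n + 1) → ℝ) :
    C(Dl n, S2) :=
  ⟨fun t => ⟨mkE (cone (ws (ind ∘ r) t, ws a t)) (sg s * √(1 - ws (ind ∘ r) t ^ 2)), mem_S2 (by
      have h := ws_ind r t
      have h2 : sg s ^ 2 = 1 := by unfold sg; split_ifs <;> norm_num
      rw [mkE_fst, mkE_snd, norm_cone, sq_abs, mul_pow, h2, Real.sq_sqrt (by nlinarith)]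
      ring)⟩,
    Continuous.subtype_mk (contDiff_mkE.continuous.comp
      ((cone_cont.comp ((ws_cont _).prodMk (ws_cont _))).prodMk
        (continuous_const.mul (continuous_const.sub ((ws_cont _).pow 2)).sqrt))) _⟩

lemma NN_comp (s : Bool) {n m : ℕ} (r : Fin (m + 1) → Bool) (a : Fin (m + 1) → ℝ)
    (f : Fin (n + 1) → Fin (m + 1)) : (NN s r a).comp (smap f) = NN s (r ∘ f) (a ∘ f) := by
  ext1 t
  apply Subtype.ext
  simp only [NN, ContinuousMap.comp_apply, ContinuousMap.coe_mk, ws_smap]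
  rfl

lemma ws_true {n : ℕ} (t : Dl n) : ws (ind ∘ fun _ => true) t = 1 := by
  simp [ws, ind]

lemma NN_eq (s : Bool) {n : ℕ} (a : Fin (n + 1) → ℝ) (t : Dl n) :
    (NN s (fun _ => true) a t : E3) = mkE (ex (ws a t)) 0 := by
  simp only [NN, ContinuousMap.coe_mk, ws_true, cone]
  simp

lemma NN_sign (s s' : Bool) {n : ℕ} (a : Fin (n + 1) → ℝ) :
    NN s (fun _ => true) a = NN s' (fun _ => true) a := by
  ext1 t; apply Subtype.ext; rw [NN_eq, NN_eq]

lemma NN_shift (s : Bool) {n : ℕ} (r : Fin (n + 1) → Bool) (a : Fin (n + 1) → ℝ) :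
    NN s r (a + ind ∘ r) = NN s r a := by
  ext1 t
  apply Subtype.ext
  simp only [NN, ContinuousMap.coe_mk]
  congr 1
  have : ws (a + ind ∘ r) t = ws a t + ws (ind ∘ r) t := by
    simp only [ws, Pi.add_apply, mul_add, Finset.sum_add_distrib]
  rw [this, cone, cone]
  rcases eq_or_ne (ws (ind ∘ r) t) 0 with h | h
  · simp [h]
  · simp only
    rw [add_div, div_self h, ex_add_one]

lemma cc_cont : Continuous cc :=
  (LipschitzWith.of_dist_le_mul (K := 3) fun x y => by
    simpa [dist_eq_norm] using lip_cc x y).continuous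

noncomputable def P2 : C(S2, S2) :=
  ⟨fun p => ⟨mkE (cc (p : E3).fst) (p : E3).snd, mem_S2 (by
    rw [mkE_fst, mkE_snd, norm_cc]; exact S2_eq p)⟩,
    Continuous.subtype_mk (contDiff_mkE.continuous.comp
      ((cc_cont.comp (by fun_prop)).prodMk (by fun_prop))) _⟩

lemma cc_ex (x : ℝ) : cc (ex x) = ex (2 * x) := by
  rw [cc, norm_ex, inv_one, one_smul, ex, ex, ← Complex.exp_add]
  congr 1; push_cast; ring

lemma P2_NN (s : Bool) {n : ℕ} (r : Fin (n + 1) → Bool) (a : Fin (n + 1) → ℝ) :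
    P2.comp (NN s r a) = NN s r (fun i => 2 * a i) := by
  ext1 t
  apply Subtype.ext
  simp only [NN, P2, ContinuousMap.comp_apply, ContinuousMap.coe_mk, mkE_fst, mkE_snd]
  congr 1
  have : ws (fun i => 2 * a i) t = 2 * ws a t := by
    simp only [ws, Finset.mul_sum]; exact Finset.sum_congr rfl fun i _ => by ring
  rw [this, cone, cone, cc_smul (ws_ind r t).1, cc_ex, mul_div_assoc]

noncomputable def cap (s : Bool) (x y : ℝ) : C(Dl 2, S2) := NN s ![false, true, true] ![0, x, y]
noncomputable def cap3 (s : Bool) : C(Dl 3, S2) := NN s ![false, true, true, true] ![0, 0, 1, 2]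
noncomputable def eqt : C(Dl 1, S2) := NN true (fun _ => true) ![0, 1]

lemma cap_f0 (s : Bool) : (cap s 0 1).comp (smap ![1, 2]) = eqt := by
  rw [cap, NN_comp, eqt, NN_sign true s]
  congr 1 <;> funext i <;> fin_cases i <;> rfl

lemma cap_f12 (s : Bool) : (cap s 0 1).comp (smap ![0, 2]) = (cap s 0 1).comp (smap ![0, 1]) := by
  rw [cap, NN_comp, NN_comp, ← NN_shift s (_ ∘ ![0, 1])]
  congr 1 <;> funext i <;> fin_cases i <;> simp [ind]

lemma cap3_f0 : (cap3 true).comp (smap ![1, 2, 3]) = (cap3 false).comp (smap ![1, 2, 3]) := by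
  have e : (![false, true, true, true] ∘ ![1, 2, 3] : Fin 3 → Bool) = fun _ => true := by
    funext i; fin_cases i <;> rfl
  rw [cap3, cap3, NN_comp, NN_comp, e, NN_sign true false]

lemma cap3_f1 (s : Bool) : (cap3 s).comp (smap ![0, 2, 3]) = cap s 0 1 := by
  rw [cap3, NN_comp, cap, ← NN_shift s ![false, true, true]]
  congr 1 <;> funext i <;> fin_cases i <;> simp [ind]
  norm_num

lemma cap3_f2 (s : Bool) : (cap3 s).comp (smap ![0, 1, 3]) = P2.comp (cap s 0 1) := by
  rw [cap3, NN_comp, cap, P2_NN]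
  congr 1 <;> funext i <;> fin_cases i <;> simp

lemma cap3_f3 (s : Bool) : (cap3 s).comp (smap ![0, 1, 2]) = cap s 0 1 := by
  rw [cap3, NN_comp, cap]
  congr 1 <;> funext i <;> fin_cases i <;> rfl

noncomputable def vpC : C(S2, ℂ × ℂ) := ⟨fun p => vp p, by unfold vp; fun_prop⟩
noncomputable def vmC : C(S2, ℂ × ℂ) := ⟨fun p => vm p, by unfold vm; fun_prop⟩

theorem phi_cap : phi (cap true 0 1) - phi (cap false 0 1) ≠ 0 := by
  have hp : IsLift (cap true 0 1) (vpC.comp (cap true 0 1)) := fun t =>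
    vp_lift _ (by
      show 0 ≤ sg true * _
      exact mul_nonneg (by simp [sg]) (Real.sqrt_nonneg _))
  have hm : IsLift (cap false 0 1) (vmC.comp (cap false 0 1)) := fun t =>
    vm_lift _ (by
      show sg false * _ ≤ 0
      exact mul_nonpos_of_nonpos_of_nonneg (by simp [sg]) (Real.sqrt_nonneg _))
  rw [phi_eq hp, phi_eq hm, phi', phi']
  simp only [ContinuousMap.comp_assoc, cap_f0, cap_f12]
  have hp' : IsLift eqt (vpC.comp eqt) := by
    have := hp.comp (smap ![1, 2])
    rwa [ContinuousMap.comp_assoc, cap_f0] at this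
  have hm' : IsLift eqt (vmC.comp eqt) := by
    have := hm.comp (smap ![1, 2])
    rwa [ContinuousMap.comp_assoc, cap_f0] at this
  have key := Wl_change hm' hp'
    ⟨fun t => (2 * π * ws ![0, 1] t : ℝ) * I, by have := ws_cont (n := 1) ![0, 1]; fun_prop⟩
    fun t => by
      show vp (eqt t) = ex (ws ![0, 1] t) • vm (eqt t)
      rw [eqt, NN_eq, vp, vm]
      ext
      · simp [Complex.mul_conj', norm_ex]
      · simp
  have e1 : ws ![0, 1] (vx 1 : Dl 1) = 1 := by simp [ws, vx]
  have e0 : ws ![0, 1] (vx 0 : Dl 1) = 0 := by simp [ws, vx]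
  simp only [ContinuousMap.coe_mk, e1, e0] at key
  simp at key
  rw [key]
  have := Real.pi_pos
  intro h
  linarith

end Crest.Agent.Ent
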