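import Crest.Agent.Ent.Sphere

set_option autoImplicit false

open Function Filter Topology Complex
open scoped Real ComplexConjugate

namespace Crest.Agent.Ent

abbrev Dl (n : ℕ) : Type := stdSimplex ℝ (Fin (n + 1))

noncomputable def smap {n m : ℕ} (f : Fin (n + 1) → Fin (m + 1)) : C(Dl n, Dl m) :=
  ⟨stdSimplex.map f, stdSimplex.continuous_map f⟩

lemma smap_comp {n m k : ℕ} (f : Fin (n + 1) → Fin (m + 1)) (g : Fin (m + 1) → Fin (k + 1)) :
    (smap g).comp (smap f) = smap (g ∘ f) :=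
  ContinuousMap.ext fun x => stdSimplex.map_comp_apply f g x

noncomputable def vx {n : ℕ} (i : Fin (n + 1)) : Dl n := stdSimplex.vertex i

lemma smap_vx {n m : ℕ} (f : Fin (n + 1) → Fin (m + 1)) (i : Fin (n + 1)) :
    smap f (vx i) = vx (f i) := stdSimplex.map_vertex f i

lemma exists_log {n : ℕ} (g : C(Dl n, ℂ)) (hg : ∀ x, g x ≠ 0) :
    ∃ L : C(Dl n, ℂ), ∀ x, exp (L x) = g x := by
  haveI : ContractibleSpace (Dl n) :=
    (convex_stdSimplex ℝ (Fin (n + 1))).contractibleSpace ⟨_, (vx 0 : Dl n).2⟩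
  haveI : LocallyPathConnectedSpace (Dl n) :=
    (convex_stdSimplex ℝ (Fin (n + 1))).locallyPathConnectedSpace
  obtain ⟨L, ⟨-, hL⟩, -⟩ := Complex.isCoveringMap_exp.existsUnique_continuousMap_lifts
    (⟨fun x => ⟨g x, hg x⟩, by fun_prop⟩ : C(Dl n, {z : ℂ // z ≠ 0})) (vx 0) (log (g (vx 0)))
    (Subtype.ext (exp_log (hg _)))
  exact ⟨L, fun x => congrArg Subtype.val (congrFun hL x)⟩

lemma log_uniq {n : ℕ} (L L' : C(Dl n, ℂ)) (h : ∀ x, exp (L x) = exp (L' x)) (x y : Dl n) :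
    L x - L y = L' x - L' y := by
  have := Complex.isCoveringMap_exp.const_of_comp (g := fun x => L x - L' x) (by fun_prop)
    (fun a a' => Subtype.ext (by simp only [exp_sub, h, div_self (exp_ne_zero _)])) x y
  linear_combination this

open Classical in
/-- variation of the argument along an edge -/
noncomputable def Wn (g : C(Dl 1, ℂ)) : ℝ :=
  if h : ∃ L : C(Dl 1, ℂ), ∀ x, exp (L x) = g x then (h.choose (vx 1) - h.choose (vx 0)).im else 0

lemma Wn_eq (g L : C(Dl 1, ℂ)) (h : ∀ x, exp (L x) = g x) : Wn g = (L (vx 1) - L (vx 0)).im := by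
  have h' : ∃ L : C(Dl 1, ℂ), ∀ x, exp (L x) = g x := ⟨L, h⟩
  rw [Wn, dif_pos h', log_uniq h'.choose L fun x => by rw [h'.choose_spec, h]]

/-- `v` lies on the complex line attached to `p` -/
def Fx (p : E3) (v : ℂ × ℂ) : Prop :=
  conj p.fst * v.2 = (1 - p.snd) * v.1 ∧ p.fst * v.1 = (1 + p.snd) * v.2

noncomputable def Pm (p : E3) (v : ℂ × ℂ) : ℂ × ℂ :=
  ((1 + p.snd) * v.1 + conj p.fst * v.2, p.fst * v.1 + (1 - p.snd) * v.2)

lemma S2_eqC (p : S2) : conj (p : E3).fst * (p : E3).fst = 1 - ((p : E3).snd : ℂ) ^ 2 := by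
  rw [Complex.conj_mul']
  have := S2_eq p
  have h : ((‖(p : E3).fst‖ ^ 2 + (p : E3).snd ^ 2 : ℝ) : ℂ) = 1 := by rw [this]; simp
  push_cast at h
  linear_combination h

lemma Fx_Pm (p : S2) (v : ℂ × ℂ) : Fx p (Pm p v) := by
  have h := S2_eqC p
  constructor
  · simp only [Pm]; linear_combination v.1 * h
  · simp only [Pm]; linear_combination v.2 * h

lemma Pm_ne {p p' : E3} {v : ℂ × ℂ} (h : Fx p v) (hv : v ≠ 0) (hp : p + p' ≠ 0) :
    Pm p' v ≠ 0 := by
  intro h0
  have a1 : (Pm p' v).1 = 0 := by rw [h0]; rfl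
  have a2 : (Pm p' v).2 = 0 := by rw [h0]; rfl
  simp only [Pm] at a1 a2
  obtain ⟨b1, b2⟩ := h
  have hN : ((‖p + p'‖ ^ 2 : ℝ) : ℂ) ≠ 0 := by
    exact_mod_cast pow_ne_zero 2 (norm_ne_zero_iff.2 hp)
  have e : ((‖p + p'‖ ^ 2 : ℝ) : ℂ)
      = (conj p.fst + conj p'.fst) * (p.fst + p'.fst) + (p.snd + p'.snd) ^ 2 := by
    rw [norm_sq_E3, ← map_add, Complex.conj_mul', WithLp.add_fst, WithLp.add_snd]
    push_cast; ring
  rw [e] at hN
  have c1 : (conj p.fst + conj p'.fst) * v.2 = -(p.snd + p'.snd) * v.1 := by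
    linear_combination a1 + b1
  have c2 : (p.fst + p'.fst) * v.1 = (p.snd + p'.snd) * v.2 := by
    linear_combination a2 + b2
  apply hv
  ext
  · apply mul_left_cancel₀ hN
    simp only [Prod.fst_zero]
    linear_combination (conj p.fst + conj p'.fst) * c2 + (p.snd + p'.snd) * c1
  · apply mul_left_cancel₀ hN
    simp only [Prod.snd_zero]
    linear_combination (p.fst + p'.fst) * c1 - (p.snd + p'.snd) * c2

def IsLift {X : Type} [TopologicalSpace X] (σ : C(X, S2)) (v : C(X, ℂ × ℂ)) : Prop :=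
  ∀ x, v x ≠ 0 ∧ Fx (σ x) (v x)

lemma IsLift.comp {X Y : Type} [TopologicalSpace X] [TopologicalSpace Y] {σ : C(X, S2)}
    {v : C(X, ℂ × ℂ)} (h : IsLift σ v) (f : C(Y, X)) : IsLift (σ.comp f) (v.comp f) :=
  fun y => h (f y)

lemma lift_near {X : Type} [TopologicalSpace X] {σ σ' : C(X, S2)}
    (h : ∀ x, dist (σ x) (σ' x) < 2) (hσ : ∃ v, IsLift σ v) : ∃ v, IsLift σ' v := by
  obtain ⟨v, hv⟩ := hσ
  refine ⟨⟨fun x => Pm (σ' x) (v x), by unfold Pm; fun_prop⟩, fun x => ⟨?_, Fx_Pm _ _⟩⟩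
  refine Pm_ne (hv x).2 (hv x).1 fun h0 => ?_
  have h1 := h x
  rw [Subtype.dist_eq, dist_eq_norm, eq_neg_of_add_eq_zero_left h0, ← neg_add', norm_neg,
    ← two_smul ℝ, norm_smul, norm_eq_of_mem_sphere] at h1
  norm_num at h1

noncomputable def vp (p : E3) : ℂ × ℂ := (1 + p.snd, p.fst)
noncomputable def vm (p : E3) : ℂ × ℂ := (conj p.fst, 1 - p.snd)

lemma vp_lift (p : S2) (h : 0 ≤ (p : E3).snd) : vp p ≠ 0 ∧ Fx p (vp p) := by
  have h1 := S2_eqC p
  refine ⟨fun h0 => ?_, ?_, ?_⟩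
  · have : (1 + (p : E3).snd : ℂ) = 0 := congrArg Prod.fst h0
    have : (1 + (p : E3).snd : ℝ) = 0 := by exact_mod_cast this
    linarith
  · simp only [vp]; linear_combination h1
  · simp only [vp]; ring

lemma vm_lift (p : S2) (h : (p : E3).snd ≤ 0) : vm p ≠ 0 ∧ Fx p (vm p) := by
  have h1 := S2_eqC p
  refine ⟨fun h0 => ?_, ?_, ?_⟩
  · have : (1 - (p : E3).snd : ℂ) = 0 := congrArg Prod.snd h0
    have : (1 - (p : E3).snd : ℝ) = 0 := by exact_mod_cast this
    linarith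
  · simp only [vm]; ring
  · simp only [vm]; linear_combination h1

lemma exists_lift {n : ℕ} (σ : C(Dl n, S2)) : ∃ v, IsLift σ v := by
  let H : C(unitInterval × Dl n, Dl n) :=
    ⟨fun p => ⟨(1 - (p.1 : ℝ)) • (vx 0 : Dl n).1 + (p.1 : ℝ) • p.2.1,
      convex_stdSimplex ℝ _ (vx 0 : Dl n).2 p.2.2 (sub_nonneg.2 p.1.2.2) p.1.2.1 (by ring)⟩,
      by fun_prop⟩
  let G : C(unitInterval, C(Dl n, S2)) := (σ.comp H).curry
  have hlc : IsLocallyConstant fun s => ∃ v, IsLift (G s) v := by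
    rw [IsLocallyConstant.iff_eventually_eq]
    intro s
    filter_upwards [G.continuous.continuousAt.eventually
      (Metric.ball_mem_nhds (G s) (show (0 : ℝ) < 2 by norm_num))] with s' hs'
    have h : ∀ x, dist (G s' x) (G s x) < 2 := fun x =>
      (ContinuousMap.dist_apply_le_dist x).trans_lt hs'
    exact propext ⟨lift_near h, lift_near fun x => by rw [dist_comm]; exact h x⟩
  have h0 : ∃ v, IsLift (G 0) v := by
    have e : ∀ x, G 0 x = σ (vx 0) := fun x => by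
      show σ _ = σ _
      congr 1; apply Subtype.ext; simp [H]
    rcases le_total 0 (σ (vx 0) : E3).snd with h | h
    · exact ⟨.const _ (vp (σ (vx 0))), fun x => by rw [e]; exact vp_lift _ h⟩
    · exact ⟨.const _ (vm (σ (vx 0))), fun x => by rw [e]; exact vm_lift _ h⟩
  have h1 := hlc.apply_eq_of_preconnectedSpace 0 1
  have e : G 1 = σ := ContinuousMap.ext fun x => by
    show σ _ = σ _
    congr 1; apply Subtype.ext; simp [H]
  simp only [e] at h1
  exact h1 ▸ h0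

lemma exists_rat {X : Type} [TopologicalSpace X] {σ : C(X, S2)} {v v' : C(X, ℂ × ℂ)}
    (h : IsLift σ v) (h' : IsLift σ v') :
    ∃ g : C(X, ℂ), ∀ x, g x ≠ 0 ∧ v' x = g x • v x := by
  have hd : ∀ x, (v x).1 * conj (v x).1 + (v x).2 * conj (v x).2 ≠ 0 := fun x h0 => by
    rw [Complex.mul_conj, Complex.mul_conj] at h0
    have h1 : normSq (v x).1 + normSq (v x).2 = 0 := by exact_mod_cast h0
    have a1 := normSq_nonneg (v x).1
    have a2 := normSq_nonneg (v x).2
    exact (h x).1 (Prod.ext (normSq_eq_zero.1 (by linarith)) (normSq_eq_zero.1 (by linarith)))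
  refine ⟨⟨fun x => ((v' x).1 * conj (v x).1 + (v' x).2 * conj (v x).2) /
    ((v x).1 * conj (v x).1 + (v x).2 * conj (v x).2),
    Continuous.div (by fun_prop) (by fun_prop) hd⟩, fun x => ?_⟩
  have key : v' x = (((v' x).1 * conj (v x).1 + (v' x).2 * conj (v x).2) /
      ((v x).1 * conj (v x).1 + (v x).2 * conj (v x).2)) • v x := by
    obtain ⟨a1, a2⟩ := (h x).2
    obtain ⟨b1, b2⟩ := (h' x).2
    have det : (v' x).1 * (v x).2 - (v' x).2 * (v x).1 = 0 := by
      linear_combination (1 / 2 : ℂ) * ((v x).1 * b2 - (v' x).1 * a2 + (v' x).2 * a1 - (v x).2 * b1)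
    have := hd x
    ext
    · simp only [Prod.smul_fst, smul_eq_mul]
      rw [div_mul_eq_mul_div, eq_div_iff this]
      linear_combination conj (v x).2 * det
    · simp only [Prod.smul_snd, smul_eq_mul]
      rw [div_mul_eq_mul_div, eq_div_iff this]
      linear_combination -conj (v x).1 * det
  refine ⟨fun h0 => (h' x).1 ?_, key⟩
  rw [key]
  simp only [ContinuousMap.coe_mk] at h0
  rw [h0, zero_smul]

open Classical in
/-- winding of the chosen lift of an edge relative to `v` -/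
noncomputable def Wl (e : C(Dl 1, S2)) (v : C(Dl 1, ℂ × ℂ)) : ℝ :=
  if h : IsLift e v then Wn (exists_rat h (exists_lift e).choose_spec).choose else 0

lemma Wl_change {e : C(Dl 1, S2)} {v v' : C(Dl 1, ℂ × ℂ)} (h : IsLift e v) (h' : IsLift e v')
    (L : C(Dl 1, ℂ)) (hL : ∀ x, v' x = exp (L x) • v x) :
    Wl e v = Wl e v' + (L (vx 1) - L (vx 0)).im := by
  rw [Wl, Wl, dif_pos h, dif_pos h']
  have s1 := (exists_rat h (exists_lift e).choose_spec).choose_spec
  have s2 := (exists_rat h' (exists_lift e).choose_spec).choose_spec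
  set g := (exists_rat h (exists_lift e).choose_spec).choose
  set g' := (exists_rat h' (exists_lift e).choose_spec).choose
  obtain ⟨L', hL'⟩ := exists_log g' fun x => (s2 x).1
  rw [Wn_eq g' L' hL', Wn_eq g (L' + L) fun x => ?_]
  · simp only [ContinuousMap.add_apply, sub_im, add_im]; ring
  · have a1 := (s1 x).2
    rw [(s2 x).2, hL, smul_smul] at a1
    rw [ContinuousMap.add_apply, exp_add, hL']
    exact smul_left_injective ℂ (h x).1 a1

noncomputable def phi' (σ : C(Dl 2, S2)) (v : C(Dl 2, ℂ × ℂ)) : ℝ :=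
  Wl (σ.comp (smap ![1, 2])) (v.comp (smap ![1, 2])) - Wl (σ.comp (smap ![0, 2])) (v.comp (smap ![0, 2]))
    + Wl (σ.comp (smap ![0, 1])) (v.comp (smap ![0, 1]))

lemma phi'_indep {σ : C(Dl 2, S2)} {v v' : C(Dl 2, ℂ × ℂ)} (h : IsLift σ v) (h' : IsLift σ v') :
    phi' σ v = phi' σ v' := by
  obtain ⟨g, hg⟩ := exists_rat h h'
  obtain ⟨L, hL⟩ := exists_log g fun x => (hg x).1
  have key : ∀ f : Fin 2 → Fin 3, Wl (σ.comp (smap f)) (v.comp (smap f))
      = Wl (σ.comp (smap f)) (v'.comp (smap f)) + (L (vx (f 1)) - L (vx (f 0))).im := fun f => by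
    rw [Wl_change (h.comp _) (h'.comp _) (L.comp (smap f)) fun x => by
      simp only [ContinuousMap.comp_apply, hL, (hg _).2]]
    simp only [ContinuousMap.comp_apply, smap_vx]
  simp only [phi', key, sub_im, Matrix.cons_val_zero, Matrix.cons_val_one]
  ring

noncomputable def phi (σ : C(Dl 2, S2)) : ℝ := phi' σ (exists_lift σ).choose

lemma phi_eq {σ : C(Dl 2, S2)} {v : C(Dl 2, ℂ × ℂ)} (h : IsLift σ v) : phi σ = phi' σ v :=
  phi'_indep (exists_lift σ).choose_spec h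

theorem phi_cocycle (τ : C(Dl 3, S2)) :
    phi (τ.comp (smap ![1, 2, 3])) - phi (τ.comp (smap ![0, 2, 3]))
      + phi (τ.comp (smap ![0, 1, 3])) - phi (τ.comp (smap ![0, 1, 2])) = 0 := by
  obtain ⟨v, hv⟩ := exists_lift τ
  have key : ∀ a b c : Fin 4, phi (τ.comp (smap ![a, b, c]))
      = Wl (τ.comp (smap ![b, c])) (v.comp (smap ![b, c]))
        - Wl (τ.comp (smap ![a, c])) (v.comp (smap ![a, c]))
        + Wl (τ.comp (smap ![a, b])) (v.comp (smap ![a, b])) := fun a b c => by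
    have e1 : (![a, b, c] ∘ ![1, 2] : Fin 2 → Fin 4) = ![b, c] := by
      funext i; fin_cases i <;> rfl
    have e2 : (![a, b, c] ∘ ![0, 2] : Fin 2 → Fin 4) = ![a, c] := by
      funext i; fin_cases i <;> rfl
    have e3 : (![a, b, c] ∘ ![0, 1] : Fin 2 → Fin 4) = ![a, b] := by
      funext i; fin_cases i <;> rfl
    rw [phi_eq (hv.comp _), phi']
    simp only [ContinuousMap.comp_assoc, smap_comp, e1, e2, e3]
  simp only [key]
  ring

end Crest.Agent.Ent
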