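import Crest.Agent.Ent.Word

set_option autoImplicit false

open Function

namespace Crest.Agent.Ent

structure Sc where
  T : ℕ → ℕ
  r : ℕ → ℝ
  C : ℝ
  T_mono : Monotone T
  r_zero : r 0 = 1 / 2
  r_pos : ∀ j, 0 < r j
  C_ge : 1 ≤ C
  small : ∀ j, 8 * C * BB T j * RR T r (j + 1) ≤ r j
  lip : ∀ j e, Lip (C / 2 ^ (j + 1)) (Dw T r j e)

noncomputable def nE (r : ℕ → ℝ) (j : ℕ) (e : ℕ → ℕ) (x : ℂ × ℂ) : ℂ :=
  (qqW (j + 1) e / r (j + 1)) • (sw (j + 1) x).1
noncomputable def nO (r : ℕ → ℝ) (j : ℕ) (e : ℕ → ℕ) (x : ℂ × ℂ) : ℂ :=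
  (qqW j e / r (j + 1)) • (sw (j + 1) x).2

def InW (r : ℕ → ℝ) : ℕ → (ℕ → ℕ) → ℂ × ℂ → Prop
  | 0, _, x => ‖x.1‖ ≤ 1 / 2
  | j + 1, e, x => InW r j e x ∧ ‖nE r j e x‖ ≤ 1 ∧ ‖nO r j e x‖ ≤ 1 / 4

def GoodW (T : ℕ → ℕ) (j : ℕ) (e : ℕ → ℕ) : Prop :=
  (∀ m ≤ j, Rec m (T m) e) ∧ ∀ i < j, i + 1 ≤ e 0 → Adm i e

lemma GoodW.down {T : ℕ → ℕ} {j : ℕ} {e : ℕ → ℕ} (h : GoodW T (j + 1) e) : GoodW T j e :=
  ⟨fun m hm => h.1 m (by omega), fun i hi => h.2 i (by omega)⟩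

namespace Sc
variable (S : Sc)

noncomputable def SS (j : ℕ) (e : ℕ → ℕ) (x : ℂ × ℂ) : ℂ × ℂ :=
  D0 S.r x + ∑ i ∈ Finset.range j, Dw S.T S.r i e x

noncomputable def R (j : ℕ) : ℝ := RR S.T S.r j
noncomputable def δ (j : ℕ) : ℝ := S.C * S.R (j + 1) / 2 ^ j

lemma R_pos (j : ℕ) : 0 < S.R j := by
  have := S.r_pos j; have := BB_pos S.T j
  unfold R RR; positivity

lemma R_le (j : ℕ) : 8 * BB S.T j * S.R (j + 1) ≤ S.r j := by
  have h := S.small j
  have := mul_pos (BB_pos S.T j) (S.R_pos (j + 1))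
  have := S.C_ge
  unfold R at *
  nlinarith

lemma R_le' (j : ℕ) : 8 * S.R (j + 1) ≤ S.r j := by
  have := S.R_le j; have := BB_ge S.T j; have := S.R_pos (j + 1); nlinarith

lemma r_le_R (j : ℕ) : S.r j ≤ S.R j := by
  have := S.r_pos j; have := BB_ge S.T j
  unfold R RR; nlinarith

lemma R_anti (j : ℕ) : S.R (j + 1) ≤ S.R j := by
  linarith [S.R_le' j, S.r_le_R j, S.R_pos (j + 1)]

lemma r_anti (j : ℕ) : S.r (j + 1) ≤ S.r j := by
  linarith [S.R_le' j, S.r_le_R (j + 1), S.R_pos (j + 1)]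

lemma δ_le (j : ℕ) : 8 * BB S.T j * S.δ j ≤ S.r j := by
  have h := S.small j
  have h1 : S.δ j ≤ S.C * S.R (j + 1) :=
    div_le_self (mul_pos (by linarith [S.C_ge]) (S.R_pos _)).le (one_le_pow₀ (by norm_num))
  have := BB_pos S.T j
  unfold R at *
  nlinarith

lemma norm_Dw_le (j : ℕ) (e : ℕ → ℕ) (x : ℂ × ℂ) :
    ‖Dw S.T S.r j e x‖ ≤ S.C / 2 ^ (j + 1) * S.R (j + 1) :=
  (S.lip j e).norm_le (by have := S.C_ge; positivity) (S.R_pos _).le (Dw_zero _ _ _ _)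
    (fun _ hx => Dw_eq_zero _ S.r_pos _ _ hx) x

lemma rec_bd {j m : ℕ} {e : ℕ → ℕ} (hg : GoodW S.T j e) (hm : m ≤ j) :
    ppW m e ≤ BB S.T j ∧ qqW m e ≤ BB S.T j ∧ 1 ≤ qqW m e * BB S.T j :=
  ((hg.1 m hm).mono (S.T_mono hm) le_rfl).bd hm

lemma scaled_le {j m : ℕ} {e : ℕ → ℕ} (hg : GoodW S.T j e) (hm : m ≤ j) {v : ℂ} {c : ℝ}
    (h : ‖(qqW m e / S.r j) • v‖ ≤ c) : ‖(S.r j * BB S.T j)⁻¹ • v‖ ≤ c := by
  refine le_trans ?_ h
  have h1 := (S.rec_bd hg hm).2.2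
  have h2 := S.r_pos j
  have h3 := BB_pos S.T j
  have h4 := qqW_pos m e
  rw [norm_smul, norm_smul, Real.norm_of_nonneg (by positivity),
    Real.norm_of_nonneg (by positivity)]
  gcongr
  rw [inv_eq_one_div, div_le_div_iff₀ (by positivity) h2]
  nlinarith

lemma chi_one {j : ℕ} {e : ℕ → ℕ} (hg : GoodW S.T (j + 1) e) {x : ℂ × ℂ}
    (h1 : ‖nE S.r j e x‖ ≤ 5) (h2 : ‖nO S.r j e x‖ ≤ 5) :
    chi ((S.r (j + 1) * BB S.T (j + 1))⁻¹ • sw (j + 1) x) = 1 :=
  chi_eq_one (S.scaled_le hg le_rfl h1) (S.scaled_le hg (Nat.le_succ j) h2)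

lemma Lin_eq (a : ℝ) {ρ : ℝ} (hρ : 0 < ρ) (y : ℂ × ℂ) :
    Lin a ρ y = ((a * chi (ρ⁻¹ • y)) • y.1, 0) := by
  unfold Lin Lam
  ext
  · simp only [Prod.smul_fst, smul_smul]; congr 1; field_simp
  · simp

lemma SS_succ (j : ℕ) (e : ℕ → ℕ) (x : ℂ × ℂ) :
    sw (j + 1) (S.SS (j + 1) e x) = (sw j (S.SS j e x)).swap + Dy S.T S.r j e (sw (j + 1) x) := by
  unfold SS
  rw [Finset.sum_range_succ, ← add_assoc, map_add, sw_succ j (_ + _), Dw, sw_sw]

lemma norm_pair {j : ℕ} {e : ℕ → ℕ} (hk : j + 1 ≤ e 0) (x : ℂ × ℂ) :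
    (S.r (j + 1))⁻¹ • sw (j + 1) x = (nE S.r j e x, nO S.r j e x) := by
  unfold nE nO qqW
  rw [if_pos hk, if_pos (by omega), one_div]; rfl

theorem pre (j : ℕ) (e : ℕ → ℕ) (x : ℂ × ℂ) (hg : GoodW S.T j e) (hx : InW S.r j e x) :
    (j ≤ e 0 → sw j (S.SS j e x) = ((2 * S.r (j + 1) / ppW j e) •
        GG (tauW j e) (1/2) 1 ((S.r (j + 1))⁻¹ • (sw j x).1), 0)) ∧
    (e 0 + 1 = j → sw j (S.SS j e x) = (aa (e 0) • (sw j x).1, 0)) ∧
    (e 0 + 2 ≤ j → sw j (S.SS j e x) = aa (e 0) • sw j x) := by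
  induction j with
  | zero =>
    refine ⟨fun _ => ?_, fun h => by omega, fun h => by omega⟩
    simp [SS, sw_zero, D0, ppW_zero, tauW_zero]
  | succ j ih =>
    obtain ⟨h1, h2, h3⟩ := ih hg.down hx.1
    obtain ⟨-, hE, hO⟩ := hx
    have hy2 : (sw j x).1 = (sw (j + 1) x).2 := by rw [sw_succ]; rfl
    have hr := S.r_pos (j + 1)
    have hz : j ≤ e 0 → sw j (S.SS j e x) = 0 := by
      intro hk
      rw [h1 hk, GG_eq_zero _ (by norm_num) (by norm_num), smul_zero]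
      · rfl
      · unfold nO qqW at hO
        rw [if_pos hk, one_div, ← hy2] at hO
        linarith
    have hchi := S.chi_one hg (hE.trans (by norm_num)) (hO.trans (by norm_num))
    have hρ := mul_pos hr (BB_pos S.T (j + 1))
    rw [SS_succ]
    refine ⟨fun hk => ?_, fun hk => ?_, fun hk => ?_⟩
    · rw [hz (by omega), Dy, if_pos hk, if_pos (hg.2 j (by omega) hk), Ret, S.norm_pair hk,
        EE_of_quarter (hE.trans (by norm_num)) hO, GG_eq_zero _ (by norm_num) (by norm_num) hE]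
      have : (S.r (j + 1) / S.r (j + 2)) • nE S.r j e x = (S.r (j + 2))⁻¹ • (sw (j + 1) x).1 := by
        unfold nE qqW
        rw [if_pos hk, smul_smul]; congr 1; field_simp
      rw [this]; simp
    · rw [hz (by omega), Dy, if_neg (by omega), if_pos (by omega), Lin_eq _ hρ, hchi]; simp
    · rcases (show e 0 + 1 = j ∨ e 0 + 2 ≤ j by omega) with hk' | hk'
      · rw [h2 hk', Dy, if_neg (by omega), if_pos (by omega), Lin_eq _ hρ, hchi, hy2]
        ext <;> simp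
      · rw [h3 hk', Dy, if_neg (by omega), if_neg (by omega), sw_succ]
        ext <;> simp

def Step (J : ℕ) (e : ℕ → ℕ) (x x' : ℂ × ℂ) : Prop :=
  ∃ L : ℂ × ℂ, x' = S.SS J e x + L ∧ ‖L‖ ≤ S.δ J ∧ (S.R (J + 1) ≤ ‖x‖ → L = 0) ∧
    (e 0 < J → (sw J L).1 = 0) ∧ (e 0 + 1 < J → L = 0)

lemma Dw_plane {j : ℕ} {e : ℕ → ℕ} (hk : e 0 ≤ j) (x : ℂ × ℂ) :
    (sw j (Dw S.T S.r j e x)).1 = 0 := by
  have : (sw j (Dw S.T S.r j e x)).1 = (sw (j + 1) (Dw S.T S.r j e x)).2 := by rw [sw_succ]; rfl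
  rw [this, Dw, sw_sw, Dy, if_neg (by omega)]
  split_ifs
  · rw [Lin_eq _ (mul_pos (S.r_pos _) (BB_pos _ _))]
  · rfl

lemma Dw_low {j : ℕ} {e : ℕ → ℕ} (hk : e 0 + 1 < j) (x : ℂ × ℂ) : Dw S.T S.r j e x = 0 := by
  rw [Dw, Dy, if_neg (by omega), if_neg (by omega), map_zero]

lemma Step.down {J : ℕ} {e : ℕ → ℕ} {x x' : ℂ × ℂ} (h : S.Step (J + 1) e x x') :
    S.Step J e x x' := by
  obtain ⟨L, h1, h2, h3, h4, h5⟩ := h
  refine ⟨Dw S.T S.r J e x + L, ?_, ?_, fun h => ?_, fun h => ?_, fun h => ?_⟩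
  · rw [h1, SS, SS, Finset.sum_range_succ]; abel
  · have a1 := S.norm_Dw_le J e x
    have a2 : S.δ (J + 1) ≤ S.C / 2 ^ (J + 1) * S.R (J + 1) := by
      unfold δ
      rw [div_mul_eq_mul_div]
      gcongr
      · linarith [S.C_ge]
      · exact S.R_anti _
    have a3 : S.δ J = 2 * (S.C / 2 ^ (J + 1) * S.R (J + 1)) := by
      unfold δ; rw [pow_succ]; field_simp
    exact (norm_add_le _ _).trans (by linarith)
  · rw [Dw_eq_zero _ S.r_pos _ _ h, h3 ((S.R_anti _).trans h), add_zero]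
  · rw [h5 (by omega), add_zero, S.Dw_plane h.le]
  · rw [h5 (by omega), add_zero, S.Dw_low h]

lemma nstep {j : ℕ} {e : ℕ → ℕ} {x x' : ℂ × ℂ} (hg : GoodW S.T (j + 1) e) (hx : InW S.r j e x)
    (h : S.Step (j + 1) e x x') :
    NStep (S.r (j + 2) / S.r (j + 1)) (e 0) j (tauW (j + 1) e) (tauW j e) (nE S.r j e x)
      (nO S.r j e x) (nE S.r j (sh e) x') (nO S.r j (sh e) x') := by
  obtain ⟨L, h1, h2, h3, h4, h5⟩ := h
  obtain ⟨p1, p2, p3⟩ := S.pre j e x hg.down hx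
  have hy2 : (sw j x).1 = (sw (j + 1) x).2 := by rw [sw_succ]; rfl
  have hy1 : (sw j x).2 = (sw (j + 1) x).1 := by rw [sw_succ]; rfl
  have hr := S.r_pos (j + 1)
  have hr' := S.r_pos (j + 2)
  have hB := BB_pos S.T (j + 1)
  have hρ := mul_pos hr hB
  have b1 := S.rec_bd hg le_rfl
  have b0 := S.rec_bd hg (Nat.le_succ j)
  have hp1 := ppW_pos (j + 1) e
  have hp0 := ppW_pos j e
  have hE' : nE S.r j (sh e) x' = (ppW (j + 1) e / S.r (j + 1)) • (sw (j + 1) x').1 := by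
    rw [nE, (hg.1 (j + 1) le_rfl).shift.2]
  have hO' : nO S.r j (sh e) x' = (ppW j e / S.r (j + 1)) • (sw (j + 1) x').2 := by
    rw [nO, (hg.1 j (by omega)).shift.2]
  have hy' : sw (j + 1) x' = (sw j (S.SS j e x)).swap + Dy S.T S.r j e (sw (j + 1) x)
      + sw (j + 1) L := by rw [h1, map_add, SS_succ]
  have hl : ∀ (p : ℝ) (v : ℂ), 0 < p → p ≤ BB S.T (j + 1) → ‖v‖ ≤ S.δ (j + 1) →
      ‖(p / S.r (j + 1)) • v‖ ≤ 1 / 4 := by
    intro p v a1 a2 a3
    rw [norm_smul, Real.norm_of_nonneg (by positivity), div_mul_eq_mul_div, div_le_iff₀ hr]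
    have := S.δ_le (j + 1)
    have : p * ‖v‖ ≤ BB S.T (j + 1) * S.δ (j + 1) := by gcongr
    linarith
  have hL : ‖sw (j + 1) L‖ ≤ S.δ (j + 1) := by rwa [LinearIsometryEquiv.norm_map]
  have l1 := hl _ _ hp1 b1.1 ((norm_fst_le _).trans hL)
  have l2 := hl _ _ hp0 b0.1 ((norm_snd_le _).trans hL)
  have ht : Tiny (nE S.r j e x) (nO S.r j e x) ∨ L = 0 := by
    rcases le_or_gt (S.R (j + 1 + 1)) ‖x‖ with hc | hc
    · exact Or.inr (h3 hc)
    · left
      have key : ∀ (q : ℝ) (v : ℂ), 0 < q → q ≤ BB S.T (j + 1) → ‖v‖ ≤ ‖sw (j + 1) x‖ →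
          ‖(q / S.r (j + 1)) • v‖ ≤ 1 / 8 := by
        intro q v a1 a2 a3
        rw [LinearIsometryEquiv.norm_map] at a3
        rw [norm_smul, Real.norm_of_nonneg (by positivity), div_mul_eq_mul_div, div_le_iff₀ hr]
        have := S.R_le (j + 1)
        have : q * ‖v‖ ≤ BB S.T (j + 1) * S.R (j + 1 + 1) := by gcongr; linarith
        linarith
      exact ⟨key _ _ (qqW_pos _ _) b1.2.1 (norm_fst_le _),
        key _ _ (qqW_pos _ _) b0.2.1 (norm_snd_le _)⟩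
  have hOj : j ≤ e 0 → (S.r (j + 1))⁻¹ • (sw j x).1 = nO S.r j e x := fun hk => by
    rw [nO, qqW, if_pos hk, one_div, hy2]
  refine ⟨fun hk => ?_, fun hk => ?_, fun hk => ?_, fun hk => ?_⟩
  · refine ⟨_, _, l1, l2, ht.imp_right fun h => by simp [h], ?_, ?_⟩
    · rw [hE', hy', p1 (by omega), Dy, if_pos hk, if_pos (hg.2 j (by omega) hk), Ret,
        S.norm_pair hk, inv_div]
      simp only [Prod.fst_add, Prod.fst_swap, zero_add, smul_add, smul_smul]
      congr 2; field_simp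
    · rw [hO', hy', p1 (by omega), Dy, if_pos hk, if_pos (hg.2 j (by omega) hk), Ret,
        S.norm_pair hk, hOj (by omega)]
      simp only [Prod.snd_add, Prod.snd_swap, smul_add, smul_smul]
      congr 2
      · congr 1; field_simp
      · rw [show ppW j e / S.r (j + 1) * (S.r (j + 1) / ppW j e) = 1 by field_simp, one_smul]
  · refine ⟨_, l2, ht.imp_right fun h => by simp [h], ?_⟩
    rw [hO', hy', p1 (by omega), Dy, if_neg (by omega), if_pos (by omega), Lin_eq _ hρ,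
      hOj (by omega)]
    simp only [Prod.snd_add, Prod.snd_swap, smul_add, smul_smul, smul_zero, add_zero]
    congr 2; field_simp
  · have hq : nO S.r j e x = (ppW j e / S.r (j + 1)) • aa (e 0) • (sw (j + 1) x).2 := by
      rw [nO, qqW, if_neg (by omega), smul_smul]; congr 1; ring
    rw [hO', hy', h5 (by omega), map_zero, add_zero, hq, Dy, if_neg (by omega)]
    rcases (show e 0 + 1 = j ∨ e 0 + 2 ≤ j by omega) with hk' | hk'
    · rw [p2 hk', if_pos (by omega), Lin_eq _ hρ, hy2]; simp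
    · rw [p3 hk', if_neg (by omega), ← hy2]; simp
  · have hq : nE S.r j e x = (ppW (j + 1) e / S.r (j + 1)) • aa (e 0) • (sw (j + 1) x).1 := by
      rw [nE, qqW, if_neg (by omega), smul_smul]; congr 1; ring
    have hL1 := h4 (by omega)
    by_cases hk' : j + 1 ≤ e 0 + 2
    · refine ⟨_, chi_nonneg _, chi_le_one _, ?_, fun a1 a2 => S.chi_one hg a1 a2⟩
      have : (sw j (S.SS j e x)).2 = 0 := by
        rcases (show e 0 = j ∨ e 0 + 1 = j by omega) with h | h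
        · rw [p1 h.ge]
        · rw [p2 h]
      rw [hE', hy', hq, Dy, if_neg (by omega), if_pos hk', Lin_eq _ hρ]
      simp only [Prod.fst_add, Prod.fst_swap, this, hL1, zero_add, add_zero, smul_smul]
      congr 1; ring
    · refine ⟨1, zero_le_one, le_rfl, ?_, fun _ _ => rfl⟩
      rw [hE', hy', hq, Dy, if_neg (by omega), if_neg hk', p3 (by omega), ← hy1]
      simp only [Prod.fst_add, Prod.fst_swap, hL1, add_zero, one_smul, Prod.smul_snd,
        Prod.fst_zero]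

lemma nO_le {j : ℕ} {e : ℕ → ℕ} {x : ℂ × ℂ} (hx : InW S.r j e x) :
    ‖nO S.r j e x‖ ≤ S.r j / S.r (j + 1) := by
  have hr := S.r_pos (j + 1)
  have hr0 := S.r_pos j
  have hy2 : (sw j x).1 = (sw (j + 1) x).2 := by rw [sw_succ]; rfl
  have hq := qqW_pos j e
  have : ‖(qqW j e / S.r j) • (sw j x).1‖ ≤ 1 := by
    rcases j with _ | j
    · rw [qqW_zero, S.r_zero, norm_smul, sw_zero]
      have : ‖x.1‖ ≤ 1 / 2 := hx
      norm_num; linarith
    · exact hx.2.1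
  rw [nO, ← hy2]
  rw [norm_smul, Real.norm_of_nonneg (by positivity), div_mul_eq_mul_div] at this ⊢
  rw [div_le_iff₀ hr0] at this
  gcongr; linarith

theorem core (j : ℕ) : ∃ K : ℕ, ∀ (N : ℕ) (w : ℕ → ℕ → ℕ) (x : ℕ → ℂ × ℂ),
    (∀ s, s < N → w (s + 1) = sh (w s)) → (∀ s, s ≤ N → GoodW S.T j (w s)) →
    (∀ s, s < N → S.Step j (w s) (x s) (x (s + 1))) → (∀ s, s ≤ N → ‖(x s).1‖ ≤ 1 / 2) →
    ∀ s, K ≤ s → s + K ≤ N → InW S.r j (w s) (x s) := by
  induction j with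
  | zero => exact ⟨0, fun N w x _ _ _ h s _ hs => h s (by omega)⟩
  | succ j ih =>
    obtain ⟨K, hK⟩ := ih
    obtain ⟨K', hK'⟩ := dyn_main (ϱ := S.r (j + 2) / S.r (j + 1))
      (div_pos (S.r_pos _) (S.r_pos _)) ((div_le_one (S.r_pos _)).2 (S.r_anti _))
      (S.T (j + 1)) (S.r j / S.r (j + 1))
    refine ⟨K + K', fun N w x hw hg hst hx s hs hs' => ?_⟩
    have hin := hK N w x hw (fun s hs => (hg s hs).down) (fun s hs => Step.down S (hst s hs)) hx
    have hsh : ∀ t s, s + t ≤ N → w (s + t) 0 = w s t := by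
      have : ∀ t s u, s + t ≤ N → w (s + t) u = w s (u + t) := by
        intro t
        induction t with
        | zero => intros; rfl
        | succ t ih =>
          intro s u h
          rw [← add_assoc, hw _ (by omega), sh, ih s (u + 1) (by omega)]; congr 1; omega
      intro t s h; rw [this t s 0 h, zero_add]
    refine ⟨hin s (by omega) (by omega), ?_⟩
    -- extend the depth sequence beyond the window using the last word
    set e : ℕ → ℕ := fun s => if s ≤ N then w s 0 else w N (s - N) with he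
    have he2 : ∀ s t, s ≤ N → e (s + t) = w s t := by
      intro s t h
      simp only [he]
      split_ifs with h'
      · exact hsh t s h'
      · have : ∀ t s u, s + t ≤ N → w (s + t) u = w s (u + t) := by
          intro t
          induction t with
          | zero => intros; rfl
          | succ t ih =>
            intro s u h
            rw [← add_assoc, hw _ (by omega), sh, ih s (u + 1) (by omega)]; congr 1; omega
        have h2 := this (N - s) s (s + t - N) (by omega)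
        rw [show s + (N - s) = N by omega] at h2
        rw [h2]; congr 1; omega
    refine hK' j K (N - K) e (fun s => tauW (j + 1) (w s)) (fun s => tauW j (w s))
      (fun s => sigW (j + 1) (w s)) (fun s => sigW j (w s)) (fun s => nE S.r j (w s) (x s))
      (fun s => nO S.r j (w s) (x s)) ?_ ?_ ?_ ?_ s (by omega) (by omega)
    · intro u hu hu'
      have := S.nstep (hg u (by omega)) (hin u hu (by omega)) (hst u (by omega))
      rw [← hw u (by omega), ← he2 u 0 (by omega)] at this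
      exact this
    · intro u hu hu'
      have g := hg u (by omega)
      have e0 : e u = w u 0 := he2 u 0 (by omega)
      rw [hw u (by omega), e0]
      exact ⟨(g.1 (j + 1) le_rfl).shift.1, (g.1 j (by omega)).shift.1, rfl, rfl⟩
    · intro u hu hu'
      obtain ⟨t, a1, a2, a3⟩ := (hg u (by omega)).1 (j + 1) le_rfl
      exact ⟨t, a1, a2, by rw [he2 u t (by omega)]; exact a3⟩
    · intro u hu hu'
      exact S.nO_le (hin u hu (by omega))

lemma In_small {j : ℕ} {e : ℕ → ℕ} {x : ℂ × ℂ} (hg : GoodW S.T (j + 1) e)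
    (hx : InW S.r (j + 1) e x) : ‖x‖ ≤ S.R (j + 1) := by
  have a1 := S.scaled_le hg le_rfl hx.2.1
  have a2 := S.scaled_le hg (Nat.le_succ j) (hx.2.2.trans (show (1 / 4 : ℝ) ≤ 1 by norm_num))
  have hρ := mul_pos (S.r_pos (j + 1)) (BB_pos S.T (j + 1))
  rw [norm_smul, Real.norm_of_nonneg (by positivity), inv_mul_le_iff₀ hρ] at a1 a2
  rw [← (sw (j + 1)).norm_map, Prod.norm_def]
  unfold R RR
  exact max_le (by linarith) (by linarith)

end Sc

end Crest.Agent.Ent
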