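import Crest.Agent.Ent.Fib1

set_option autoImplicit false

open Function

namespace Crest.Agent.Ent

def Tiny (E O : ℂ) : Prop := ‖E‖ ≤ 1 / 8 ∧ ‖O‖ ≤ 1 / 8

/-- one step of the normalised level dynamics -/
structure NStep (ϱ : ℝ) (k j τ1 τ0 : ℕ) (E O E' O' : ℂ) : Prop where
  A : j + 1 ≤ k → ∃ l1 l2 : ℂ, ‖l1‖ ≤ 1 / 4 ∧ ‖l2‖ ≤ 1 / 4 ∧ (Tiny E O ∨ (l1 = 0 ∧ l2 = 0)) ∧
    E' = (2 * ϱ) • GG τ1 (1/2) 1 (ϱ⁻¹ • EE (E, O)) + l1 ∧
    O' = (2 : ℝ) • GG τ0 (1/2) 1 O + GG τ0 1 2 (EE (E, O)) + l2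
  B : k = j → ∃ l2 : ℂ, ‖l2‖ ≤ 1 / 4 ∧ (Tiny E O ∨ l2 = 0) ∧ O' = (2 : ℝ) • GG τ0 (1/2) 1 O + l2
  C : k < j → O' = O
  BC : k ≤ j → ∃ t : ℝ, 0 ≤ t ∧ t ≤ 1 ∧ E' = t • E ∧ (‖E‖ ≤ 5 → ‖O‖ ≤ 5 → t = 1)

def Al (σ1 σ0 : ℕ) (E O : ℂ) : Prop :=
  ∃ (V : ℂ) (l m : ℝ), 0 ≤ l ∧ 0 ≤ m ∧ E = l • cc^[σ1] V ∧ O = m • cc^[σ0] V

lemma GG_smul (n : ℕ) (a b : ℝ) {t : ℝ} (ht : 0 ≤ t) (V : ℂ) :
    GG n a b (t • V) = (cut a b (t • V) * t) • cc^[n] V := by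
  rw [GG, cc_iter_smul n ht, smul_smul]

lemma EE_of_half {E O : ℂ} (h : 1 / 2 ≤ ‖O‖) : EE (E, O) = (chi (E, O) * 8) • O := by
  simp only [EE]
  rw [cut_eq_one (by norm_num) (by norm_num) h]
  simp [mul_assoc]

lemma EE_of_quarter {E O : ℂ} (hE : ‖E‖ ≤ 5) (h : ‖O‖ ≤ 1 / 4) : EE (E, O) = E := by
  simp only [EE]
  rw [cut_eq_zero (by norm_num) (by norm_num) h, chi_eq_one hE (by simp only; linarith)]
  simp

lemma GG_eq_zero (n : ℕ) {a b : ℝ} (ha : 0 ≤ a) (hab : a < b) {u : ℂ} (hu : ‖u‖ ≤ a) :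
    GG n a b u = 0 := by rw [GG, cut_eq_zero ha hab hu, zero_smul]

lemma structA (τ0 : ℕ) (E O : ℂ) : ∃ (V : ℂ) (l m : ℝ), 0 ≤ l ∧ 0 ≤ m ∧ EE (E, O) = l • V ∧
    (2 : ℝ) • GG τ0 (1/2) 1 O = m • cc^[τ0] V := by
  rcases le_or_gt ‖O‖ (1 / 2) with h | h
  · exact ⟨EE (E, O), 1, 0, zero_le_one, le_rfl, (one_smul _ _).symm, by
      rw [GG_eq_zero _ (by norm_num) (by norm_num) h]; simp⟩
  · exact ⟨O, chi (E, O) * 8, 2 * cut (1/2) 1 O, by have := chi_nonneg (E, O); positivity,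
      by have := cut_nonneg (1/2) 1 O; positivity, EE_of_half h.le, by rw [GG, smul_smul]⟩

lemma normA (τ0 : ℕ) (E O : ℂ) :
    ‖(2 : ℝ) • GG τ0 (1/2) 1 O + GG τ0 1 2 (EE (E, O))‖
      = 2 * (cut (1/2) 1 O * ‖O‖) + cut 1 2 (EE (E, O)) * ‖EE (E, O)‖ := by
  obtain ⟨V, l, m, hl, hm, h1, h2⟩ := structA τ0 E O
  have h3 : ‖(2 : ℝ) • GG τ0 (1/2) 1 O‖ = m * ‖V‖ := by
    rw [h2, norm_smul, norm_cc_iter, Real.norm_of_nonneg hm]
  rw [norm_smul, norm_GG, Real.norm_of_nonneg (by norm_num : (0 : ℝ) ≤ 2)] at h3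
  have hc := cut_nonneg 1 2 (l • V)
  rw [h3, h2, h1, GG_smul _ _ _ hl, ← add_smul, norm_smul, norm_cc_iter, norm_smul,
    Real.norm_of_nonneg hl, Real.norm_of_nonneg (by positivity)]
  ring

lemma norm_gamma_le {ϱ : ℝ} (h0 : 0 < ϱ) (τ : ℕ) (u : ℂ) :
    ‖(2 * ϱ) • GG τ (1/2) 1 (ϱ⁻¹ • u)‖ ≤ 2 * ‖u‖ := by
  rw [norm_smul, Real.norm_of_nonneg (by positivity)]
  have := norm_GG_le τ (1/2) 1 (ϱ⁻¹ • u)
  rw [norm_smul, Real.norm_of_nonneg (by positivity)] at this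
  calc _ ≤ 2 * ϱ * (ϱ⁻¹ * ‖u‖) := by gcongr
    _ = _ := by field_simp

lemma norm_gamma_eq {ϱ : ℝ} (h0 : 0 < ϱ) (τ : ℕ) {u : ℂ} (hu : ϱ ≤ ‖u‖) :
    ‖(2 * ϱ) • GG τ (1/2) 1 (ϱ⁻¹ • u)‖ = 2 * ‖u‖ := by
  have e : ‖ϱ⁻¹ • u‖ = ϱ⁻¹ * ‖u‖ := by rw [norm_smul, Real.norm_of_nonneg (by positivity)]
  rw [norm_smul, Real.norm_of_nonneg (by positivity), norm_GG,
    cut_eq_one (by norm_num) (by norm_num) (by rw [e, inv_mul_eq_div, le_div_iff₀ h0]; linarith), e]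
  field_simp

lemma norm_EE_al {E O V : ℂ} {l m : ℝ} (hl : 0 ≤ l) (hm : 0 ≤ m) (h1 : E = l • V) (h2 : O = m • V)
    (hE : ‖E‖ ≤ 5) (hO : ‖O‖ ≤ 5) : min ‖E‖ 2 ≤ ‖EE (E, O)‖ := by
  have hc0 := cut_nonneg (1/4) (1/2) O
  have hc1 := cut_le_one (1/4) (1/2) O
  have e : ‖EE (E, O)‖ = (1 - cut (1/4) (1/2) O) * ‖E‖ + 8 * cut (1/4) (1/2) O * ‖O‖ := by
    simp only [EE]
    rw [chi_eq_one hE hO, one_smul]
    generalize cut (1/4) (1/2) O = c at *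
    rw [h1, h2, smul_smul, smul_smul, ← add_smul, norm_smul, norm_smul, norm_smul,
      Real.norm_of_nonneg hl, Real.norm_of_nonneg hm, Real.norm_of_nonneg]
    · ring
    · have : 0 ≤ 1 - c := by linarith
      positivity
  rw [e]
  rcases le_or_gt ‖O‖ (1 / 4) with h | h
  · rw [cut_eq_zero (by norm_num) (by norm_num) h]; simp
  · have a1 := min_le_left ‖E‖ 2
    have a2 := min_le_right ‖E‖ 2
    nlinarith

variable {ϱ : ℝ} {k j τ1 τ0 : ℕ} {E O E' O' : ℂ}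

lemma NStep.grow_O (h : NStep ϱ k j τ1 τ0 E O E' O') (hO : 1 ≤ ‖O‖) :
    ‖O‖ ≤ ‖O'‖ ∧ (j ≤ k → 2 * ‖O‖ ≤ ‖O'‖) := by
  have hnt : ¬ Tiny E O := fun h => by linarith [h.2]
  have key : j ≤ k → 2 * ‖O‖ ≤ ‖O'‖ := by
    intro hk
    rcases hk.eq_or_lt with hk | hk
    · obtain ⟨l2, -, hl, e⟩ := h.B hk.symm
      rw [e, hl.resolve_left hnt, add_zero, norm_smul, norm_GG,
        cut_eq_one (by norm_num) (by norm_num) hO]
      simp
    · obtain ⟨l1, l2, -, -, hl, -, e⟩ := h.A hk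
      rw [e, (hl.resolve_left hnt).2, add_zero, normA, cut_eq_one (by norm_num) (by norm_num) hO]
      have := mul_nonneg (cut_nonneg 1 2 (EE (E, O))) (norm_nonneg (EE (E, O)))
      linarith
  refine ⟨?_, key⟩
  rcases lt_or_ge k j with hk | hk
  · rw [h.C hk]
  · linarith [key hk]

lemma NStep.EE_lt (h : NStep ϱ k j τ1 τ0 E O E' O') (hk : j + 1 ≤ k) (hO : ‖O'‖ < 1) :
    ‖EE (E, O)‖ < 2 := by
  obtain ⟨l1, l2, -, -, hl, -, e⟩ := h.A hk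
  rcases hl with hl | hl
  · rw [EE_of_quarter (by linarith [hl.1]) (by linarith [hl.2])]; linarith [hl.1]
  · by_contra hc
    rw [not_lt] at hc
    rw [e, hl.2, add_zero, normA, cut_eq_one (by norm_num) (by norm_num) hc] at hO
    have := mul_nonneg (cut_nonneg (1/2) 1 O) (norm_nonneg O)
    linarith

lemma NStep.E_le (h : NStep ϱ k j τ1 τ0 E O E' O') (h0 : 0 < ϱ) (hO : ‖O'‖ < 1)
    (hE : j + 1 ≤ k ∨ ‖E‖ ≤ 5) : ‖E'‖ ≤ 5 := by
  rcases lt_or_ge j k with hk | hk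
  · obtain ⟨l1, l2, h1, -, -, e, -⟩ := h.A hk
    have := h.EE_lt hk hO
    rw [e]
    exact (norm_add_le _ _).trans (by linarith [norm_gamma_le h0 τ1 (EE (E, O))])
  · obtain ⟨t, t0, t1, e, -⟩ := h.BC hk
    have := hE.resolve_left (by omega)
    rw [e, norm_smul, Real.norm_of_nonneg t0]
    nlinarith [norm_nonneg E]

lemma NStep.tiny_E (h : NStep ϱ k j τ1 τ0 E O E' O') (h0 : 0 < ϱ) (ht : Tiny E O) :
    ‖E'‖ ≤ 1 := by
  rcases lt_or_ge j k with hk | hk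
  · obtain ⟨l1, l2, h1, -, -, e, -⟩ := h.A hk
    rw [e, EE_of_quarter (by linarith [ht.1]) (by linarith [ht.2])]
    exact (norm_add_le _ _).trans (by linarith [norm_gamma_le h0 τ1 E, ht.1])
  · obtain ⟨t, t0, t1, e, -⟩ := h.BC hk
    rw [e, norm_smul, Real.norm_of_nonneg t0]
    nlinarith [norm_nonneg E, ht.1]

lemma NStep.al (h : NStep ϱ k j τ1 τ0 E O E' O') (h0 : 0 < ϱ) {σ1 σ0 σ1' σ0' : ℕ}
    (e1 : τ1 = σ1' + 1) (e0 : τ0 = σ0' + 1) (f1 : σ1 = if j + 1 ≤ k then 0 else τ1)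
    (f0 : σ0 = if j ≤ k then 0 else τ0) (hE' : 1 < ‖E'‖)
    (ih : j + 1 ≤ k ∨ (1 < ‖E‖ → Al σ1 σ0 E O)) : Al σ1' σ0' E' O' := by
  have hnt : ¬ Tiny E O := fun ht => by linarith [h.tiny_E h0 ht]
  rcases lt_or_ge j k with hk | hk
  · obtain ⟨l1, l2, -, -, hl, a1, a2⟩ := h.A hk
    obtain ⟨rfl, rfl⟩ := hl.resolve_left hnt
    obtain ⟨V, l, m, hl, hm, h1, h2⟩ := structA τ0 E O
    have c1 := cut_nonneg (1/2) 1 ((ϱ⁻¹ * l) • V)
    have c2 := cut_nonneg 1 2 (l • V)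
    refine ⟨cc V, 2 * ϱ * (cut (1/2) 1 ((ϱ⁻¹ * l) • V) * (ϱ⁻¹ * l)), m + cut 1 2 (l • V) * l,
      by positivity, by positivity, ?_, ?_⟩
    · rw [a1, add_zero, h1, smul_smul, GG_smul _ _ _ (by positivity), smul_smul, e1,
        iterate_succ_apply]
    · rw [a2, add_zero, h2, h1, GG_smul _ _ _ hl, ← add_smul, e0, iterate_succ_apply]
  · obtain ⟨t, t0, t1, e, -⟩ := h.BC hk
    have hE : 1 < ‖E‖ := by
      rw [e, norm_smul, Real.norm_of_nonneg t0] at hE'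
      nlinarith [norm_nonneg E]
    obtain ⟨V, l, m, hl, hm, h1, h2⟩ := ih.resolve_left (by omega) hE
    rw [if_neg (by omega)] at f1
    have hE1 : E' = (t * l) • cc^[σ1'] (cc V) := by
      rw [e, h1, smul_smul, f1, e1, iterate_succ_apply]
    rcases hk.eq_or_lt with hk | hk
    · obtain ⟨l2, -, hl2, a2⟩ := h.B hk
      rw [if_pos hk.ge] at f0
      subst f0
      have c1 := cut_nonneg (1/2) 1 (m • V)
      refine ⟨cc V, t * l, 2 * (cut (1/2) 1 (m • V) * m), by positivity, by positivity, hE1, ?_⟩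
      rw [a2, hl2.resolve_left hnt, add_zero, h2, iterate_zero_apply, GG_smul _ _ _ hm, smul_smul,
        e0, iterate_succ_apply]
    · rw [if_neg (by omega)] at f0
      refine ⟨cc V, t * l, m, by positivity, hm, hE1, ?_⟩
      rw [h.C hk, h2, f0, e0, iterate_succ_apply]

lemma NStep.grow_E (h : NStep ϱ k j τ1 τ0 E O E' O') (h0 : 0 < ϱ) (h1 : ϱ ≤ 1) {σ1 σ0 : ℕ}
    (f1 : σ1 = if j + 1 ≤ k then 0 else τ1) (f0 : σ0 = if j ≤ k then 0 else τ0)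
    (hE : 1 < ‖E‖) (hE5 : ‖E‖ ≤ 5) (hO : ‖O‖ < 1) (hO' : ‖O'‖ < 1) (hal : Al σ1 σ0 E O) :
    ‖E‖ ≤ ‖E'‖ ∧ (j + 1 ≤ k → 2 * ‖E‖ ≤ ‖E'‖) := by
  have key : j + 1 ≤ k → 2 * ‖E‖ ≤ ‖E'‖ := by
    intro hk
    obtain ⟨l1, l2, -, -, hl, a1, -⟩ := h.A hk
    obtain ⟨rfl, rfl⟩ := hl.resolve_left fun ht => by linarith [ht.1]
    obtain ⟨V, l, m, hl, hm, b1, b2⟩ := hal
    rw [if_pos hk] at f1
    rw [if_pos (by omega)] at f0
    subst f1 f0
    have c1 := norm_EE_al hl hm b1 b2 hE5 (by linarith)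
    have c2 := h.EE_lt hk hO'
    have c3 : ‖E‖ ≤ ‖EE (E, O)‖ := by
      rcases le_total ‖E‖ 2 with h2 | h2
      · rwa [min_eq_left h2] at c1
      · rw [min_eq_right h2] at c1; linarith
    rw [a1, add_zero, norm_gamma_eq h0 _ (by linarith)]
    linarith
  refine ⟨?_, key⟩
  rcases lt_or_ge j k with hk | hk
  · linarith [key hk]
  · obtain ⟨t, -, -, e, ht⟩ := h.BC hk
    rw [e, ht hE5 (by linarith), one_smul]

lemma NStep.O_le (h : NStep ϱ k j τ1 τ0 E O E' O') (h0 : 0 < ϱ) (h1 : ϱ ≤ 1)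
    (hE : ‖E‖ ≤ 1) (hE' : ‖E'‖ ≤ 1) (hO : ‖O‖ < 1) (ih : j + 1 ≤ k ∨ ‖O‖ ≤ 1 / 4) :
    ‖O'‖ ≤ 1 / 4 := by
  rcases lt_trichotomy j k with hk | hk | hk
  · obtain ⟨l1, l2, -, b2, hl, a1, a2⟩ := h.A hk
    have key : ‖EE (E, O)‖ ≤ 1 ∧ ‖O‖ ≤ 1 / 2 := by
      rcases hl with hl | hl
      · rw [EE_of_quarter (by linarith) (by linarith [hl.2])]
        exact ⟨hE, by linarith [hl.2]⟩
      · have c1 : ‖EE (E, O)‖ ≤ 1 := by
          by_contra hc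
          rw [not_le] at hc
          rw [a1, hl.1, add_zero, norm_gamma_eq h0 _ (by linarith)] at hE'
          linarith
        refine ⟨c1, ?_⟩
        by_contra hc
        rw [not_le] at hc
        rw [EE_of_half hc.le, chi_eq_one (by simp only; linarith) (by simp only; linarith),
          norm_smul] at c1
        norm_num at c1
        linarith
    rw [a2, GG_eq_zero _ (by norm_num) (by norm_num) key.2,
      GG_eq_zero _ (by norm_num) (by norm_num) key.1]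
    simpa using b2
  · obtain ⟨l2, b2, -, a2⟩ := h.B hk.symm
    rw [a2, GG_eq_zero _ (by norm_num) (by norm_num)
      ((ih.resolve_left (by omega)).trans (by norm_num))]
    simpa using b2
  · rw [h.C hk]; exact ih.resolve_left (by omega)

lemma doubling (n : ℕ → ℝ) (P : ℕ → Prop) (T a b : ℕ) (c : ℝ) (hc : 0 < c)
    (hstep : ∀ s, a ≤ s → s < b → c ≤ n s → n s ≤ n (s + 1) ∧ (P s → 2 * n s ≤ n (s + 1)))
    (hrec : ∀ s, a ≤ s → s < b → ∃ t, 1 ≤ t ∧ t ≤ T ∧ P (s + t)) (ha : c ≤ n a) (m : ℕ)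
    (hm : a + m * (T + 1) ≤ b) : 2 ^ m * c ≤ n (a + m * (T + 1)) := by
  have mono : ∀ s u, a ≤ s → s + u ≤ b → c ≤ n s → n s ≤ n (s + u) := by
    intro s u hs
    induction u with
    | zero => intros; exact le_rfl
    | succ u ih =>
      intro h1 h2
      have := ih (by omega) h2
      exact this.trans (hstep (s + u) (by omega) (by omega) (h2.trans this)).1
  induction m with
  | zero => simpa using ha
  | succ m ih =>
    have hm' : a + m * (T + 1) + (T + 1) ≤ b := by rw [add_assoc, ← Nat.succ_mul]; exact hm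
    have h1 := ih (by omega)
    set s := a + m * (T + 1) with hs
    have h2 : (1 : ℝ) ≤ 2 ^ m := one_le_pow₀ (by norm_num)
    have h3 : c ≤ n s := le_trans (by nlinarith) h1
    obtain ⟨t, t1, t2, ht⟩ := hrec s (by omega) (by omega)
    have h4 := mono s t (by omega) (by omega) h3
    have h5 := (hstep (s + t) (by omega) (by omega) (h3.trans h4)).2 ht
    have h6 := mono (s + t + 1) (T - t) (by omega) (by omega) (by linarith)
    have e : a + (m + 1) * (T + 1) = s + t + 1 + (T - t) := by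
      rw [Nat.succ_mul]; omega
    rw [e, pow_succ]
    linarith

theorem dyn_main {ϱ : ℝ} (h0 : 0 < ϱ) (h1 : ϱ ≤ 1) (T : ℕ) (M : ℝ) : ∃ K : ℕ,
    ∀ (j a b : ℕ) (e τ1 τ0 σ1 σ0 : ℕ → ℕ) (E O : ℕ → ℂ),
    (∀ s, a ≤ s → s < b → NStep ϱ (e s) j (τ1 s) (τ0 s) (E s) (O s) (E (s + 1)) (O (s + 1))) →
    (∀ s, a ≤ s → s < b → τ1 s = σ1 (s + 1) + 1 ∧ τ0 s = σ0 (s + 1) + 1 ∧
      σ1 s = (if j + 1 ≤ e s then 0 else τ1 s) ∧ σ0 s = (if j ≤ e s then 0 else τ0 s)) →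
    (∀ s, a ≤ s → s < b → ∃ t, 1 ≤ t ∧ t ≤ T ∧ j + 1 ≤ e (s + t)) →
    (∀ s, a ≤ s → s ≤ b → ‖O s‖ ≤ M) →
    ∀ s, a + K ≤ s → s + K ≤ b → ‖E s‖ ≤ 1 ∧ ‖O s‖ ≤ 1 / 4 := by
  obtain ⟨m, hm⟩ := pow_unbounded_of_one_lt M (show (1 : ℝ) < 2 by norm_num)
  refine ⟨(m + 3) * (T + 1), fun j a b e τ1 τ0 σ1 σ0 E O hst hσ hrec hM => ?_⟩
  have c1 : ∀ s, a ≤ s → s + m * (T + 1) ≤ b → ‖O s‖ < 1 := by
    intro s hs hs'
    by_contra hc
    have := doubling (fun s => ‖O s‖) (fun s => j ≤ e s) T s b 1 one_pos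
      (fun u hu hu' h => (hst u (by omega) hu').grow_O h)
      (fun u hu hu' => by
        obtain ⟨t, a1, a2, a3⟩ := hrec u (by omega) hu'
        exact ⟨t, a1, a2, by omega⟩) (not_lt.1 hc) m hs'
    linarith [hM (s + m * (T + 1)) (by omega) hs']
  intro s hs hs'
  have hK : (m + 3) * (T + 1) = m * (T + 1) + 3 * (T + 1) := by ring
  rw [hK] at hs hs'
  set N := m * (T + 1) with hN
  obtain ⟨t1, a1, a2, a3⟩ := hrec a le_rfl (by omega)
  have c2 : ∀ u, a + t1 + 1 ≤ u → u + N ≤ b →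
      ‖E u‖ ≤ 5 ∧ (1 < ‖E u‖ → Al (σ1 u) (σ0 u) (E u) (O u)) := by
    intro u hu
    induction u, hu using Nat.le_induction with
    | base =>
      intro hb
      have h := hst (a + t1) (by omega) (by omega)
      have g := hσ (a + t1) (by omega) (by omega)
      exact ⟨h.E_le h0 (c1 _ (by omega) hb) (Or.inl a3),
        fun h' => h.al h0 g.1 g.2.1 g.2.2.1 g.2.2.2 h' (Or.inl a3)⟩
    | succ u hu ih =>
      intro hb
      have h := hst u (by omega) (by omega)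
      have g := hσ u (by omega) (by omega)
      have ih' := ih (by omega)
      exact ⟨h.E_le h0 (c1 _ (by omega) hb) (Or.inr ih'.1),
        fun h' => h.al h0 g.1 g.2.1 g.2.2.1 g.2.2.2 h' (Or.inr ih'.2)⟩
  have c3 : ∀ u, a + T + 1 ≤ u → u + N + 3 * (T + 1) ≤ b → ‖E u‖ ≤ 1 := by
    intro u hu hu'
    by_contra hc
    rw [not_le] at hc
    have := doubling (fun s => ‖E s‖) (fun s => j + 1 ≤ e s) T u (b - N) ‖E u‖ (by linarith)
      (fun v hv hv' h => by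
        have g := hσ v (by omega) (by omega)
        have g2 := c2 v (by omega) (by omega)
        have h' : 1 < ‖E v‖ := hc.trans_le h
        exact (hst v (by omega) (by omega)).grow_E h0 h1 g.2.2.1 g.2.2.2 h' g2.1
          (c1 v (by omega) (by omega)) (c1 (v + 1) (by omega) (by omega)) (g2.2 h'))
      (fun v hv hv' => hrec v (by omega) (by omega)) le_rfl 3 (by omega)
    have g2 := (c2 (u + 3 * (T + 1)) (by omega) (by omega)).1
    linarith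
  refine ⟨c3 s (by omega) (by omega), ?_⟩
  obtain ⟨t2, b1, b2, b3⟩ := hrec (a + T + 1) (by omega) (by omega)
  have c4 : ∀ u, a + T + 1 + t2 + 1 ≤ u → u + N + 3 * (T + 1) ≤ b → ‖O u‖ ≤ 1 / 4 := by
    intro u hu
    induction u, hu using Nat.le_induction with
    | base =>
      intro hb
      exact (hst _ (by omega) (by omega)).O_le h0 h1 (c3 _ (by omega) (by omega))
        (c3 _ (by omega) (by omega)) (c1 _ (by omega) (by omega)) (Or.inl b3)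
    | succ u hu ih =>
      intro hb
      exact (hst _ (by omega) (by omega)).O_le h0 h1 (c3 _ (by omega) (by omega))
        (c3 _ (by omega) (by omega)) (c1 _ (by omega) (by omega)) (Or.inr (ih (by omega)))
  exact c4 s (by omega) (by omega)

end Crest.Agent.Ent
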