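import Mathlib

set_option autoImplicit false

open Function Filter Topology

namespace Crest.Agent.Ent

lemma poly_le_exp (C Q : ℕ) {c : ℝ} (hc : 0 < c) :
    ∀ᶠ n : ℕ in atTop, ((C * (n + 1) ^ Q : ℕ) : ℝ) ≤ Real.exp (c * n) := by
  have h1 := (isLittleO_pow_exp_pos_mul_atTop Q hc).bound
    (show 0 < 1 / ((C + 1 : ℝ) * Real.exp c) by positivity)
  have h2 : Tendsto (fun n : ℕ => (n : ℝ) + 1) atTop atTop :=
    tendsto_natCast_atTop_atTop.atTop_add tendsto_const_nhds
  filter_upwards [h2.eventually h1] with n hn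
  rw [Real.norm_of_nonneg (by positivity), Real.norm_of_nonneg (Real.exp_pos _).le, mul_add,
    Real.exp_add, mul_one] at hn
  have e : 1 / ((C + 1 : ℝ) * Real.exp c) * (Real.exp (c * n) * Real.exp c)
      = Real.exp (c * n) / (C + 1) := by field_simp
  rw [e, le_div_iff₀ (by positivity)] at hn
  push_cast
  have : (0 : ℝ) ≤ (n + 1) ^ Q := by positivity
  nlinarith

theorem entropy_zero_of_code {M : Type} [MetricSpace M] [Nonempty M] (f : M → M)
    (h : ∀ ε : ℝ, 0 < ε → ∃ C Q : ℕ, ∀ n : ℕ, ∃ (ι : Type) (code : M → ι) (I : Finset ι),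
      I.card ≤ C * (n + 1) ^ Q ∧ (∀ m, code m ∈ I) ∧
      ∀ m m', code m = code m' → ∀ t < n, dist (f^[t] m) (f^[t] m') < ε) :
    Dynamics.coverEntropy f Set.univ = 0 := by
  classical
  refine le_antisymm ?_ (Dynamics.coverEntropy_nonneg f Set.univ_nonempty)
  rw [Dynamics.coverEntropy_eq_iSup_basis Metric.uniformity_basis_dist]
  refine iSup₂_le fun ε hε => ?_
  obtain ⟨C, Q, H⟩ := h ε hε
  have key : ∀ n, Dynamics.coverMincard f Set.univ {p : M × M | dist p.1 p.2 < ε} n
      ≤ ((C * (n + 1) ^ Q : ℕ) : ℕ∞) := by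
    intro n
    obtain ⟨ι, code, I, h1, h2, h3⟩ := H n
    have hc : Dynamics.IsDynCoverOf f Set.univ {p : M × M | dist p.1 p.2 < ε} n
        (I.image (invFun code) : Finset M) := by
      intro m _
      refine ⟨invFun code (code m), by simpa using ⟨code m, h2 m, rfl⟩, ?_⟩
      exact Dynamics.mem_dynEntourage.2 fun k hk =>
        h3 m _ (invFun_eq ⟨m, rfl⟩).symm k hk
    exact hc.coverMincard_le_card.trans (by exact_mod_cast Finset.card_image_le.trans h1)
  refine le_of_forall_gt_imp_ge_of_dense fun a ha => ?_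
  obtain ⟨c, hc0, hca⟩ := EReal.lt_iff_exists_real_btwn.1 ha
  refine le_trans ?_ hca.le
  refine Eventually.expGrowthSup_le ?_
  filter_upwards [poly_le_exp C Q (show 0 < c by exact_mod_cast hc0)] with n hn
  have e : (c : EReal) * (n : EReal) = ((c * n : ℝ) : EReal) := by push_cast; rfl
  rw [e, EReal.exp_coe]
  refine (ENat.toENNReal_le.2 (key n)).trans ?_
  rw [ENat.toENNReal_coe, ← ENNReal.ofReal_natCast]
  exact ENNReal.ofReal_le_ofReal hn

lemma card_small_subsets {α : Type*} (s : Finset α) (Q : ℕ) :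
    (s.powerset.filter fun t => t.card ≤ Q).card ≤ (Q + 1) * (s.card + 1) ^ Q := by
  classical
  have : (s.powerset.filter fun t => t.card ≤ Q)
      ⊆ (Finset.range (Q + 1)).biUnion fun k => s.powersetCard k := by
    intro t ht
    simp only [Finset.mem_filter, Finset.mem_powerset] at ht
    simp only [Finset.mem_biUnion, Finset.mem_range, Finset.mem_powersetCard]
    exact ⟨t.card, by omega, ht.1, rfl⟩
  refine (Finset.card_le_card this).trans (Finset.card_biUnion_le.trans ?_)
  calc _ ≤ ∑ _k ∈ Finset.range (Q + 1), (s.card + 1) ^ Q := by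
        refine Finset.sum_le_sum fun k hk => ?_
        rw [Finset.card_powersetCard]
        rw [Finset.mem_range] at hk
        calc _ ≤ s.card ^ k := Nat.choose_le_pow _ _
          _ ≤ (s.card + 1) ^ k := Nat.pow_le_pow_left (by omega) _
          _ ≤ _ := Nat.pow_le_pow_right (by omega) (by omega)
    _ = _ := by simp

theorem entropy_zero_skew {M Y : Type} [MetricSpace M] [Nonempty M] [MetricSpace Y]
    [CompactSpace Y] (f : M → M) (π : M → Y) (θ : M → ℝ) (b : ℝ → ℝ) (hb : Monotone b)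
    (hb1 : ∀ x, b (x + 1) = b x + 1) (hθ : ∀ m, -1 ≤ θ m ∧ θ m ≤ 1) (y1 y2 : Y)
    (hdist : ∀ ε : ℝ, 0 < ε → ∃ δ : ℝ, 0 < δ ∧ ∀ m m' t,
      dist (π (f^[t] m)) (π (f^[t] m')) < δ → |b^[t] (θ m) - b^[t] (θ m')| < δ →
        dist (f^[t] m) (f^[t] m') < ε)
    (htame : ∀ δ : ℝ, 0 < δ → ∃ Q : ℕ, ∀ m n, ∃ td ≤ n, ∃ X : Finset ℕ, X.card ≤ Q ∧
      ∀ t < n, t ∉ X → dist (π (f^[t] m)) (if t < td then y1 else y2) < δ) :
    Dynamics.coverEntropy f Set.univ = 0 := by
  classical
  refine entropy_zero_of_code f fun ε hε => ?_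
  obtain ⟨δ, hδ, hd⟩ := hdist ε hε
  obtain ⟨Q, hQ⟩ := htame (δ / 2) (by positivity)
  obtain ⟨A, -, hAf, hA⟩ := (isCompact_univ (X := Y)).finite_cover_balls (show 0 < δ / 2 by positivity)
  have hnet : ∀ y : Y, ∃ a ∈ hAf.toFinset, dist y a < δ / 2 := fun y => by
    simpa using hA (Set.mem_univ y)
  choose net hnet1 hnet2 using hnet
  set A' := hAf.toFinset
  set c : ℕ := ⌈2 / δ⌉₊ + 1 with hc
  have hbi : ∀ t, Monotone b^[t] := fun t => hb.iterate t
  have hbi1 : ∀ t x, b^[t] (x + 1) = b^[t] x + 1 := fun t x => by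
    induction t with
    | zero => rfl
    | succ m ih => rw [iterate_succ_apply', ih, hb1, iterate_succ_apply']
  refine ⟨(c + 1) * ((Q + 1) * (A'.card + 1) ^ Q), Q + 2, fun n => ?_⟩
  choose td htd X hX hXd using fun m => hQ m n
  set s : ℝ → ℤ := fun x => ∑ t ∈ Finset.range n, ⌊b^[t] x / δ⌋ with hs
  have hmono : ∀ t, Monotone fun x => ⌊b^[t] x / δ⌋ := fun t x y hxy =>
    Int.floor_mono (div_le_div_of_nonneg_right (hbi t hxy) hδ.le)
  refine ⟨ℤ × ℕ × Finset (ℕ × Y), fun m => (s (θ m), td m,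
    ((X m).filter (· < n)).image fun t => (t, net (π (f^[t] m)))),
    Finset.Icc (s (-1)) (s (-1) + n * c) ×ˢ Finset.range (n + 1) ×ˢ
      ((Finset.range n ×ˢ A').powerset.filter fun t => t.card ≤ Q), ?_, fun m => ?_, ?_⟩
  · rw [Finset.card_product, Finset.card_product, Int.card_Icc, Finset.card_range]
    have e : (s (-1) + n * c + 1 - s (-1)).toNat = n * c + 1 := by
      rw [show s (-1) + n * c + 1 - s (-1) = ((n * c + 1 : ℕ) : ℤ) by push_cast; ring,
        Int.toNat_natCast]
    have h1 := card_small_subsets (Finset.range n ×ˢ A') Q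
    rw [Finset.card_product, Finset.card_range] at h1
    have h2 : (n * A'.card + 1) ^ Q ≤ (A'.card + 1) ^ Q * (n + 1) ^ Q := by
      rw [← mul_pow]; exact Nat.pow_le_pow_left (by nlinarith) _
    rw [e]
    calc _ ≤ ((c + 1) * (n + 1)) * ((n + 1) * ((Q + 1) * ((A'.card + 1) ^ Q * (n + 1) ^ Q))) := by
          gcongr
          · nlinarith
          · exact h1.trans (by gcongr)
      _ = _ := by ring
  · simp only [Finset.mem_product, Finset.mem_Icc, Finset.mem_range, Finset.mem_filter,
      Finset.mem_powerset]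
    refine ⟨⟨Finset.sum_le_sum fun t _ => hmono t (hθ m).1, ?_⟩, Nat.lt_succ_of_le (htd m), ?_, ?_⟩
    · have : s (-1) + n * c = ∑ t ∈ Finset.range n, (⌊b^[t] (-1) / δ⌋ + c) := by
        rw [Finset.sum_add_distrib]; simp [hs]
      rw [this]
      refine Finset.sum_le_sum fun t _ => (hmono t (hθ m).2).trans ?_
      have e1 : b^[t] 1 = b^[t] (-1) + 2 := by
        have a1 := hbi1 t (-1)
        have a2 := hbi1 t 0
        norm_num at a1 a2
        linarith
      rw [← Int.floor_add_natCast]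
      refine Int.floor_mono ?_
      rw [e1, add_div]
      have := Nat.le_ceil (2 / δ)
      rw [hc]; push_cast; linarith
    · intro p hp
      simp only [Finset.mem_image, Finset.mem_filter] at hp
      obtain ⟨t, ht, rfl⟩ := hp
      simp [ht.2, hnet1]
    · exact Finset.card_image_le.trans ((Finset.card_filter_le _ _).trans (hX m))
  · intro m m' hcode t ht
    simp only [Prod.mk.injEq] at hcode
    obtain ⟨c1, c2, c3⟩ := hcode
    refine hd m m' t ?_ ?_
    · by_cases hx : t ∈ X m
      · have : (t, net (π (f^[t] m))) ∈ ((X m').filter (· < n)).image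
            fun t => (t, net (π (f^[t] m'))) := by
          rw [← c3]; exact Finset.mem_image.2 ⟨t, by simp [hx, ht], rfl⟩
        obtain ⟨t', -, h'⟩ := Finset.mem_image.1 this
        simp only [Prod.mk.injEq] at h'
        obtain ⟨rfl, h'⟩ := h'
        have a1 := hnet2 (π (f^[t'] m))
        have a2 := hnet2 (π (f^[t'] m'))
        rw [h'] at a2
        linarith [dist_triangle_right (π (f^[t'] m)) (π (f^[t'] m')) (net (π (f^[t'] m)))]
      · have hx' : t ∉ X m' := fun hx' => by
          have : (t, net (π (f^[t] m'))) ∈ ((X m).filter (· < n)).image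
              fun t => (t, net (π (f^[t] m))) := by
            rw [c3]; exact Finset.mem_image.2 ⟨t, by simp [hx', ht], rfl⟩
          obtain ⟨t', h1, h'⟩ := Finset.mem_image.1 this
          simp only [Prod.mk.injEq] at h'
          obtain ⟨rfl, -⟩ := h'
          exact hx (Finset.mem_filter.1 h1).1
        have a1 := hXd m t ht hx
        have a2 := hXd m' t ht hx'
        rw [← c2] at a2
        linarith [dist_triangle_right (π (f^[t] m)) (π (f^[t] m')) (if t < td m then y1 else y2)]
    · have key : ∀ x y, x ≤ y → s x = s y → ⌊b^[t] x / δ⌋ = ⌊b^[t] y / δ⌋ := fun x y hxy h =>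
        (Finset.sum_eq_sum_iff_of_le fun i _ => hmono i hxy).1 h t (Finset.mem_range.2 ht)
      have e : ⌊b^[t] (θ m) / δ⌋ = ⌊b^[t] (θ m') / δ⌋ := by
        rcases le_total (θ m) (θ m') with h | h
        · exact key _ _ h c1
        · exact (key _ _ h c1.symm).symm
      have := Int.abs_sub_lt_one_of_floor_eq_floor e
      rwa [← sub_div, abs_div, abs_of_pos hδ, div_lt_one hδ] at this

end Crest.Agent.Ent
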