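import Mathlib

set_option autoImplicit false

open Filter Topology Function

namespace Crest.Agent.Ent

local notation "Ψ" => Real.smoothTransition

/-- Lipschitz with a real constant. -/
def Lip {E F : Type*} [NormedAddCommGroup E] [NormedAddCommGroup F] (K : ℝ) (f : E → F) : Prop :=
  ∀ x y, ‖f x - f y‖ ≤ K * ‖x - y‖

section
variable {E F G : Type*} [NormedAddCommGroup E] [NormedAddCommGroup F] [NormedAddCommGroup G]

lemma Lip.mono {K K' : ℝ} {f : E → F} (h : Lip K f) (hK : K ≤ K') : Lip K' f :=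
  fun x y => (h x y).trans (by gcongr)

lemma Lip.comp {K K' : ℝ} {f : F → G} {g : E → F} (hf : Lip K f) (hg : Lip K' g) (hK : 0 ≤ K) :
    Lip (K * K') (fun x => f (g x)) := fun x y => by
  calc _ ≤ K * ‖g x - g y‖ := hf _ _
    _ ≤ K * (K' * ‖x - y‖) := by gcongr; exact hg _ _
    _ = _ := by ring

lemma Lip.smul [NormedSpace ℝ F] {K : ℝ} {f : E → F} (hf : Lip K f) {c : ℝ} (hc : 0 ≤ c) :
    Lip (c * K) (fun x => c • f x) := fun x y => by
  rw [← smul_sub, norm_smul, Real.norm_of_nonneg hc, mul_assoc]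
  gcongr; exact hf _ _

lemma lip_id : Lip 1 (fun x : E => x) := fun x y => by simp

lemma lip_smul [NormedSpace ℝ E] {c : ℝ} (hc : 0 ≤ c) : Lip c (fun x : E => c • x) := by
  simpa using (lip_id (E := E)).smul hc

lemma Lip.prodMk {K : ℝ} {f : E → F} {g : E → G} (hf : Lip K f) (hg : Lip K g) :
    Lip K (fun x => (f x, g x)) := fun x y => by
  rw [Prod.mk_sub_mk, Prod.norm_mk]; exact max_le (hf _ _) (hg _ _)

lemma lip_zero {K : ℝ} (hK : 0 ≤ K) : Lip K (fun _ : E => (0 : F)) := fun x y => by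
  simp; positivity

lemma Lip.iterate {K : ℝ} {f : E → E} (hf : Lip K f) (hK : 0 ≤ K) (n : ℕ) : Lip (K ^ n) f^[n] := by
  induction n with
  | zero => rw [pow_zero]; exact lip_id
  | succ n ih =>
    rw [pow_succ', iterate_succ']
    exact hf.comp ih hK

lemma exists_lip_of_support [NormedSpace ℝ E] [NormedSpace ℝ F] [ProperSpace E] {f : E → F}
    (hf : ContDiff ℝ 1 f) (R : ℝ) (h0 : ∀ x, R ≤ ‖x‖ → f x = 0) : ∃ K, 0 ≤ K ∧ Lip K f := by
  have hc : HasCompactSupport f :=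
    HasCompactSupport.intro (isCompact_closedBall (0 : E) R) fun x hx =>
      h0 x (by simp at hx; exact hx.le)
  obtain ⟨C, hC⟩ := ContDiff.lipschitzWith_of_hasCompactSupport hc hf one_ne_zero
  exact ⟨C, C.2, fun x y => by simpa [dist_eq_norm] using hC.dist_le_mul x y⟩

lemma Lip.norm_le {K R : ℝ} {f : E → F} (hf : Lip K f) (hK : 0 ≤ K) (hR : 0 ≤ R) (h0 : f 0 = 0)
    (hs : ∀ x, R ≤ ‖x‖ → f x = 0) (x : E) : ‖f x‖ ≤ K * R := by
  rcases le_or_gt R ‖x‖ with h | h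
  · rw [hs x h, norm_zero]; positivity
  · have := hf x 0
    rw [h0, sub_zero, sub_zero] at this
    exact this.trans (by gcongr)

end

/-- angle doubling -/
noncomputable def cc (u : ℂ) : ℂ := ‖u‖⁻¹ • (u * u)

lemma norm_cc (u : ℂ) : ‖cc u‖ = ‖u‖ := by
  rcases eq_or_ne u 0 with rfl | h
  · simp [cc]
  · have : ‖u‖ ≠ 0 := norm_ne_zero_iff.2 h
    rw [cc, norm_smul, norm_mul, norm_inv, norm_norm]; field_simp

lemma cc_smul {t : ℝ} (ht : 0 ≤ t) (u : ℂ) : cc (t • u) = t • cc u := by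
  rcases ht.eq_or_lt with rfl | ht'
  · simp [cc]
  · rw [cc, cc, norm_smul, Real.norm_of_nonneg ht, smul_mul_smul_comm, smul_smul, smul_smul]
    congr 1
    rcases eq_or_ne u 0 with rfl | h
    · simp
    · have : ‖u‖ ≠ 0 := norm_ne_zero_iff.2 h
      field_simp

lemma lip_cc : Lip 3 cc := by
  intro u v
  wlog h : ‖v‖ ≤ ‖u‖ generalizing u v
  · rw [norm_sub_rev, norm_sub_rev u v]; exact this v u (le_of_not_ge h)
  rcases eq_or_ne v 0 with rfl | hv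
  · have : cc 0 = 0 := by simp [cc]
    rw [this, sub_zero, sub_zero, norm_cc]; linarith [norm_nonneg u]
  have hv' : 0 < ‖v‖ := norm_pos_iff.2 hv
  have hu' : 0 < ‖u‖ := hv'.trans_le h
  have e : cc u - cc v = ‖u‖⁻¹ • ((u - v) * (u + v)) + (‖u‖⁻¹ - ‖v‖⁻¹) • (v * v) := by
    simp only [cc, Complex.real_smul]; push_cast; ring
  have h1 : ‖‖u‖⁻¹ • ((u - v) * (u + v))‖ ≤ 2 * ‖u - v‖ := by
    rw [norm_smul, norm_mul, norm_inv, norm_norm]
    have : ‖u + v‖ ≤ 2 * ‖u‖ := (norm_add_le _ _).trans (by linarith)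
    calc _ ≤ ‖u‖⁻¹ * (‖u - v‖ * (2 * ‖u‖)) := by gcongr
      _ = _ := by field_simp
  have h2 : ‖(‖u‖⁻¹ - ‖v‖⁻¹) • (v * v)‖ ≤ ‖u - v‖ := by
    rw [norm_smul, norm_mul, Real.norm_eq_abs, abs_sub_comm,
      abs_of_nonneg (sub_nonneg.2 (inv_anti₀ hv' h))]
    have h3 : ‖u‖ - ‖v‖ ≤ ‖u - v‖ := norm_sub_norm_le _ _
    have e2 : (‖v‖⁻¹ - ‖u‖⁻¹) * (‖v‖ * ‖v‖) = (‖u‖ - ‖v‖) * (‖v‖ / ‖u‖) := by field_simp
    rw [e2]
    calc _ ≤ ‖u - v‖ * 1 := by
          gcongr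
          exact (div_le_one hu').2 h
      _ = _ := mul_one _
  rw [e]
  exact (norm_add_le _ _).trans (by linarith)

lemma cc_contDiffAt {u : ℂ} (hu : u ≠ 0) : ContDiffAt ℝ 1 cc u := by
  have h1 : ContDiffAt ℝ 1 (fun u : ℂ => ‖u‖) u := contDiffAt_id.norm ℝ hu
  exact (h1.inv (norm_ne_zero_iff.2 hu)).smul (contDiffAt_id.mul contDiffAt_id)

lemma norm_cc_iter (n : ℕ) (u : ℂ) : ‖cc^[n] u‖ = ‖u‖ := by
  induction n with
  | zero => rfl
  | succ n ih => rw [iterate_succ_apply', norm_cc, ih]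

lemma cc_iter_smul (n : ℕ) {t : ℝ} (ht : 0 ≤ t) (u : ℂ) : cc^[n] (t • u) = t • cc^[n] u := by
  induction n with
  | zero => rfl
  | succ n ih => rw [iterate_succ_apply', ih, cc_smul ht, iterate_succ_apply']

lemma cc_iter_contDiffAt (n : ℕ) {u : ℂ} (hu : u ≠ 0) : ContDiffAt ℝ 1 cc^[n] u := by
  induction n with
  | zero => exact contDiffAt_id
  | succ n ih =>
    rw [iterate_succ']
    refine (cc_contDiffAt ?_).comp u ih
    rw [← norm_ne_zero_iff, norm_cc_iter, norm_ne_zero_iff]; exact hu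

/-- cutoff: `0` on `‖u‖ ≤ a`, `1` on `b ≤ ‖u‖`. -/
noncomputable def cut (a b : ℝ) (u : ℂ) : ℝ := Ψ ((‖u‖ ^ 2 - a ^ 2) / (b ^ 2 - a ^ 2))

lemma cut_smooth (a b : ℝ) : ContDiff ℝ 1 (cut a b) :=
  (Real.smoothTransition.contDiff (n := 1)).comp
    (((contDiff_norm_sq ℝ).sub contDiff_const).div_const _)

lemma cut_nonneg (a b : ℝ) (u : ℂ) : 0 ≤ cut a b u := Real.smoothTransition.nonneg _
lemma cut_le_one (a b : ℝ) (u : ℂ) : cut a b u ≤ 1 := Real.smoothTransition.le_one _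

lemma cut_eq_zero {a b : ℝ} (ha : 0 ≤ a) (hab : a < b) {u : ℂ} (hu : ‖u‖ ≤ a) : cut a b u = 0 :=
  Real.smoothTransition.zero_of_nonpos (div_nonpos_of_nonpos_of_nonneg
    (by nlinarith [norm_nonneg u]) (by nlinarith))

lemma cut_eq_one {a b : ℝ} (ha : 0 ≤ a) (hab : a < b) {u : ℂ} (hu : b ≤ ‖u‖) : cut a b u = 1 :=
  Real.smoothTransition.one_of_one_le (by
    rw [le_div_iff₀ (by nlinarith)]; nlinarith)

/-- cut-off iterate of angle doubling -/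
noncomputable def GG (n : ℕ) (a b : ℝ) (u : ℂ) : ℂ := cut a b u • cc^[n] u

lemma GG_smooth (n : ℕ) {a b : ℝ} (ha : 0 < a) (hab : a < b) : ContDiff ℝ 1 (GG n a b) := by
  rw [contDiff_iff_contDiffAt]
  intro u
  rcases eq_or_ne u 0 with rfl | hu
  · refine (contDiffAt_const (c := (0 : ℂ))).congr_of_eventuallyEq ?_
    filter_upwards [Metric.closedBall_mem_nhds (0 : ℂ) ha] with v hv
    rw [GG, cut_eq_zero ha.le hab (by simpa using hv), zero_smul]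
  · exact (cut_smooth a b).contDiffAt.smul (cc_iter_contDiffAt n hu)

lemma GG_lip {a b : ℝ} (ha : 0 < a) (hab : a < b) :
    ∃ L, 0 ≤ L ∧ ∀ n, Lip (3 ^ n * L) (GG n a b) := by
  obtain ⟨K, hK, hL⟩ := exists_lip_of_support (f := fun u : ℂ => (1 - cut a b u) • u)
    ((contDiff_const.sub (cut_smooth a b)).smul contDiff_id) b
    (fun u hu => by rw [cut_eq_one ha.le hab hu]; simp)
  have h2 : Lip (1 + K) (fun u : ℂ => cut a b u • u) := fun x y => by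
    have e : cut a b x • x - cut a b y • y
        = (x - y) - ((1 - cut a b x) • x - (1 - cut a b y) • y) := by
      simp only [sub_smul, one_smul]; abel
    rw [e]
    exact (norm_sub_le _ _).trans (by linarith [hL x y])
  refine ⟨1 + K, by linarith, fun n => ?_⟩
  have := (lip_cc.iterate (by norm_num) n).comp h2 (by positivity)
  convert this using 2 with u
  rw [GG, cc_iter_smul n (cut_nonneg _ _ _)]

lemma norm_GG (n : ℕ) (a b : ℝ) (u : ℂ) : ‖GG n a b u‖ = cut a b u * ‖u‖ := by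
  rw [GG, norm_smul, norm_cc_iter, Real.norm_of_nonneg (cut_nonneg _ _ _)]

lemma norm_GG_le (n : ℕ) (a b : ℝ) (u : ℂ) : ‖GG n a b u‖ ≤ ‖u‖ := by
  rw [norm_GG]; exact mul_le_of_le_one_left (norm_nonneg _) (cut_le_one _ _ _)

lemma GG_zero (n : ℕ) (a b : ℝ) : GG n a b 0 = 0 := by
  simpa using norm_GG_le n a b 0

/-- outer cutoff -/
noncomputable def chi (y : ℂ × ℂ) : ℝ := (1 - cut 5 6 y.1) * (1 - cut 5 6 y.2)

lemma chi_smooth : ContDiff ℝ 1 chi :=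
  (contDiff_const.sub ((cut_smooth _ _).comp contDiff_fst)).mul
    (contDiff_const.sub ((cut_smooth _ _).comp contDiff_snd))

lemma chi_nonneg (y : ℂ × ℂ) : 0 ≤ chi y :=
  mul_nonneg (sub_nonneg.2 (cut_le_one _ _ _)) (sub_nonneg.2 (cut_le_one _ _ _))

lemma chi_le_one (y : ℂ × ℂ) : chi y ≤ 1 :=
  mul_le_one₀ (by linarith [cut_nonneg 5 6 y.1]) (sub_nonneg.2 (cut_le_one _ _ _))
    (by linarith [cut_nonneg 5 6 y.2])

lemma chi_eq_one {y : ℂ × ℂ} (h1 : ‖y.1‖ ≤ 5) (h2 : ‖y.2‖ ≤ 5) : chi y = 1 := by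
  rw [chi, cut_eq_zero (by norm_num) (by norm_num) h1, cut_eq_zero (by norm_num) (by norm_num) h2]
  norm_num

lemma chi_eq_zero {y : ℂ × ℂ} (h : 6 ≤ ‖y‖) : chi y = 0 := by
  rw [Prod.norm_def, le_max_iff] at h
  rcases h with h | h
  · rw [chi, cut_eq_one (by norm_num) (by norm_num) h]; simp
  · rw [chi, cut_eq_one (by norm_num) (by norm_num) h]; simp

/-- mixing map -/
noncomputable def EE (y : ℂ × ℂ) : ℂ :=
  chi y • ((1 - cut (1/4) (1/2) y.2) • y.1 + (8 * cut (1/4) (1/2) y.2) • y.2)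

lemma EE_smooth : ContDiff ℝ 1 EE :=
  chi_smooth.smul (((contDiff_const.sub ((cut_smooth _ _).comp contDiff_snd)).smul contDiff_fst).add
    ((contDiff_const.mul ((cut_smooth _ _).comp contDiff_snd)).smul contDiff_snd))

lemma EE_eq_zero {y : ℂ × ℂ} (h : 6 ≤ ‖y‖) : EE y = 0 := by rw [EE, chi_eq_zero h, zero_smul]

lemma EE_zero : EE 0 = 0 := by simp [EE]

lemma EE_lip : ∃ L, 0 ≤ L ∧ Lip L EE := exists_lip_of_support EE_smooth 6 fun _ => EE_eq_zero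

/-- cut-off projection -/
noncomputable def Lam (y : ℂ × ℂ) : ℂ × ℂ := (chi y • y.1, 0)

lemma Lam_smooth : ContDiff ℝ 1 Lam := (chi_smooth.smul contDiff_fst).prodMk contDiff_const

lemma Lam_eq_zero {y : ℂ × ℂ} (h : 6 ≤ ‖y‖) : Lam y = 0 := by
  rw [Lam, chi_eq_zero h, zero_smul]; rfl

lemma Lam_lip : ∃ L, 0 ≤ L ∧ Lip L Lam := exists_lip_of_support Lam_smooth 6 fun _ => Lam_eq_zero

/-- return map of a level (in swapped coordinates) -/
noncomputable def Ret (τ τ' : ℕ) (p p' r r' : ℝ) (y : ℂ × ℂ) : ℂ × ℂ :=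
  ((2 * r' / p) • GG τ (1/2) 1 ((r / r') • EE (r⁻¹ • y)), (r / p') • GG τ' 1 2 (EE (r⁻¹ • y)))

/-- linear part of a level -/
noncomputable def Lin (a ρ : ℝ) (y : ℂ × ℂ) : ℂ × ℂ := (a * ρ) • Lam (ρ⁻¹ • y)

lemma Ret_smooth (τ τ' : ℕ) (p p' r r' : ℝ) : ContDiff ℝ 1 (Ret τ τ' p p' r r') := by
  have h1 : ContDiff ℝ 1 fun y : ℂ × ℂ => EE (r⁻¹ • y) :=
    EE_smooth.comp (contDiff_id.const_smul r⁻¹)
  exact (((GG_smooth τ (by norm_num) (by norm_num)).comp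
    (h1.const_smul (r / r'))).const_smul (2 * r' / p)).prodMk
    (((GG_smooth τ' (by norm_num) (by norm_num)).comp h1).const_smul (r / p'))

lemma Lin_smooth (a ρ : ℝ) : ContDiff ℝ 1 (Lin a ρ) :=
  (Lam_smooth.comp (contDiff_id.const_smul ρ⁻¹)).const_smul (a * ρ)

lemma six_le {r : ℝ} (hr : 0 < r) {y : ℂ × ℂ} (h : 6 * r ≤ ‖y‖) : 6 ≤ ‖r⁻¹ • y‖ := by
  rw [norm_smul, norm_inv, Real.norm_of_nonneg hr.le, inv_mul_eq_div, le_div_iff₀ hr]; exact h

lemma Ret_eq_zero (τ τ' : ℕ) (p p' : ℝ) {r : ℝ} (r' : ℝ) (hr : 0 < r) {y : ℂ × ℂ}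
    (h : 6 * r ≤ ‖y‖) : Ret τ τ' p p' r r' y = 0 := by
  simp [Ret, EE_eq_zero (six_le hr h), GG_zero]

lemma Lin_eq_zero (a : ℝ) {ρ : ℝ} (hr : 0 < ρ) {y : ℂ × ℂ} (h : 6 * ρ ≤ ‖y‖) : Lin a ρ y = 0 := by
  simp [Lin, Lam_eq_zero (six_le hr h)]

lemma Ret_zero (τ τ' : ℕ) (p p' r r' : ℝ) : Ret τ τ' p p' r r' 0 = 0 := by
  simp [Ret, EE_zero, GG_zero]

lemma Lin_zero (a ρ : ℝ) : Lin a ρ 0 = 0 := by simp [Lin, Lam]

lemma exists_C : ∃ C : ℝ, 1 ≤ C ∧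
    (∀ (τ τ' : ℕ) (p p' r r' δ : ℝ), 0 < p → 0 < p' → 0 < r → 0 < r' → 3 ^ τ ≤ δ * p →
      3 ^ τ' ≤ δ * p' → Lip (C * δ) (Ret τ τ' p p' r r')) ∧
    (∀ a ρ : ℝ, 0 ≤ a → 0 < ρ → Lip (C * a) (Lin a ρ)) := by
  obtain ⟨L1, h1, H1⟩ := GG_lip (a := 1/2) (b := 1) (by norm_num) (by norm_num)
  obtain ⟨L2, h2, H2⟩ := GG_lip (a := 1) (b := 2) (by norm_num) (by norm_num)
  obtain ⟨L3, h3, H3⟩ := EE_lip
  obtain ⟨L4, h4, H4⟩ := Lam_lip
  refine ⟨1 + 2 * L1 * L3 + L2 * L3 + L4, by nlinarith [mul_nonneg h1 h3, mul_nonneg h2 h3],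
    fun τ τ' p p' r r' δ hp hp' hr hr' a1 a2 => ?_, fun a ρ ha hρ => ?_⟩
  · have hδ : 0 ≤ δ := by
      have : (0 : ℝ) < δ * p := lt_of_lt_of_le (by positivity) a1
      exact (pos_of_mul_pos_left this hp.le).le
    have e1 := H3.comp (lip_smul (E := ℂ × ℂ) (inv_nonneg.2 hr.le)) h3
    have e2 := ((H1 τ).comp (e1.smul (c := r / r') (by positivity)) (by positivity)).smul
      (c := 2 * r' / p) (by positivity)
    have e3 := ((H2 τ').comp e1 (by positivity)).smul (c := r / p') (by positivity)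
    refine (e2.mono ?_).prodMk (e3.mono ?_)
    · have : 2 * r' / p * (3 ^ τ * L1 * (r / r' * (L3 * r⁻¹))) = 2 * L1 * L3 * (3 ^ τ / p) := by
        field_simp
      rw [this]
      have a3 : 3 ^ τ / p ≤ δ := by rw [div_le_iff₀ hp]; exact a1
      calc _ ≤ 2 * L1 * L3 * δ := by gcongr
        _ ≤ _ := by gcongr; nlinarith [mul_nonneg h2 h3]
    · have : r / p' * (3 ^ τ' * L2 * (L3 * r⁻¹)) = L2 * L3 * (3 ^ τ' / p') := by
        field_simp
      rw [this]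
      have a3 : 3 ^ τ' / p' ≤ δ := by rw [div_le_iff₀ hp']; exact a2
      calc _ ≤ L2 * L3 * δ := by gcongr
        _ ≤ _ := by gcongr; nlinarith [mul_nonneg h1 h3]
  · have e1 := (H4.comp (lip_smul (E := ℂ × ℂ) (inv_nonneg.2 hρ.le)) h4).smul
      (c := a * ρ) (by positivity)
    refine e1.mono ?_
    have : a * ρ * (L4 * ρ⁻¹) = L4 * a := by field_simp
    rw [this]
    gcongr; nlinarith [mul_nonneg h1 h3, mul_nonneg h2 h3]

end Crest.Agent.Ent
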