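import Crest.Agent.Ent.Sphere

set_option autoImplicit false

open Function Filter Topology
open scoped Manifold ContDiff Real

namespace Crest.Agent.Ent

namespace Sys
variable (S : Sys)

/-- fibre coordinates -/
noncomputable def xx (m : MM) : ℂ × ℂ := (zeta m.1, (m.2.1 : E3).fst)

noncomputable def FF (m : MM) : ℂ × ℂ := S.F (th m.2.2, xx m)

lemma FF_snd (m : MM) : ‖(S.FF m).2‖ ≤ 1 / 16 := S.F_snd _

open Classical in
noncomputable def f (m : MM) : MM :=
  (if (m.1 : E3).snd < 0 then south else ⟨sig (S.FF m).1, sig_mem _⟩,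
   if (m.1 : E3).snd < 0 then north else
     ⟨iota (S.FF m).2, iota_mem ((S.FF_snd m).trans (by norm_num))⟩,
   ⟨ex (S.B.b (th m.2.2)), ex_mem _⟩)

lemma FF_far {m : MM} (h : 1 / 16 ≤ ‖zeta (m.1 : E3)‖) :
    S.FF m = ((2 : ℝ) • cc (zeta m.1), 0) := S.F_far _ h

lemma f_fst {m : MM} (h : -1 < (m.1 : E3).snd) : ((S.f m).1 : E3) = sig (S.FF m).1 := by
  unfold f
  split_ifs with h'
  · have := one_lt_zeta m.1 h h'
    rw [S.FF_far (by linarith), sig_big]
    rw [norm_smul, norm_cc]; simp only [Real.norm_ofNat]; linarith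
  · rfl

lemma f_snd {m : MM} (h : -1 < (m.1 : E3).snd) : ((S.f m).2.1 : E3) = iota (S.FF m).2 := by
  unfold f
  split_ifs with h'
  · have := one_lt_zeta m.1 h h'
    rw [S.FF_far (by linarith), iota_zero]
  · rfl

lemma f_neg {m : MM} (h : (m.1 : E3).snd < 0) : (S.f m).1 = south ∧ (S.f m).2.1 = north := by
  unfold f; simp [h]

noncomputable abbrev IM := (𝓡 2).prod ((𝓡 2).prod (𝓡 1))

lemma coe_smooth : ContMDiff IM 𝓘(ℝ, E3 × E3 × ℂ) 1
    fun m : MM => ((m.1 : E3), (m.2.1 : E3), (m.2.2 : ℂ)) :=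
  (contMDiff_coe_sphere.comp contMDiff_fst).prodMk_space
    ((contMDiff_coe_sphere.comp (contMDiff_fst.comp contMDiff_snd)).prodMk_space
      (contMDiff_coe_sphere.comp (contMDiff_snd.comp contMDiff_snd)))

lemma smooth_of_ambient {Y : Type*} [NormedAddCommGroup Y] [NormedSpace ℝ Y] {g : E3 × E3 × ℂ → Y}
    {m : MM} (hg : ContDiffAt ℝ 1 g ((m.1 : E3), (m.2.1 : E3), (m.2.2 : ℂ))) :
    ContMDiffAt IM 𝓘(ℝ, Y) 1 (g ∘ fun m : MM => ((m.1 : E3), (m.2.1 : E3), (m.2.2 : ℂ))) m :=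
  ContMDiffAt.comp m hg.contMDiffAt (coe_smooth m)

lemma S1_ne (u : S1) : (u : ℂ) ≠ 0 := ne_zero_of_mem_unit_sphere u

lemma FF_smooth {m : MM} (h : -1 < (m.1 : E3).snd) : ContMDiffAt IM 𝓘(ℝ, ℂ × ℂ) 1 S.FF m := by
  have h1 : ContDiffAt ℝ 1 (fun q : E3 × E3 × ℂ => (q.2.2, zeta q.1, q.2.1.fst))
      ((m.1 : E3), (m.2.1 : E3), (m.2.2 : ℂ)) :=
    contDiffAt_snd.snd.prodMk ((ContDiffAt.comp (g := zeta) (f := Prod.fst)
      ((m.1 : E3), (m.2.1 : E3), (m.2.2 : ℂ)) (zeta_smooth h) contDiffAt_fst).prodMk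
      (contDiff_E3_fst.contDiffAt.comp _ contDiffAt_snd.fst))
  have h2 := ContDiffAt.comp (f := fun q : E3 × E3 × ℂ => (q.2.2, zeta q.1, q.2.1.fst))
    ((m.1 : E3), (m.2.1 : E3), (m.2.2 : ℂ)) (descend S.F_smooth S.F_per
    (p := ((m.2.2 : ℂ), zeta m.1, (m.2.1 : E3).fst)) (S1_ne _)) h1
  exact smooth_of_ambient h2

lemma cont_h : Continuous fun m : MM => (m.1 : E3).snd := by fun_prop

lemma f_smooth : ContMDiff IM IM 1 S.f := by
  have h1 : ContMDiff IM 𝓘(ℝ, E3) 1 fun m => ((S.f m).1 : E3) := by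
    intro m
    rcases lt_or_ge (m.1 : E3).snd 0 with h | h
    · refine (contMDiffAt_const (c := (south : E3))).congr_of_eventuallyEq ?_
      filter_upwards [cont_h.continuousAt.eventually_lt continuousAt_const h] with m' hm'
      rw [(S.f_neg hm').1]
    · have h' : -1 < (m.1 : E3).snd := by linarith
      refine ((sig_smooth.comp contDiff_fst).contDiffAt.contMDiffAt.comp m
        (S.FF_smooth h')).congr_of_eventuallyEq ?_
      filter_upwards [continuousAt_const.eventually_lt cont_h.continuousAt h'] with m' hm'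
      exact S.f_fst hm'
  have h2 : ContMDiff IM 𝓘(ℝ, E3) 1 fun m => ((S.f m).2.1 : E3) := by
    intro m
    rcases lt_or_ge (m.1 : E3).snd 0 with h | h
    · refine (contMDiffAt_const (c := (north : E3))).congr_of_eventuallyEq ?_
      filter_upwards [cont_h.continuousAt.eventually_lt continuousAt_const h] with m' hm'
      rw [(S.f_neg hm').2]
    · have h' : -1 < (m.1 : E3).snd := by linarith
      have a1 : ContDiffAt ℝ 1 (fun y : ℂ × ℂ => iota y.2) (S.FF m) :=
        (iota_smooth ((S.FF_snd m).trans_lt (by norm_num))).comp _ contDiffAt_snd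
      refine (a1.contMDiffAt.comp m (S.FF_smooth h')).congr_of_eventuallyEq ?_
      filter_upwards [continuousAt_const.eventually_lt cont_h.continuousAt h'] with m' hm'
      exact S.f_snd hm'
  have h3 : ContMDiff IM 𝓘(ℝ, ℂ) 1 fun m => ((S.f m).2.2 : ℂ) := by
    intro m
    have a1 := descend (X := ℝ) (g := fun p => ex (S.B.b p.1))
      (ex_smooth.comp (S.B.b_smooth.comp contDiff_fst))
      (fun θ _ => by simp only [S.B.b_add, ex_add_one]) (p := ((m.2.2 : ℂ), 0)) (S1_ne _)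
    have a2 : ContDiffAt ℝ 1 (fun q : E3 × E3 × ℂ => (q.2.2, (0 : ℝ)))
      ((m.1 : E3), (m.2.1 : E3), (m.2.2 : ℂ)) := contDiffAt_snd.snd.prodMk contDiffAt_const
    have a3 := ContDiffAt.comp (f := fun q : E3 × E3 × ℂ => (q.2.2, (0 : ℝ)))
      ((m.1 : E3), (m.2.1 : E3), (m.2.2 : ℂ)) a1 a2
    exact smooth_of_ambient a3
  exact (h1.codRestrict_sphere fun m => (S.f m).1.2).prodMk
    ((h2.codRestrict_sphere fun m => (S.f m).2.1.2).prodMk
      (h3.codRestrict_sphere fun m => (S.f m).2.2.2))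

lemma b_int (x : ℝ) (k : ℤ) : S.B.b (x + k) = S.B.b x + k := by
  have := per_int (g := fun x => S.B.b x - x) (fun x => by rw [S.B.b_add]; ring) x k
  linarith

lemma base_iter (m : MM) (t : ℕ) : ((S.f^[t] m).2.2 : ℂ) = ex (S.B.b^[t] (th m.2.2)) := by
  induction t with
  | zero => exact (ex_th _).symm
  | succ t ih =>
    rw [iterate_succ_apply', iterate_succ_apply']
    show ex (S.B.b (th ((S.f^[t] m).2.2 : ℂ))) = _
    obtain ⟨k, hk⟩ := th_ex (S.B.b^[t] (th m.2.2))
    rw [ih, hk, b_int, per_int ex_add_one]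

lemma FF_iter (m : MM) (t : ℕ) :
    S.FF (S.f^[t] m) = S.F (S.B.b^[t] (th m.2.2), xx (S.f^[t] m)) := by
  obtain ⟨k, hk⟩ := th_ex (S.B.b^[t] (th m.2.2))
  rw [FF, base_iter, hk]
  exact per_int (g := fun s => S.F (s, xx (S.f^[t] m))) (fun s => S.F_per s _) _ _

def Dead (m : MM) : Prop := m.1 = south ∧ m.2.1 = north

lemma Dead.step {m : MM} (h : Dead m) : Dead (S.f m) :=
  S.f_neg (by rw [h.1]; show (-1 : ℝ) < 0; norm_num)

lemma Dead.iter {m : MM} {s t : ℕ} (h : Dead (S.f^[s] m)) (hst : s ≤ t) : Dead (S.f^[t] m) := by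
  induction t, hst using Nat.le_induction with
  | base => exact h
  | succ t _ ih => rw [iterate_succ_apply']; exact Dead.step S ih

lemma alive {m : MM} (h : ¬ Dead (S.f (S.f m))) :
    0 ≤ (m.1 : E3).snd ∧ ‖zeta (m.1 : E3)‖ ≤ 1 / 2 := by
  have h1 : 0 ≤ ((S.f m).1 : E3).snd := not_lt.1 fun h' => h (S.f_neg h')
  have h2 : 0 ≤ (m.1 : E3).snd := not_lt.1 fun h' => h (Dead.step S (S.f_neg h'))
  refine ⟨h2, not_lt.1 fun h3 => absurd h1 (not_le.2 ?_)⟩
  rw [S.f_fst (by linarith), S.FF_far (by linarith)]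
  refine sig_neg ?_
  rw [norm_smul, norm_cc]; simp only [Real.norm_ofNat]; linarith

lemma xx_step {m : MM} (h1 : 0 ≤ (m.1 : E3).snd) (h2 : ‖zeta (m.1 : E3)‖ ≤ 1 / 2) :
    xx (S.f m) = S.FF m := by
  unfold xx
  have h3 : ‖(S.FF m).1‖ ≤ 1 := S.F_fst _ h2
  rw [S.f_fst (by linarith), S.f_snd (by linarith), (sig_small h3).2]
  rfl

lemma snd_nonneg (m : MM) : 0 ≤ ((S.f m).2.1 : E3).snd := by
  rcases lt_or_ge (m.1 : E3).snd 0 with h | h
  · rw [(S.f_neg h).2]; show (0 : ℝ) ≤ 1; norm_num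
  · rw [S.f_snd (by linarith)]; exact Real.sqrt_nonneg _

lemma dist_north_sq (p : S2) : dist p north ^ 2 = 2 - 2 * (p : E3).snd := by
  have := S2_eq p
  rw [Subtype.dist_eq, dist_eq_norm, norm_sq_E3]
  simp only [north, WithLp.sub_fst, WithLp.sub_snd, mkE_fst, mkE_snd, sub_zero]
  linarith

lemma near_north {m : MM} {ε : ℝ} (h1 : 0 ≤ (m.1 : E3).snd) (h2 : 0 ≤ (m.2.1 : E3).snd)
    (h : ‖xx m‖ ≤ ε) : dist (m.1, m.2.1) (north, north) ≤ 2 * ε := by
  have a1 : ‖zeta (m.1 : E3)‖ ≤ ε := (norm_fst_le (xx m)).trans h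
  have a2 : ‖(m.2.1 : E3).fst‖ ≤ ε := (norm_snd_le (xx m)).trans h
  have hε : 0 ≤ ε := (norm_nonneg _).trans h
  have b1 : ‖zeta (m.1 : E3)‖ ^ 2 ≤ ε ^ 2 := by gcongr
  have b2 : ‖(m.2.1 : E3).fst‖ ^ 2 ≤ ε ^ 2 := by gcongr
  rw [Prod.dist_eq]
  refine max_le (abs_le_of_sq_le_sq' ?_ (by positivity)).2 (abs_le_of_sq_le_sq' ?_ (by positivity)).2
  · rw [dist_north_sq]
    have c1 := zeta_sq m.1 (by linarith)
    have c2 := S2_eq m.1
    have c3 : (m.1 : E3).snd ≤ 1 := by nlinarith [sq_nonneg ‖(m.1 : E3).fst‖]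
    nlinarith [sq_nonneg ‖zeta (m.1 : E3)‖]
  · rw [dist_north_sq]
    have c2 := S2_eq m.2.1
    have c3 : (m.2.1 : E3).snd ≤ 1 := by nlinarith [sq_nonneg ‖(m.2.1 : E3).fst‖]
    nlinarith

lemma ex_lip : ∃ K, 0 ≤ K ∧ Lip K ex := by
  refine ⟨2 * π, by positivity, fun x y => ?_⟩
  have e : ex x - ex y = ex y * (Complex.exp (Complex.I * (2 * π * (x - y) : ℝ)) - 1) := by
    unfold ex
    rw [mul_sub, mul_one, ← Complex.exp_add]; congr 2; push_cast; ring
  rw [e, norm_mul, norm_eq_of_mem_sphere ⟨_, ex_mem y⟩, one_mul]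
  refine Real.norm_exp_I_mul_ofReal_sub_one_le.trans ?_
  rw [norm_mul, Real.norm_of_nonneg (by positivity)]

theorem entropy : Dynamics.coverEntropy S.f Set.univ = 0 := by
  classical
  haveI : Nonempty MM := ⟨(north, north, ⟨ex 0, ex_mem 0⟩)⟩
  refine entropy_zero_skew S.f (fun m => (m.1, m.2.1)) (fun m => th m.2.2) S.B.b S.B.b_mono
    S.B.b_add (fun m => ?_) (north, north) (south, north) (fun ε hε => ?_) (fun δ hδ => ?_)
  · have h1 := Complex.neg_pi_lt_arg m.2.2
    have h2 := Complex.arg_le_pi m.2.2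
    have h3 := Real.pi_pos
    unfold th
    rw [le_div_iff₀ (by positivity), div_le_iff₀ (by positivity)]
    constructor <;> linarith
  · obtain ⟨K, hK0, hK⟩ := ex_lip
    refine ⟨min ε (ε / (K + 1)), lt_min hε (by positivity), fun m m' t h1 h2 => ?_⟩
    rw [Prod.dist_eq, max_lt_iff] at h1
    rw [Prod.dist_eq, Prod.dist_eq, max_lt_iff, max_lt_iff]
    refine ⟨h1.1.trans_le (min_le_left _ _), h1.2.trans_le (min_le_left _ _), ?_⟩
    rw [Subtype.dist_eq, base_iter, base_iter, dist_eq_norm]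
    have a1 := hK (S.B.b^[t] (th m.2.2)) (S.B.b^[t] (th m'.2.2))
    have a2 := h2.trans_le (min_le_right _ _)
    rw [lt_div_iff₀ (by positivity)] at a2
    rw [Real.norm_eq_abs] at a1
    nlinarith [abs_nonneg (S.B.b^[t] (th m.2.2) - S.B.b^[t] (th m'.2.2))]
  · obtain ⟨K, hK⟩ := S.tame (show 0 < δ / 4 by positivity)
    refine ⟨(K + 1) + (2 * K + 1) + (K + 3), fun m n => ?_⟩
    obtain ⟨t0, ht0⟩ := hK (th m.2.2)
    have hex : ∃ t, n ≤ t ∨ Dead (S.f^[t] m) := ⟨n, Or.inl le_rfl⟩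
    set td := Nat.find hex with htd
    refine ⟨td, Nat.find_min' hex (Or.inl le_rfl),
      Finset.range (K + 1) ∪ Finset.Icc (t0 - K) (t0 + K) ∪ Finset.Icc (td - (K + 2)) td, ?_,
      fun t ht hX => ?_⟩
    · refine (Finset.card_union_le _ _).trans (add_le_add
        ((Finset.card_union_le _ _).trans (add_le_add ?_ ?_)) ?_)
      · simp
      · rw [Nat.card_Icc]; omega
      · rw [Nat.card_Icc]; omega
    · simp only [Finset.mem_union, Finset.mem_range, Finset.mem_Icc, not_or, not_and_or,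
        not_le, not_lt] at hX
      split_ifs with h
      · have hal : ∀ s, s ≤ t + K → 0 ≤ ((S.f^[s] m).1 : E3).snd ∧
            ‖zeta ((S.f^[s] m).1 : E3)‖ ≤ 1 / 2 := fun s hs => by
          refine S.alive fun hd => Nat.find_min hex (show s + 2 < td by omega) (Or.inr ?_)
          rwa [iterate_succ_apply', iterate_succ_apply']
        have h1 := ht0 (fun u => xx (S.f^[t - K + u] m)) (t - K) (by omega)
          (fun u hu => by
            have := hal (t - K + u) (by omega)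
            simp only [← add_assoc, iterate_succ_apply']
            rw [S.xx_step this.1 this.2, FF_iter])
          (fun u hu => (hal (t - K + u) (by omega)).2)
        simp only [show t - K + K = t by omega] at h1
        have h2 : 0 ≤ ((S.f^[t] m).2.1 : E3).snd := by
          rw [show t = t - 1 + 1 by omega, iterate_succ_apply']; exact S.snd_nonneg _
        have := near_north (hal t (by omega)).1 h2 h1
        linarith
      · have h1 : Dead (S.f^[t] m) := by
          rcases Nat.find_spec hex with h' | h'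
          · omega
          · exact Dead.iter S h' (by omega)
        rw [h1.1, h1.2, dist_self]; exact hδ

end Sys

end Crest.Agent.Ent
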