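import Crest.Agent.Ent.Cap
import Crest.Agent.Ent.Map

set_option autoImplicit false

open CategoryTheory Simplicial Opposite AlgebraicTopology

namespace Crest.Agent.Ent

noncomputable abbrev RM : ModuleCat.{0} ℝ := ModuleCat.of ℝ ℝ

noncomputable abbrev SX (X : Type) [TopologicalSpace X] : SSet.{0} :=
  TopCat.toSSet.obj (TopCat.of X)

noncomputable def sx {X : Type} [TopologicalSpace X] {n : ℕ} (σ : C(Dl n, X)) : (SX X) _⦋n⦌ :=
  ((TopCat.of X).toSSetObjEquiv (op ⦋n⦌)).symm σ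

lemma sx_δ {X : Type} [TopologicalSpace X] {n : ℕ} (σ : C(Dl (n + 1), X)) (i : Fin (n + 2)) :
    (SX X).δ i (sx σ) = sx (σ.comp (smap i.succAbove)) := rfl

lemma sx_map {X Y : Type} [TopologicalSpace X] [TopologicalSpace Y] {n : ℕ} (σ : C(Dl n, X))
    (g : C(X, Y)) : (TopCat.toSSet.map (TopCat.ofHom g)).app _ (sx σ) = sx (g.comp σ) := rfl

noncomputable def io {X : Type} [TopologicalSpace X] {n : ℕ} (σ : C(Dl n, X)) :
    RM ⟶ ((SX X).chainComplex RM).X n := (SX X).ιChainComplex (sx σ)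

lemma io_d2 {X : Type} [TopologicalSpace X] (σ : C(Dl 2, X)) :
    io σ ≫ ((SX X).chainComplex RM).d 2 1
      = io (σ.comp (smap ![1, 2])) - io (σ.comp (smap ![0, 2])) + io (σ.comp (smap ![0, 1])) := by
  have e0 : (Fin.succAbove 0 : Fin 2 → Fin 3) = ![1, 2] := by decide
  have e1 : (Fin.succAbove 1 : Fin 2 → Fin 3) = ![0, 2] := by decide
  have e2 : (Fin.succAbove 2 : Fin 2 → Fin 3) = ![0, 1] := by decide
  have := SSet.ιChainComplex_d (SX X) RM (n := 1) (sx σ)
  rw [Fin.sum_univ_three, sx_δ, sx_δ, sx_δ, e0, e1, e2] at this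
  refine this.trans ?_
  simp [io, sub_eq_add_neg]

lemma io_d3 {X : Type} [TopologicalSpace X] (σ : C(Dl 3, X)) :
    io σ ≫ ((SX X).chainComplex RM).d 3 2
      = io (σ.comp (smap ![1, 2, 3])) - io (σ.comp (smap ![0, 2, 3]))
        + io (σ.comp (smap ![0, 1, 3])) - io (σ.comp (smap ![0, 1, 2])) := by
  have e0 : (Fin.succAbove 0 : Fin 3 → Fin 4) = ![1, 2, 3] := by decide
  have e1 : (Fin.succAbove 1 : Fin 3 → Fin 4) = ![0, 2, 3] := by decide
  have e2 : (Fin.succAbove 2 : Fin 3 → Fin 4) = ![0, 1, 3] := by decide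
  have e3 : (Fin.succAbove 3 : Fin 3 → Fin 4) = ![0, 1, 2] := by decide
  have := SSet.ιChainComplex_d (SX X) RM (n := 2) (sx σ)
  rw [Fin.sum_univ_four, sx_δ, sx_δ, sx_δ, sx_δ, e0, e1, e2, e3] at this
  refine this.trans ?_
  have h3 : ((-1 : ℤ) ^ ((3 : Fin 4) : ℕ)) = -1 := by decide
  rw [h3]
  simp [io, sub_eq_add_neg]

noncomputable abbrev cm {X Y : Type} [TopologicalSpace X] [TopologicalSpace Y] (g : C(X, Y)) :
    (SX X).chainComplex RM ⟶ (SX Y).chainComplex RM :=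
  SSet.chainComplexMap (TopCat.toSSet.map (TopCat.ofHom g)) RM

lemma io_map {X Y : Type} [TopologicalSpace X] [TopologicalSpace Y] {n : ℕ} (σ : C(Dl n, X))
    (g : C(X, Y)) : io σ ≫ (cm g).f n = io (g.comp σ) :=
  SSet.ι_chainComplexMap_f _ _ _ _ _

noncomputable def cyc : RM ⟶ ((SX S2).chainComplex RM).X 2 := io (cap true 0 1) - io (cap false 0 1)

lemma cyc_d : cyc ≫ ((SX S2).chainComplex RM).d 2 1 = 0 := by
  rw [cyc, Preadditive.sub_comp, io_d2, io_d2, cap_f0, cap_f0, cap_f12, cap_f12]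
  abel

lemma cyc_P2 : cyc ≫ (cm P2).f 2 - (cyc + cyc)
    = (io (cap3 true) - io (cap3 false)) ≫ ((SX S2).chainComplex RM).d 3 2 := by
  rw [cyc, Preadditive.sub_comp, Preadditive.sub_comp, io_d3, io_d3, io_map, io_map, cap3_f0,
    cap3_f1, cap3_f1, cap3_f2, cap3_f2, cap3_f3, cap3_f3]
  abel

noncomputable def phiM : ((SX S2).chainComplex RM).X 2 ⟶ RM :=
  Limits.Cofan.IsColimit.desc ((SX S2).isColimitChainComplexXCofan RM 2)
    fun x => phi ((TopCat.of S2).toSSetObjEquiv (op ⦋2⦌) x) • 𝟙 RM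

lemma io_phiM (σ : C(Dl 2, S2)) : io σ ≫ phiM = phi σ • 𝟙 RM := by
  have := Limits.Cofan.IsColimit.fac ((SX S2).isColimitChainComplexXCofan RM 2)
    (fun x => phi ((TopCat.of S2).toSSetObjEquiv (op ⦋2⦌) x) • 𝟙 RM) (sx σ)
  refine this.trans ?_
  rw [sx, Equiv.apply_symm_apply]

lemma d_phiM : ((SX S2).chainComplex RM).d 3 2 ≫ phiM = 0 := by
  refine SSet.chainComplex_hom_ext fun x => ?_
  obtain ⟨τ, rfl⟩ := ((TopCat.of S2).toSSetObjEquiv (op ⦋3⦌)).symm.surjective x
  have := io_d3 (X := S2) τ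
  change io τ ≫ _ = _
  rw [← Category.assoc, this]
  simp only [Preadditive.sub_comp, Preadditive.add_comp, io_phiM, Limits.comp_zero]
  rw [← sub_smul, ← add_smul, ← sub_smul, phi_cocycle, zero_smul]

noncomputable def cls : RM ⟶ ((SX S2).chainComplex RM).homology 2 :=
  ((SX S2).chainComplex RM).liftCycles cyc 1 (by simp) cyc_d ≫
    ((SX S2).chainComplex RM).homologyπ 2

lemma cls_ne : cls ≠ 0 := by
  intro h
  have h1 : cls ≫ ((SX S2).chainComplex RM).homologyι 2 ≫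
      ((SX S2).chainComplex RM).descOpcycles phiM 3 (by simp) d_phiM = cyc ≫ phiM := by
    rw [cls, Category.assoc, HomologicalComplex.homology_π_ι_assoc,
      HomologicalComplex.p_descOpcycles, HomologicalComplex.liftCycles_i_assoc]
  rw [h, Limits.zero_comp, cyc, Preadditive.sub_comp, io_phiM, io_phiM, ← sub_smul] at h1
  have h2 := congrArg (fun g : RM ⟶ RM => g.hom (1 : ℝ)) h1
  apply phi_cap
  simpa using h2.symm

lemma cls_P2 : cls ≫ HomologicalComplex.homologyMap (cm P2) 2 = cls + cls := by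
  rw [← sub_eq_zero]
  have h := ((SX S2).chainComplex RM).liftCycles_homologyπ_eq_zero_of_boundary _ 1 (by simp) _ cyc_P2
  rw [← h, cls, Category.assoc, HomologicalComplex.homologyπ_naturality, ← Category.assoc,
    HomologicalComplex.liftCycles_comp_cyclesMap, ← Preadditive.add_comp, ← Preadditive.sub_comp]
  congr 1
  rw [← cancel_mono (((SX S2).chainComplex RM).iCycles 2)]
  simp only [Preadditive.sub_comp, Preadditive.add_comp, HomologicalComplex.liftCycles_i]

theorem eig {Y : Type} [TopologicalSpace Y] (i : C(S2, Y)) (p : C(Y, S2))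
    (hp : p.comp i = .id S2) (f : C(Y, Y)) (H : (f.comp i).Homotopic (i.comp P2)) :
    Module.End.HasEigenvalue (((singularHomologyFunctor (ModuleCat.{0} ℝ) 2).obj
      (ModuleCat.of ℝ ℝ)).map (TopCat.ofHom f)).hom (2 : ℝ) := by
  set F := (singularHomologyFunctor (ModuleCat.{0} ℝ) 2).obj (ModuleCat.of ℝ ℝ) with hF
  let x : RM ⟶ F.obj (TopCat.of S2) := cls
  have hx : x ≫ F.map (TopCat.ofHom P2) = x + x := cls_P2
  have h1 : F.map (TopCat.ofHom i ≫ TopCat.ofHom f) = F.map (TopCat.ofHom P2 ≫ TopCat.ofHom i) :=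
    TopCat.Homotopy.congr_homologyMap_singularChainComplexFunctor
      (f := TopCat.ofHom i ≫ TopCat.ofHom f) (g := TopCat.ofHom P2 ≫ TopCat.ofHom i) H.some _ 2
  have h2 : (x ≫ F.map (TopCat.ofHom i)) ≫ F.map (TopCat.ofHom f)
      = x ≫ F.map (TopCat.ofHom i) + x ≫ F.map (TopCat.ofHom i) := by
    rw [Category.assoc, ← F.map_comp, h1, F.map_comp, ← Category.assoc, hx, Preadditive.add_comp]
  have h3 : x ≫ F.map (TopCat.ofHom i) ≠ 0 := fun h => cls_ne (by
    have : (x ≫ F.map (TopCat.ofHom i)) ≫ F.map (TopCat.ofHom p) = x := by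
      rw [Category.assoc, ← F.map_comp, ← TopCat.ofHom_comp, hp, TopCat.ofHom_id, F.map_id,
        Category.comp_id]
    rw [h, Limits.zero_comp] at this
    exact this.symm)
  set v := x ≫ F.map (TopCat.ofHom i)
  refine Module.End.hasEigenvalue_of_hasEigenvector (x := v.hom (1 : ℝ)) ⟨?_, fun h => h3 ?_⟩
  · rw [Module.End.mem_eigenspace_iff, two_smul]
    exact congrArg (fun g : RM ⟶ _ => g.hom (1 : ℝ)) h2
  · apply ModuleCat.hom_ext
    apply LinearMap.ext_ring
    exact h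

lemma homotopic_of_not_antipodal {X E : Type} [TopologicalSpace X] [NormedAddCommGroup E]
    [NormedSpace ℝ E] (g0 g1 : C(X, Metric.sphere (0 : E) 1))
    (h : ∀ x, (g0 x : E) + g1 x ≠ 0) : g0.Homotopic g1 := by
  let w : unitInterval × X → E := fun p => (1 - (p.1 : ℝ)) • (g0 p.2 : E) + (p.1 : ℝ) • (g1 p.2 : E)
  have hw : Continuous w := by fun_prop
  have hne : ∀ p, w p ≠ 0 := by
    rintro ⟨t, x⟩ h0
    have h1 : (1 - (t : ℝ)) • (g0 x : E) = -((t : ℝ) • (g1 x : E)) := eq_neg_of_add_eq_zero_left h0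
    have h2 := congrArg norm h1
    rw [norm_neg, norm_smul, norm_smul, norm_eq_of_mem_sphere, norm_eq_of_mem_sphere,
      Real.norm_of_nonneg (sub_nonneg.2 t.2.2), Real.norm_of_nonneg t.2.1] at h2
    have h3 : (t : ℝ) = 1 / 2 := by linarith
    apply h x
    have h4 : (1 / 2 : ℝ) • ((g0 x : E) + g1 x) = 0 := by
      refine Eq.trans ?_ h0
      simp only [w, h3, smul_add]; norm_num
    exact (smul_eq_zero.1 h4).resolve_left (by norm_num)
  refine ⟨⟨⟨fun p => ⟨‖w p‖⁻¹ • w p, ?_⟩, ?_⟩, fun x => ?_, fun x => ?_⟩⟩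
  · rw [mem_sphere_zero_iff_norm, norm_smul, norm_inv, norm_norm,
      inv_mul_cancel₀ (norm_ne_zero_iff.2 (hne p))]
  · exact Continuous.subtype_mk ((hw.norm.inv₀ fun p => norm_ne_zero_iff.2 (hne p)).smul hw) _
  · apply Subtype.ext; simp [w]
  · apply Subtype.ext; simp [w]

namespace Sys
variable (S : Sys)

noncomputable def fC : C(MM, MM) := ⟨S.f, S.f_smooth.continuous⟩

noncomputable def u0 : S1 := ⟨ex 0, ex_mem 0⟩

noncomputable def inc : C(S2, MM) := (ContinuousMap.id S2).prodMk (.const S2 (north, u0))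

lemma not_antipodal (m : MM) : ((S.f m).1 : E3) + (P2 m.1 : E3) ≠ 0 := by
  intro h0
  have h1 : ((S.f m).1 : E3).fst + cc (m.1 : E3).fst = 0 := congrArg WithLp.fst h0
  have h2 : ((S.f m).1 : E3).snd + (m.1 : E3).snd = 0 := congrArg WithLp.snd h0
  rcases lt_or_ge (m.1 : E3).snd 0 with h | h
  · rw [(S.f_neg h).1] at h2
    have : (-1 : ℝ) + (m.1 : E3).snd = 0 := h2
    linarith
  rw [S.f_fst (by linarith)] at h1 h2
  rcases le_or_gt ‖zeta (m.1 : E3)‖ (1 / 2) with h3 | h3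
  · have a1 : ‖(S.FF m).1‖ ≤ 1 := S.F_fst _ h3
    have a2 := (sig_small a1).1
    have a3 := zeta_sq m.1 (by linarith)
    have a4 : (m.1 : E3).snd = 0 := by linarith
    rw [a4] at a3
    nlinarith [norm_nonneg (zeta (m.1 : E3))]
  · rw [S.FF_far (by linarith)] at h1
    obtain ⟨t, ht, e⟩ := sig_fst ((2 : ℝ) • cc (zeta (m.1 : E3)))
    have hp : 0 ≤ (1 + (m.1 : E3).snd)⁻¹ := by positivity
    rw [e, zeta, cc_smul hp, smul_smul, smul_smul] at h1
    have h4 : (t * 2 * (1 + (m.1 : E3).snd)⁻¹ + 1) • cc (m.1 : E3).fst = 0 := by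
      rw [add_smul, one_smul]; exact h1
    rw [smul_eq_zero] at h4
    rcases h4 with h4 | h4
    · have : 0 ≤ t * 2 * (1 + (m.1 : E3).snd)⁻¹ := by positivity
      linarith
    · rw [← norm_eq_zero, norm_cc, norm_eq_zero] at h4
      rw [zeta, h4] at h3
      norm_num at h3

lemma homotopic : (S.fC.comp inc).Homotopic (inc.comp P2) := by
  have h1 : (ContinuousMap.fst.comp (S.fC.comp inc)).Homotopic P2 :=
    homotopic_of_not_antipodal _ _ fun p => S.not_antipodal (inc p)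
  have h2 : (ContinuousMap.fst.comp (ContinuousMap.snd.comp (S.fC.comp inc))).Homotopic
      (.const S2 north) := homotopic_of_not_antipodal _ _ fun p h0 => by
    have a1 : ((S.f (inc p)).2.1 : E3).snd + 1 = 0 := congrArg WithLp.snd h0
    linarith [S.snd_nonneg (inc p)]
  have h3 : (ContinuousMap.snd.comp (ContinuousMap.snd.comp (S.fC.comp inc))).Homotopic
      (.const S2 u0) := by
    refine ⟨⟨⟨fun p => ⟨ex ((1 - (p.1 : ℝ)) * S.B.b (th u0)), ex_mem _⟩,
      Continuous.subtype_mk (ex_smooth.continuous.comp (by fun_prop)) _⟩, fun x => ?_, fun x => ?_⟩⟩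
    · apply Subtype.ext; simp; rfl
    · apply Subtype.ext; simp; rfl
  exact h1.prodMk (h2.prodMk h3)

theorem eigen : Module.End.HasEigenvalue (((singularHomologyFunctor (ModuleCat.{0} ℝ) 2).obj
    (ModuleCat.of ℝ ℝ)).map (TopCat.ofHom S.fC)).hom (2 : ℝ) :=
  eig inc ContinuousMap.fst rfl S.fC S.homotopic

end Sys

end Crest.Agent.Ent
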