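import Crest.Agent.Ent.Core
import Crest.Agent.Ent.Base2

set_option autoImplicit false

open Function

namespace Crest.Agent.Ent

lemma count_sep (e : ℕ → ℕ) (τ i : ℕ) (h0 : i ≤ e 0)
    (hsep : ∀ t t', t < t' → t' < τ → i ≤ e t → i ≤ e t' → t + 2 ^ i ≤ t') :
    (((Finset.Ico 1 τ).filter fun t => i ≤ e t).card : ℝ) ≤ (τ - 1 : ℕ) / 2 ^ i := by
  have hp : 0 < 2 ^ i := by positivity
  have h1 : ((Finset.Ico 1 τ).filter fun t => i ≤ e t).card ≤ (Finset.Icc 1 ((τ - 1) / 2 ^ i)).card := by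
    refine Finset.card_le_card_of_injOn (fun t => t / 2 ^ i) ?_ ?_
    · intro t ht
      simp only [Finset.coe_filter, Finset.mem_Ico, Set.mem_setOf_eq] at ht
      have := hsep 0 t (by omega) ht.1.2 h0 ht.2
      simp only [Finset.coe_Icc, Set.mem_Icc]
      exact ⟨(Nat.le_div_iff_mul_le hp).2 (by omega), Nat.div_le_div_right (by omega)⟩
    · have key : ∀ t t', t < t' → t' < τ → i ≤ e t → i ≤ e t' → t / 2 ^ i < t' / 2 ^ i := by
        intro t t' a1 a2 a3 a4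
        have := Nat.div_le_div_right (c := 2 ^ i) (hsep t t' a1 a2 a3 a4)
        rw [Nat.add_div_right _ hp] at this
        omega
      intro t ht t' ht' h
      simp only [Finset.coe_filter, Finset.mem_Ico, Set.mem_setOf_eq] at ht ht'
      simp only at h
      rcases lt_trichotomy t t' with a | a | a
      · exact absurd h (key t t' a ht'.1.2 ht.2 ht'.2).ne
      · exact a
      · exact absurd h (key t' t a ht.1.2 ht'.2 ht.2).ne'
  rw [Nat.card_Icc, Nat.add_sub_cancel] at h1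
  calc _ ≤ (((τ - 1) / 2 ^ i : ℕ) : ℝ) := by exact_mod_cast h1
    _ ≤ _ := by simpa using Nat.cast_div_le (α := ℝ) (m := τ - 1) (n := 2 ^ i)

lemma sum_inv_two_pow (m : ℕ) : ∑ i ∈ Finset.Icc 1 m, (1 : ℝ) / 2 ^ i ≤ 1 - 1 / 2 ^ m := by
  induction m with
  | zero => simp
  | succ m ih =>
    rw [Finset.sum_Icc_succ_top (by omega), pow_succ]
    have : (1 : ℝ) / (2 ^ m * 2) = 1 / 2 ^ m / 2 := by field_simp
    rw [this]; linarith

lemma adm_bound {m T : ℕ} {e : ℕ → ℕ} (hr : Rec m T e) (h0 : m ≤ e 0)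
    (hsep : ∀ k ≤ m, ∀ t t', t < t' → t' ≤ T → k ≤ e t → k ≤ e t' → t + 2 ^ k ≤ t') :
    2 ^ m ≤ tauW m e ∧ 8 ^ (tauW m e - 1) ≤ ppW m e := by
  have h1 := hr.tau_spec
  have h2 := hr.tau_le
  refine ⟨by simpa using hsep m le_rfl 0 _ h1.1 h2 h0 h1.2, ?_⟩
  set τ := tauW m e with hτ
  have h3 : ∑ t ∈ Finset.Ico 1 τ, e t ≤ τ - 1 := by
    have a1 : ∑ t ∈ Finset.Ico 1 τ, e t
        = ∑ i ∈ Finset.Icc 1 m, ((Finset.Ico 1 τ).filter fun t => i ≤ e t).card := by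
      simp only [Finset.card_filter]
      rw [Finset.sum_comm]
      refine Finset.sum_congr rfl fun t ht => ?_
      rw [Finset.mem_Ico] at ht
      have := tau_min ht.1 ht.2
      rw [← Finset.card_filter]
      have : (Finset.Icc 1 m).filter (fun i => i ≤ e t) = Finset.Icc 1 (e t) := by
        ext i; simp only [Finset.mem_filter, Finset.mem_Icc]; omega
      rw [this]; simp
    have a2 : ((∑ t ∈ Finset.Ico 1 τ, e t : ℕ) : ℝ) ≤ (τ - 1 : ℕ) := by
      rw [a1, Nat.cast_sum]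
      calc _ ≤ ∑ i ∈ Finset.Icc 1 m, ((τ - 1 : ℕ) : ℝ) * (1 / 2 ^ i) := by
            refine Finset.sum_le_sum fun i hi => ?_
            rw [Finset.mem_Icc] at hi
            rw [mul_one_div]
            exact count_sep e τ i (by omega) fun t t' b1 b2 => hsep i hi.2 t t' b1 (by omega)
        _ ≤ ((τ - 1 : ℕ) : ℝ) * 1 := by
            rw [← Finset.mul_sum]
            gcongr
            have : (0 : ℝ) ≤ 1 / 2 ^ m := by positivity
            linarith [sum_inv_two_pow m]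
        _ = _ := mul_one _
    exact_mod_cast a2
  have h4 : ppW m e = 16 ^ (τ - 1) / 2 ^ (∑ t ∈ Finset.Ico 1 τ, e t) := by
    unfold ppW aa
    rw [Finset.prod_div_distrib, Finset.prod_const, Nat.card_Ico, Finset.prod_pow_eq_pow_sum]
  rw [h4, le_div_iff₀ (by positivity)]
  calc _ ≤ (8 : ℝ) ^ (τ - 1) * 2 ^ (τ - 1) := by gcongr; norm_num
    _ = _ := by rw [← mul_pow]; norm_num

lemma adm_num {τ i : ℕ} {p : ℝ} (h1 : i + 1 ≤ τ) (h2 : 8 ^ (τ - 1) ≤ p) :
    3 ^ τ ≤ 8 / 2 ^ (i + 1) * p := by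
  rw [div_mul_eq_mul_div, le_div_iff₀ (by positivity)]
  calc (3 : ℝ) ^ τ * 2 ^ (i + 1) ≤ 4 ^ τ * 2 ^ τ := by gcongr <;> norm_num
    _ = 8 * 8 ^ (τ - 1) := by
      rw [← mul_pow, ← pow_succ', Nat.sub_add_cancel (by omega)]; norm_num
    _ ≤ _ := by gcongr

lemma tau_congr {i m T : ℕ} {e e' : ℕ → ℕ} (hm : m ≤ i) (hr : Rec i T e)
    (h : ∀ t ≤ T, min (e t) i = min (e' t) i) : tauW m e = tauW m e' ∧ ppW m e = ppW m e' := by
  have hr1 : Rec m T e := hr.mono le_rfl hm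
  have hr2 : Rec m T e' := by
    obtain ⟨t, a1, a2, a3⟩ := hr1
    exact ⟨t, a1, a2, by have := h t a2; omega⟩
  have h1 : tauW m e = tauW m e' := by
    apply le_antisymm
    · exact tau_le hr2.tau_spec.1 (by have := h _ hr2.tau_le; have := hr2.tau_spec.2; omega)
    · exact tau_le hr1.tau_spec.1 (by have := h _ hr1.tau_le; have := hr1.tau_spec.2; omega)
  refine ⟨h1, ?_⟩
  unfold ppW
  rw [← h1]
  refine Finset.prod_congr rfl fun t ht => ?_
  rw [Finset.mem_Ico] at ht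
  have a1 := tau_min ht.1 ht.2
  have a2 := h t (by have := hr1.tau_le; omega)
  congr 1; omega

lemma Dw_congr (T : ℕ → ℕ) (r : ℕ → ℝ) {i T' : ℕ} {e e' : ℕ → ℕ} (hr : Rec (i + 1) T' e)
    (h : ∀ t ≤ T', min (e t) (i + 1) = min (e' t) (i + 1)) : Dw T r i e = Dw T r i e' := by
  have h1 := tau_congr le_rfl hr h
  have h2 := tau_congr (Nat.le_succ i) hr h
  have h0 := h 0 (Nat.zero_le _)
  funext x
  unfold Dw Dy Adm
  rw [h1.1, h1.2, h2.1, h2.2]
  by_cases hk : i + 1 ≤ e 0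
  · rw [if_pos hk, if_pos (show i + 1 ≤ e' 0 by omega)]
  · have : e' 0 = e 0 := by omega
    rw [this]

lemma exists_lip_periodic {f : ℝ → ℝ} (hf : ContDiff ℝ 1 f) (hp : ∀ x, f (x + 1) = f x) :
    ∃ K, 0 ≤ K ∧ Lip K f := by
  have h1 : Periodic (deriv f) 1 := fun x => by
    rw [← deriv_comp_add_const]; congr 1; funext y; exact hp y
  obtain ⟨C, hC⟩ := (h1.isBounded_of_continuous one_ne_zero
    (hf.continuous_deriv le_rfl)).exists_norm_le
  refine ⟨C, (norm_nonneg _).trans (hC _ ⟨0, rfl⟩), fun x y => ?_⟩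
  exact convex_univ.norm_image_sub_le_of_norm_deriv_le
    (fun z _ => hf.differentiable one_ne_zero z) (fun z _ => hC _ ⟨z, rfl⟩) trivial trivial

namespace Base
variable (B : Base)

lemma V_antitone (x : ℝ) : Antitone fun k => B.V k x := antitone_nat_of_succ_le fun k => B.V_anti k x

lemma V_le_one (k : ℕ) (x : ℝ) : B.V k x ≤ 1 := by
  simpa [B.V_zero] using B.V_antitone x (Nat.zero_le k)

lemma iter_smooth (m : ℕ) : ContDiff ℝ 1 B.b^[m] := by
  induction m with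
  | zero => exact contDiff_id
  | succ m ih => rw [iterate_succ']; exact B.b_smooth.comp ih

lemma iter_add (m : ℕ) (x : ℝ) : B.b^[m] (x + 1) = B.b^[m] x + 1 := by
  induction m with
  | zero => rfl
  | succ m ih => rw [iterate_succ_apply', ih, B.b_add, iterate_succ_apply']

open Classical in
noncomputable def dp (j : ℕ) (θ : ℝ) : ℕ := Nat.findGreatest (fun k => B.V k θ = 1) j

lemma dp_le (j : ℕ) (θ : ℝ) : B.dp j θ ≤ j := Nat.findGreatest_le _

lemma le_dp {j m : ℕ} (hm : m ≤ j) (θ : ℝ) : m ≤ B.dp j θ ↔ B.V m θ = 1 := by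
  classical
  constructor
  · intro h
    have h1 : B.V (B.dp j θ) θ = 1 :=
      Nat.findGreatest_spec (P := fun k => B.V k θ = 1) (Nat.zero_le j) (B.V_zero θ)
    exact le_antisymm (B.V_le_one _ _) (h1 ▸ B.V_antitone θ h)
  · intro h
    exact Nat.le_findGreatest hm h

lemma min_dp {i J : ℕ} (h : i ≤ J) (θ : ℝ) : min (B.dp J θ) i = min (B.dp i θ) i := by
  have a1 := B.dp_le i θ
  have a2 := B.dp_le J θ
  have a3 := (B.le_dp (a1.trans h) θ).2 ((B.le_dp a1 θ).1 le_rfl)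
  have a4 := (B.le_dp (min_le_right (B.dp J θ) i) θ).2
    ((B.le_dp ((min_le_right _ _).trans h) θ).1 (min_le_left _ _))
  omega

noncomputable def wd (j : ℕ) (θ : ℝ) : ℕ → ℕ := fun t => B.dp j (B.b^[t] θ)

lemma wd_succ (j : ℕ) (θ : ℝ) : B.wd j (B.b θ) = sh (B.wd j θ) := rfl

lemma goodW {J : ℕ} {θ : ℝ} (h : Good B.b B.V B.T J θ) : GoodW B.T J (B.wd J θ) := by
  have h1 : ∀ m ≤ J, Rec m (B.T m) (B.wd J θ) := fun m hm => by
    obtain ⟨t, a1, a2, a3⟩ := h.recur m hm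
    exact ⟨t, a1, a2, (B.le_dp hm _).2 a3⟩
  refine ⟨h1, fun i hi hk => ?_⟩
  have key : ∀ m ≤ i + 1, 2 ^ m ≤ tauW m (B.wd J θ) ∧
      8 ^ (tauW m (B.wd J θ) - 1) ≤ ppW m (B.wd J θ) := fun m hm =>
    adm_bound ((h1 m (by omega)).mono (B.T_mono (show m ≤ J by omega)) le_rfl) (by omega)
      fun k hk t t' a1 a2 a3 a4 => h.sep k (by omega) t t' a1 a2
        ((B.le_dp (by omega) _).1 a3) ((B.le_dp (by omega) _).1 a4)
  have b1 := key (i + 1) le_rfl
  have b0 := key i (by omega)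
  have c1 : i + 1 < 2 ^ (i + 1) := Nat.lt_two_pow_self
  have c0 : i < 2 ^ i := Nat.lt_two_pow_self
  exact ⟨adm_num (by omega) b1.2, adm_num (by omega) b0.2⟩

/-- weight of depth `k` at level `j` -/
noncomputable def wt (j k : ℕ) (θ : ℝ) : ℝ := if k < j then B.V k θ - B.V (k + 1) θ else B.V j θ

lemma wt_nonneg (j k : ℕ) (θ : ℝ) : 0 ≤ B.wt j k θ := by
  unfold wt; split_ifs
  · exact sub_nonneg.2 (B.V_anti _ _)
  · exact B.V_nonneg _ _

lemma wt_sum (j : ℕ) (θ : ℝ) : ∑ k : Fin (j + 1), B.wt j k θ = 1 := by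
  rw [Fin.sum_univ_eq_sum_range (fun k => B.wt j k θ), Finset.sum_range_succ]
  have : ∑ k ∈ Finset.range j, B.wt j k θ = B.V 0 θ - B.V j θ := by
    rw [← Finset.sum_range_sub' (fun k => B.V k θ)]
    exact Finset.sum_congr rfl fun k hk => by rw [wt, if_pos (Finset.mem_range.1 hk)]
  rw [this, wt, if_neg (lt_irrefl _), B.V_zero]; ring

lemma wt_smooth (j k : ℕ) : ContDiff ℝ 1 (B.wt j k) := by
  unfold wt; split_ifs
  · exact (B.V_smooth _).sub (B.V_smooth _)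
  · exact B.V_smooth _

lemma wt_per (j k : ℕ) (θ : ℝ) : B.wt j k (θ + 1) = B.wt j k θ := by simp only [wt, B.V_per]

lemma wt_cons {J j k : ℕ} {θ : ℝ} (hJ : J ≤ j) (hk : k ≤ j)
    (hex : ∀ k ≤ J, B.V k θ = 0 ∨ B.V k θ = 1) (hw : B.wt j k θ ≠ 0) :
    min k J = B.dp J θ := by
  have a1 := B.dp_le J θ
  by_contra hc
  apply hw
  rcases lt_or_gt_of_ne hc with h | h
  · have b1 : B.V (k + 1) θ = 1 := (B.le_dp (by omega) θ).1 (show k + 1 ≤ B.dp J θ by omega)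
    have b2 : B.V k θ = 1 := (B.le_dp (by omega) θ).1 (show k ≤ B.dp J θ by omega)
    rw [wt, if_pos (by omega), b1, b2, sub_self]
  · have b1 : B.V (B.dp J θ + 1) θ = 0 :=
      (hex _ (by omega)).resolve_right fun h' => by
        have := (B.le_dp (show B.dp J θ + 1 ≤ J by omega) θ).2 h'; omega
    have b2 : ∀ m, B.dp J θ + 1 ≤ m → B.V m θ = 0 := fun m hm =>
      le_antisymm (b1 ▸ B.V_antitone θ hm) (B.V_nonneg _ _)
    unfold wt
    split_ifs
    · rw [b2 k (by omega), b2 (k + 1) (by omega), sub_self]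
    · exact b2 j (by omega)

abbrev Wd (j : ℕ) : Type := Fin (B.T (j + 1) + 1) → Fin (j + 2)

def ext {j : ℕ} (d : B.Wd j) : ℕ → ℕ :=
  fun t => if h : t < B.T (j + 1) + 1 then d ⟨t, h⟩ else j + 1

noncomputable def om (j : ℕ) (d : B.Wd j) (θ : ℝ) : ℝ := ∏ t, B.wt (j + 1) (d t) (B.b^[t] θ)

lemma om_nonneg (j : ℕ) (d : B.Wd j) (θ : ℝ) : 0 ≤ B.om j d θ :=
  Finset.prod_nonneg fun _ _ => B.wt_nonneg _ _ _

lemma om_sum (j : ℕ) (θ : ℝ) : ∑ d, B.om j d θ = 1 := by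
  unfold om
  rw [← Fintype.piFinset_univ, ← Finset.prod_univ_sum (fun _ => Finset.univ)
    (fun (t : Fin (B.T (j + 1) + 1)) (k : Fin (j + 2)) => B.wt (j + 1) k (B.b^[t] θ))]
  exact Finset.prod_eq_one fun t _ => B.wt_sum _ _

lemma om_smooth (j : ℕ) (d : B.Wd j) : ContDiff ℝ 1 (B.om j d) :=
  contDiff_prod fun t _ => (B.wt_smooth _ _).comp (B.iter_smooth t)

lemma om_per (j : ℕ) (d : B.Wd j) (θ : ℝ) : B.om j d (θ + 1) = B.om j d θ := by
  simp only [om, iter_add, wt_per]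

lemma om_lip (j : ℕ) : ∃ Λ : ℝ, 0 ≤ Λ ∧
    ∀ θ θ', ∑ d, |B.om j d θ - B.om j d θ'| ≤ Λ * |θ - θ'| := by
  choose K hK0 hK using fun d => exists_lip_periodic (B.om_smooth j d) (B.om_per j d)
  refine ⟨∑ d, K d, Finset.sum_nonneg fun d _ => hK0 d, fun θ θ' => ?_⟩
  rw [Finset.sum_mul]
  exact Finset.sum_le_sum fun d _ => hK d θ θ'

lemma om_cons {J j : ℕ} {θ : ℝ} (hg : Good B.b B.V B.T J θ) {d : B.Wd j} (hd : B.om j d θ ≠ 0)
    {t : ℕ} (h1 : t ≤ B.T J) (h2 : t ≤ B.T (j + 1)) :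
    min (B.ext d t) (min J (j + 1)) = min (B.wd J θ t) (min J (j + 1)) := by
  have a1 := Finset.prod_ne_zero_iff.1 hd ⟨t, by omega⟩ (Finset.mem_univ _)
  have a2 := B.wt_cons (min_le_right J (j + 1)) (Nat.lt_succ_iff.1 (d ⟨t, by omega⟩).2)
    (fun k hk => hg.exact k (hk.trans (min_le_left _ _)) t h1) a1
  rw [ext, dif_pos (by omega), a2, wd, B.min_dp (min_le_left _ _)]
  have := B.dp_le (min J (j + 1)) (B.b^[t] θ)
  omega

end Base

end Crest.Agent.Ent
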