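import Crest.Agent.Ent.Sum
import Crest.Agent.Ent.Entropy

set_option autoImplicit false

open Function Filter Topology
open scoped Manifold ContDiff Real

namespace Crest.Agent.Ent

theorem transport {E H M : Type} [NormedAddCommGroup E] [NormedSpace ℝ E] [FiniteDimensional ℝ E]
    [TopologicalSpace H] (I : ModelWithCorners ℝ E H) [I.Boundaryless] [TopologicalSpace M]
    [ChartedSpace H M] [IsManifold I ∞ M] (f : M → M) (hf : ContMDiff I I 1 f) :
    ∃ (n : ℕ) (_ : ChartedSpace (EuclideanSpace ℝ (Fin n)) M),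
      IsManifold 𝓘(ℝ, EuclideanSpace ℝ (Fin n)) ∞ M ∧
      ContMDiff 𝓘(ℝ, EuclideanSpace ℝ (Fin n)) 𝓘(ℝ, EuclideanSpace ℝ (Fin n)) 1 f := by
  set n := Module.finrank ℝ E
  let L : E ≃L[ℝ] EuclideanSpace ℝ (Fin n) := toEuclidean
  let φ : H ≃ₜ EuclideanSpace ℝ (Fin n) := I.toHomeomorph.trans L.toHomeomorph
  let c : ChartedSpace (EuclideanSpace ℝ (Fin n)) M :=
    { atlas := (fun e => e.transHomeomorph φ) '' atlas H M
      chartAt := fun x => (chartAt H x).transHomeomorph φ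
      mem_chart_source := fun x => mem_chart_source H x
      chart_mem_atlas := fun x => ⟨_, chart_mem_atlas H x, rfl⟩ }
  refine ⟨n, c, ?_, ?_⟩
  · refine isManifold_of_contDiffOn _ _ _ ?_
    rintro _ _ ⟨e, he, rfl⟩ ⟨e', he', rfl⟩
    have h := (contDiffGroupoid ∞ I).compatible he he'
    rw [contDiffGroupoid, mem_groupoid_of_pregroupoid] at h
    have h1 : ContDiffOn ℝ ∞ (I ∘ (e.symm ≫ₕ e') ∘ I.symm)
      (I.symm ⁻¹' (e.symm ≫ₕ e').source ∩ Set.range I) := h.1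
    have h2 := (L.contDiff.comp_contDiffOn h1).comp L.symm.contDiff.contDiffOn
      (s := L.symm ⁻¹' (I.symm ⁻¹' (e.symm ≫ₕ e').source ∩ Set.range I)) (fun x hx => hx)
    refine (h2.mono ?_).congr ?_
    · intro x hx
      refine ⟨hx.1, ?_⟩
      rw [I.range_eq_univ]; trivial
    · intro x hx
      rfl
  · intro x
    have h := contMDiffAt_iff.1 (hf x)
    refine contMDiffAt_iff.2 ⟨h.1, ?_⟩
    have h1 := h.2
    rw [I.range_eq_univ, contDiffWithinAt_univ] at h1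
    have h2 : ContDiffAt ℝ 1 (L ∘ (extChartAt I (f x) ∘ f ∘ (extChartAt I x).symm) ∘ L.symm)
        (L (extChartAt I x x)) :=
      L.contDiff.contDiffAt.comp _ (ContDiffAt.comp _ (by simpa using h1) L.symm.contDiff.contDiffAt)
    exact h2.contDiffWithinAt

abbrev E3 : Type := WithLp 2 (ℂ × ℝ)

instance factE3 : Fact (Module.finrank ℝ E3 = 2 + 1) :=
  ⟨by rw [(WithLp.linearEquiv 2 ℝ (ℂ × ℝ)).finrank_eq, Module.finrank_prod,
    Complex.finrank_real_complex, Module.finrank_self]⟩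

instance factC : Fact (Module.finrank ℝ ℂ = 1 + 1) := ⟨Complex.finrank_real_complex⟩

abbrev S2 : Type := Metric.sphere (0 : E3) 1
abbrev S1 : Type := Metric.sphere (0 : ℂ) 1
abbrev MM : Type := S2 × S2 × S1

def mkE (z : ℂ) (h : ℝ) : E3 := WithLp.toLp 2 (z, h)

@[simp] lemma mkE_fst (z : ℂ) (h : ℝ) : (mkE z h).fst = z := rfl
@[simp] lemma mkE_snd (z : ℂ) (h : ℝ) : (mkE z h).snd = h := rfl

lemma E3_ext {p q : E3} (h1 : p.fst = q.fst) (h2 : p.snd = q.snd) : p = q := by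
  have : p.ofLp = q.ofLp := Prod.ext h1 h2
  exact WithLp.ofLp_injective 2 this

lemma norm_sq_E3 (p : E3) : ‖p‖ ^ 2 = ‖p.fst‖ ^ 2 + p.snd ^ 2 := by
  rw [WithLp.prod_norm_sq_eq_of_L2, Real.norm_eq_abs, sq_abs]

lemma S2_eq (p : S2) : ‖(p : E3).fst‖ ^ 2 + (p : E3).snd ^ 2 = 1 := by
  rw [← norm_sq_E3, norm_eq_of_mem_sphere p]; norm_num

lemma mem_S2 {p : E3} (h : ‖p.fst‖ ^ 2 + p.snd ^ 2 = 1) : p ∈ Metric.sphere (0 : E3) 1 := by
  rw [← norm_sq_E3] at h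
  rw [mem_sphere_zero_iff_norm]
  nlinarith [norm_nonneg p]

lemma contDiff_mkE : ContDiff ℝ 1 fun p : ℂ × ℝ => mkE p.1 p.2 :=
  (WithLp.prodContinuousLinearEquiv 2 ℝ ℂ ℝ).symm.contDiff

lemma contDiff_E3_fst : ContDiff ℝ 1 fun p : E3 => p.fst := (WithLp.fstL 2 ℝ ℂ ℝ).contDiff
lemma contDiff_E3_snd : ContDiff ℝ 1 fun p : E3 => p.snd := (WithLp.sndL 2 ℝ ℂ ℝ).contDiff

def north : S2 := ⟨mkE 0 1, mem_S2 (by simp)⟩
def south : S2 := ⟨mkE 0 (-1), mem_S2 (by simp)⟩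

/-- stereographic coordinate -/
noncomputable def zeta (p : E3) : ℂ := (1 + p.snd)⁻¹ • p.fst

noncomputable def sv (Z : ℂ) : E3 := mkE ((2 * (1 - cut 1 (3/2) Z)) • Z) (1 - ‖Z‖ ^ 2)

noncomputable def sig (Z : ℂ) : E3 := ‖sv Z‖⁻¹ • sv Z

noncomputable def iota (W : ℂ) : E3 := mkE W √(1 - ‖W‖ ^ 2)

lemma sv_ne (Z : ℂ) : sv Z ≠ 0 := by
  intro h
  have h1 : (sv Z).fst = 0 := by rw [h]; rfl
  have h2 : (sv Z).snd = 0 := by rw [h]; rfl
  simp only [sv, mkE_fst, mkE_snd] at h1 h2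
  have h3 : ‖Z‖ = 1 := by nlinarith [norm_nonneg Z]
  rw [cut_eq_zero (by norm_num) (by norm_num) h3.le, smul_eq_zero] at h1
  rcases h1 with h1 | h1
  · norm_num at h1
  · rw [h1] at h3; simp at h3

lemma sv_smooth : ContDiff ℝ 1 sv :=
  contDiff_mkE.comp (((contDiff_const.mul (contDiff_const.sub (cut_smooth _ _))).smul
    contDiff_id).prodMk (contDiff_const.sub (contDiff_norm_sq ℝ)))

lemma sig_smooth : ContDiff ℝ 1 sig :=
  ((sv_smooth.norm ℝ sv_ne).inv fun Z => norm_ne_zero_iff.2 (sv_ne Z)).smul sv_smooth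

lemma sig_mem (Z : ℂ) : sig Z ∈ Metric.sphere (0 : E3) 1 := by
  rw [mem_sphere_zero_iff_norm, sig, norm_smul, norm_inv, norm_norm,
    inv_mul_cancel₀ (norm_ne_zero_iff.2 (sv_ne Z))]

lemma sig_small {Z : ℂ} (h : ‖Z‖ ≤ 1) : 0 ≤ (sig Z).snd ∧ zeta (sig Z) = Z := by
  have h0 := norm_nonneg Z
  have h1 : ‖sv Z‖ = 1 + ‖Z‖ ^ 2 := by
    have := norm_sq_E3 (sv Z)
    simp only [sv, mkE_fst, mkE_snd] at this ⊢
    rw [cut_eq_zero (by norm_num) (by norm_num) h] at this ⊢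
    rw [norm_smul] at this
    refine (pow_left_inj₀ (norm_nonneg _) (by positivity) two_ne_zero).1 ?_
    rw [this]; norm_num; ring
  have h2 : (sig Z).snd = (1 + ‖Z‖ ^ 2)⁻¹ * (1 - ‖Z‖ ^ 2) := by
    rw [sig, h1]; rfl
  have h3 : (sig Z).fst = (1 + ‖Z‖ ^ 2)⁻¹ • (2 : ℝ) • Z := by
    rw [sig, h1, WithLp.smul_fst, sv, mkE_fst, cut_eq_zero (by norm_num) (by norm_num) h]; simp
  refine ⟨by rw [h2]; exact mul_nonneg (by positivity) (by nlinarith), ?_⟩
  rw [zeta, h2, h3, smul_smul, smul_smul]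
  have : (1 + (1 + ‖Z‖ ^ 2)⁻¹ * (1 - ‖Z‖ ^ 2))⁻¹ * (1 + ‖Z‖ ^ 2)⁻¹ * 2 = 1 := by
    field_simp; ring
  rw [this, one_smul]

lemma sig_neg {Z : ℂ} (h : 1 < ‖Z‖) : (sig Z).snd < 0 := by
  have : (sig Z).snd = ‖sv Z‖⁻¹ * (1 - ‖Z‖ ^ 2) := rfl
  rw [this]
  exact mul_neg_of_pos_of_neg (inv_pos.2 (norm_pos_iff.2 (sv_ne Z))) (by nlinarith)

lemma sig_fst (Z : ℂ) : ∃ t : ℝ, 0 ≤ t ∧ (sig Z).fst = t • Z :=
  ⟨‖sv Z‖⁻¹ * (2 * (1 - cut 1 (3/2) Z)), mul_nonneg (by positivity)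
    (by linarith [cut_le_one 1 (3/2) Z]), by rw [sig, WithLp.smul_fst, sv, mkE_fst, smul_smul]⟩

lemma sig_big {Z : ℂ} (h : 3 / 2 ≤ ‖Z‖) : sig Z = south := by
  have h1 : (sig Z).fst = 0 := by
    rw [sig, WithLp.smul_fst, sv, mkE_fst, cut_eq_one (by norm_num) (by norm_num) h]; simp
  have h2 := S2_eq ⟨_, sig_mem Z⟩
  have h3 := sig_neg (show 1 < ‖Z‖ by linarith)
  simp only [h1, norm_zero] at h2
  exact E3_ext h1 (by show (sig Z).snd = -1; nlinarith)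

lemma iota_mem {W : ℂ} (h : ‖W‖ ≤ 1) : iota W ∈ Metric.sphere (0 : E3) 1 :=
  mem_S2 (by
    simp only [iota, mkE_fst, mkE_snd]
    rw [Real.sq_sqrt (by nlinarith [norm_nonneg W])]; ring)

lemma iota_smooth {W : ℂ} (h : ‖W‖ < 1) : ContDiffAt ℝ 1 iota W :=
  contDiff_mkE.contDiffAt.comp W (contDiffAt_id.prodMk
    ((contDiff_const.sub (contDiff_norm_sq ℝ)).contDiffAt.sqrt
      (by nlinarith [norm_nonneg W])))

lemma iota_zero : iota 0 = north := by simp [iota, north]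

lemma zeta_smooth {p : E3} (h : -1 < p.snd) : ContDiffAt ℝ 1 zeta p :=
  ((contDiffAt_const.add contDiff_E3_snd.contDiffAt).inv (by linarith)).smul
    contDiff_E3_fst.contDiffAt

lemma zeta_sq (p : S2) (h : -1 < (p : E3).snd) :
    ‖zeta p‖ ^ 2 * (1 + (p : E3).snd) = 1 - (p : E3).snd := by
  have h1 := S2_eq p
  have h2 : 0 < 1 + (p : E3).snd := by linarith
  rw [zeta, norm_smul, Real.norm_of_nonneg (by positivity), mul_pow]
  field_simp
  linarith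

lemma one_lt_zeta (p : S2) (h : -1 < (p : E3).snd) (h' : (p : E3).snd < 0) : 1 < ‖zeta p‖ := by
  have h1 := zeta_sq p h
  by_contra hc
  have : ‖zeta (p : E3)‖ ^ 2 ≤ 1 := by nlinarith [norm_nonneg (zeta (p : E3))]
  nlinarith

noncomputable def th (u : ℂ) : ℝ := Complex.arg u / (2 * π)

noncomputable def ex (s : ℝ) : ℂ := Complex.exp ((2 * π * s : ℝ) * Complex.I)

lemma ex_mem (s : ℝ) : ex s ∈ Metric.sphere (0 : ℂ) 1 := by
  rw [mem_sphere_zero_iff_norm, ex, Complex.norm_exp_ofReal_mul_I]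

lemma ex_add_one (s : ℝ) : ex (s + 1) = ex s := by
  unfold ex
  rw [← Complex.exp_periodic ((2 * π * s : ℝ) * Complex.I)]
  congr 1; push_cast; ring

lemma ex_smooth : ContDiff ℝ 1 ex :=
  (Complex.contDiff_exp (𝕜 := ℝ)).comp
    ((Complex.ofRealCLM.contDiff.comp (contDiff_const.mul contDiff_id)).mul contDiff_const)

lemma ex_th (u : S1) : ex (th u) = u := by
  have h := Complex.norm_mul_exp_arg_mul_I u
  rw [norm_eq_of_mem_sphere u] at h
  rw [ex, th, mul_div_cancel₀ _ (by positivity)]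
  simpa using h

lemma th_ex (s : ℝ) : ∃ k : ℤ, th (ex s) = s + k := by
  refine ⟨-toIocDiv Real.two_pi_pos (-π) (2 * π * s), ?_⟩
  rw [th, ex, Complex.arg_exp_mul_I, toIocMod, zsmul_eq_mul]
  push_cast
  field_simp
  ring

lemma per_int {Y : Type*} {g : ℝ → Y} (h : ∀ x, g (x + 1) = g x) (x : ℝ) (k : ℤ) :
    g (x + k) = g x := by
  have : Periodic g 1 := h
  simpa using this.int_mul k x

lemma descend {X Y : Type*} [NormedAddCommGroup X] [NormedSpace ℝ X] [NormedAddCommGroup Y]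
    [NormedSpace ℝ Y] {g : ℝ × X → Y} (hg : ContDiff ℝ 1 g)
    (hp : ∀ θ x, g (θ + 1, x) = g (θ, x)) {p : ℂ × X} (h0 : p.1 ≠ 0) :
    ContDiffAt ℝ 1 (fun q : ℂ × X => g (th q.1, q.2)) p := by
  have h1 : ContDiffAt ℝ 1 (fun q : ℂ × X => Complex.log (q.1 / p.1)) p := by
    refine ContDiffAt.comp (g := Complex.log) p ?_ (contDiffAt_fst.div_const _)
    refine (Complex.contDiffAt_log ?_).restrict_scalars ℝ
    rw [div_self h0]; exact Complex.one_mem_slitPlane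
  have h2 : ContDiffAt ℝ 1 (fun q : ℂ × X =>
      g (th p.1 + (Complex.log (q.1 / p.1)).im / (2 * π), q.2)) p :=
    hg.contDiffAt.comp p ((contDiffAt_const.add
      ((Complex.imCLM.contDiff.contDiffAt.comp p h1).div_const _)).prodMk contDiffAt_snd)
  refine h2.congr_of_eventuallyEq ?_
  filter_upwards [continuous_fst.continuousAt.eventually_ne h0] with q hq
  have h3 := Complex.arg_div_coe_angle hq h0
  rw [← Real.Angle.coe_sub, Real.Angle.angle_eq_iff_two_pi_dvd_sub] at h3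
  obtain ⟨k, hk⟩ := h3
  have : th p.1 + (Complex.log (q.1 / p.1)).im / (2 * π) = th q.1 + k := by
    rw [Complex.log_im, th, th]; field_simp; linarith
  rw [this]
  exact (per_int (g := fun s => g (s, q.2)) (fun s => hp s _) _ _).symm

end Crest.Agent.Ent
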