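import Crest.Agent.Ent.Link

set_option autoImplicit false

open Function

namespace Crest.Agent.Ent

structure Sys extends Sc where
  B : Base
  T_eq : T = B.T
  Λ : ℕ → ℝ
  Λ_nonneg : ∀ j, 0 ≤ Λ j
  Λ_lip : ∀ j θ θ', ∑ d, |B.om j d θ - B.om j d θ'| ≤ Λ j * |θ - θ'|
  Λ_small : ∀ j, Λ j * (C * RR T r (j + 1)) ≤ 1

theorem exists_sys : Nonempty Sys := by
  obtain ⟨B⟩ := exists_base
  obtain ⟨C, hC, hlip⟩ := exists_C'
  choose Λ hΛ0 hΛ using B.om_lip
  let r : ℕ → ℝ := fun n => Nat.rec (1 / 2)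
    (fun j rj => rj / (48 * C * BB B.T j * BB B.T (j + 1) * (Λ j + 1))) n
  have hr0 : r 0 = 1 / 2 := rfl
  have hrs : ∀ j, r (j + 1) = r j / (48 * C * BB B.T j * BB B.T (j + 1) * (Λ j + 1)) :=
    fun j => rfl
  have hrp : ∀ j, 0 < r j := by
    intro j
    induction j with
    | zero => rw [hr0]; norm_num
    | succ j ih =>
      have := BB_pos B.T j; have := BB_pos B.T (j + 1); have := hΛ0 j
      rw [hrs]; positivity
  have key : ∀ j, 8 * C * BB B.T j * RR B.T r (j + 1) * (Λ j + 1) = r j := by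
    intro j
    have := BB_pos B.T j; have := BB_pos B.T (j + 1); have := hΛ0 j
    rw [RR, hrs]; field_simp; ring
  have hR : ∀ j, 0 < RR B.T r j := fun j => by
    have := BB_pos B.T j; have := hrp j
    unfold RR; positivity
  have hsmall : ∀ j, 8 * C * BB B.T j * RR B.T r (j + 1) ≤ r j := fun j => by
    have := BB_pos B.T j; have := hR (j + 1)
    rw [← key j]
    exact le_mul_of_one_le_right (by positivity) (by linarith [hΛ0 j])
  let S : Sc := ⟨B.T, r, C, B.T_mono, hr0, hrp, hC, hsmall, hlip B.T r hrp⟩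
  have hr1 : ∀ j, r j ≤ 1 := fun j => by
    induction j with
    | zero => rw [hr0]; norm_num
    | succ j ih => exact (S.r_anti j).trans ih
  refine ⟨⟨S, B, rfl, Λ, hΛ0, hΛ, fun j => ?_⟩⟩
  show Λ j * (C * RR B.T r (j + 1)) ≤ 1
  have h1 := key j
  have h2 := BB_ge B.T j
  have h3 : 0 ≤ C * RR B.T r (j + 1) := (mul_pos (by linarith) (hR _)).le
  have h4 := hΛ0 j
  have h5 := hr1 j
  have h6 : 0 ≤ C * RR B.T r (j + 1) * (Λ j + 1) := by positivity
  nlinarith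

namespace Sys
variable (S : Sys)

noncomputable def DD (j : ℕ) (p : ℝ × (ℂ × ℂ)) : ℂ × ℂ :=
  ∑ d, S.B.om j d p.1 • Dw S.T S.r j (S.B.ext d) p.2

lemma DD_smooth (j : ℕ) : ContDiff ℝ 1 (S.DD j) :=
  ContDiff.sum fun d _ => ((S.B.om_smooth j d).comp contDiff_fst).smul
    ((Dw_smooth _ _ _ _).comp contDiff_snd)

lemma norm_avg_le (j : ℕ) (θ : ℝ) (v : S.B.Wd j → ℂ × ℂ) {c : ℝ} (h : ∀ d, ‖v d‖ ≤ c) :
    ‖∑ d, S.B.om j d θ • v d‖ ≤ c := by
  calc _ ≤ ∑ d, S.B.om j d θ * c := by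
        refine norm_sum_le_of_le _ fun d _ => ?_
        rw [norm_smul, Real.norm_of_nonneg (S.B.om_nonneg _ _ _)]
        exact mul_le_mul_of_nonneg_left (h d) (S.B.om_nonneg _ _ _)
    _ = c := by rw [← Finset.sum_mul, S.B.om_sum, one_mul]

lemma norm_DD_le (j : ℕ) (p : ℝ × (ℂ × ℂ)) : ‖S.DD j p‖ ≤ S.C / 2 ^ (j + 1) * S.R (j + 1) :=
  S.norm_avg_le j _ _ fun _ => S.norm_Dw_le _ _ _

lemma DD_lip (j : ℕ) : Lip ((S.C + 1) / 2 ^ (j + 1)) (S.DD j) := by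
  intro p q
  have e : S.DD j p - S.DD j q
      = ∑ d, (S.B.om j d p.1 - S.B.om j d q.1) • Dw S.T S.r j (S.B.ext d) p.2
        + ∑ d, S.B.om j d q.1 • (Dw S.T S.r j (S.B.ext d) p.2 - Dw S.T S.r j (S.B.ext d) q.2) := by
    simp only [DD, sub_smul, smul_sub, Finset.sum_sub_distrib]; abel
  have hC := S.C_ge
  have h1 : ‖∑ d, (S.B.om j d p.1 - S.B.om j d q.1) • Dw S.T S.r j (S.B.ext d) p.2‖
      ≤ 1 / 2 ^ (j + 1) * ‖p - q‖ := by
    have a1 : |p.1 - q.1| ≤ ‖p - q‖ := norm_fst_le (p - q)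
    have a2 := S.Λ_small j
    have a3 := S.R_pos (j + 1)
    have a4 := S.Λ_nonneg j
    calc _ ≤ ∑ d, |S.B.om j d p.1 - S.B.om j d q.1| * (S.C / 2 ^ (j + 1) * S.R (j + 1)) := by
          refine norm_sum_le_of_le _ fun d _ => ?_
          rw [norm_smul, Real.norm_eq_abs]
          exact mul_le_mul_of_nonneg_left (S.norm_Dw_le _ _ _) (abs_nonneg _)
      _ ≤ S.Λ j * |p.1 - q.1| * (S.C / 2 ^ (j + 1) * S.R (j + 1)) := by
          rw [← Finset.sum_mul]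
          exact mul_le_mul_of_nonneg_right (S.Λ_lip _ _ _) (by positivity)
      _ = S.Λ j * (S.C * S.R (j + 1)) / 2 ^ (j + 1) * |p.1 - q.1| := by ring
      _ ≤ _ := by gcongr; exact a2
  have h2 : ‖∑ d, S.B.om j d q.1 •
      (Dw S.T S.r j (S.B.ext d) p.2 - Dw S.T S.r j (S.B.ext d) q.2)‖
        ≤ S.C / 2 ^ (j + 1) * ‖p - q‖ :=
    S.norm_avg_le j _ _ fun d => (S.lip _ _ _ _).trans (by
      gcongr; exact norm_snd_le (p - q))
  rw [e]
  exact (norm_add_le _ _).trans (by rw [add_div]; linarith)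

lemma R_antitone : Antitone S.R := antitone_nat_of_succ_le S.R_anti

lemma norm_DD_le' (J i : ℕ) (p : ℝ × (ℂ × ℂ)) : ‖S.DD (i + J) p‖ ≤ S.δ J / 2 / 2 ^ i := by
  refine (S.norm_DD_le _ p).trans ?_
  have h1 : S.R (i + J + 1) ≤ S.R (J + 1) := S.R_antitone (by omega)
  have hC := S.C_ge
  calc _ ≤ S.C / 2 ^ (i + J + 1) * S.R (J + 1) := by gcongr
    _ = _ := by unfold Sc.δ; rw [pow_succ, pow_add]; field_simp

lemma summable_DD (p : ℝ × (ℂ × ℂ)) : Summable fun j => S.DD j p :=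
  Summable.of_norm_bounded (summable_geometric_two' (S.δ 0)) fun i => S.norm_DD_le' 0 i p

lemma norm_tail_le (J : ℕ) (p : ℝ × (ℂ × ℂ)) : ‖∑' i, S.DD (i + J) p‖ ≤ S.δ J :=
  tsum_of_norm_bounded (hasSum_geometric_two' (S.δ J)) fun i => S.norm_DD_le' J i p

noncomputable def F (p : ℝ × (ℂ × ℂ)) : ℂ × ℂ := D0 S.r p.2 + ∑' j, S.DD j p

lemma F_smooth : ContDiff ℝ 1 S.F := by
  refine ((D0_smooth _).comp contDiff_snd).add ?_
  refine contDiff_tsum (N := 1)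
    (v := fun k j => if k = 0 then S.δ 0 / 2 / 2 ^ j else (S.C + 1) / 2 / 2 ^ j)
    S.DD_smooth (fun k _ => ?_) (fun k i x hk => ?_)
  · split_ifs <;> exact summable_geometric_two' _
  · have hk' : k ≤ 1 := by exact_mod_cast hk
    interval_cases k
    · simpa using S.norm_DD_le' 0 i x
    · rw [norm_iteratedFDeriv_one, if_neg one_ne_zero]
      have hC := S.C_ge
      refine norm_fderiv_le_of_lip' ℝ (by positivity) (Filter.Eventually.of_forall fun y => ?_)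
      convert S.DD_lip i y x using 2
      rw [pow_succ]; field_simp

lemma F_per (θ : ℝ) (x : ℂ × ℂ) : S.F (θ + 1, x) = S.F (θ, x) := by
  simp only [F, DD, Base.om_per]

lemma DD_eq_zero_of (j : ℕ) (p : ℝ × (ℂ × ℂ))
    (h : ∀ d, S.B.om j d p.1 ≠ 0 → Dw S.T S.r j (S.B.ext d) p.2 = 0) : S.DD j p = 0 :=
  Finset.sum_eq_zero fun d _ => by
    by_cases hd : S.B.om j d p.1 = 0
    · rw [hd, zero_smul]
    · rw [h d hd, smul_zero]

lemma tail_eq_zero (J : ℕ) (p : ℝ × (ℂ × ℂ)) (h : S.R (J + 1) ≤ ‖p.2‖) :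
    ∑' i, S.DD (i + J) p = 0 := by
  have : ∀ i, S.DD (i + J) p = 0 := fun i => S.DD_eq_zero_of _ _ fun d _ =>
    Dw_eq_zero _ S.r_pos _ _ ((S.R_antitone (by omega)).trans h)
  simp [this]

lemma step {J : ℕ} {θ : ℝ} (hg : Good S.B.b S.B.V S.B.T J θ) (x : ℂ × ℂ) :
    S.Step J (S.B.wd J θ) x (S.F (θ, x)) := by
  have hw := S.B.goodW hg
  have h0 : ∀ i (d : S.B.Wd (i + J)), S.B.om (i + J) d θ ≠ 0 → S.B.wd J θ 0 < J →
      S.B.ext d 0 = S.B.wd J θ 0 := fun i d hd hk => by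
    have := S.B.om_cons hg hd (Nat.zero_le _) (Nat.zero_le _)
    omega
  refine ⟨∑' i, S.DD (i + J) (θ, x), ?_, S.norm_tail_le _ _, S.tail_eq_zero J (θ, x),
    fun hk => ?_, fun hk => ?_⟩
  · rw [F, ← (S.summable_DD _).sum_add_tsum_nat_add J, Sc.SS, add_assoc]
    congr 2
    refine Finset.sum_congr rfl fun i hi => ?_
    rw [Finset.mem_range] at hi
    have : S.DD i (θ, x) = ∑ d, S.B.om i d θ • Dw S.T S.r i (S.B.wd J θ) x := by
      refine Finset.sum_congr rfl fun d _ => ?_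
      by_cases hd : S.B.om i d θ = 0
      · simp only [hd, zero_smul]
      · rw [Dw_congr S.T S.r (hw.1 (i + 1) hi) (e' := S.B.ext d) fun t ht => ?_]
        have := S.B.om_cons hg hd (ht.trans (S.B.T_mono hi)) ht
        rw [min_eq_right (show i + 1 ≤ J from hi)] at this
        exact this.symm
    rw [this, ← Finset.sum_smul, S.B.om_sum, one_smul]
  · rw [tsum_eq_single 0 fun i hi => S.DD_eq_zero_of _ _ fun d hd =>
      S.Dw_low (by rw [h0 i d hd hk]; omega) _]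
    rw [DD, map_sum, Prod.fst_sum]
    refine Finset.sum_eq_zero fun d _ => ?_
    by_cases hd : S.B.om (0 + J) d θ = 0
    · simp only [hd, zero_smul, map_zero, Prod.fst_zero]
    · have := S.Dw_plane (j := 0 + J) (e := S.B.ext d) (by rw [h0 0 d hd hk]; omega) x
      rw [map_smul, Prod.smul_fst]
      rw [show sw (0 + J) = sw J by rw [zero_add]] at this
      rw [this, smul_zero]
  · have : ∀ i, S.DD (i + J) (θ, x) = 0 := fun i => S.DD_eq_zero_of _ _ fun d hd =>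
      S.Dw_low (by rw [h0 i d hd (by omega)]; omega) _
    simp [this]

lemma R_one : S.R 1 ≤ 1 / 16 := by have := S.R_le' 0; rw [S.r_zero] at this; linarith

lemma δ_zero : S.δ 0 ≤ 1 / 16 := by
  have h1 := S.δ_le 0
  have h2 := BB_ge S.T 0
  have h3 : 0 ≤ S.δ 0 := (norm_nonneg _).trans (S.norm_tail_le 0 0)
  rw [S.r_zero] at h1
  nlinarith

lemma norm_tsum_le (p : ℝ × (ℂ × ℂ)) : ‖∑' i, S.DD i p‖ ≤ 1 / 16 :=
  (S.norm_tail_le 0 p).trans S.δ_zero

lemma F_snd (p : ℝ × (ℂ × ℂ)) : ‖(S.F p).2‖ ≤ 1 / 16 := by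
  simp only [F, D0, Prod.snd_add, zero_add]
  exact (norm_snd_le _).trans (S.norm_tsum_le p)

lemma F_far (p : ℝ × (ℂ × ℂ)) (h : 1 / 16 ≤ ‖p.2.1‖) : S.F p = ((2 : ℝ) • cc p.2.1, 0) := by
  have h1 : ∑' i, S.DD i p = 0 :=
    S.tail_eq_zero 0 p (S.R_one.trans (h.trans (norm_fst_le _)))
  have h2 : S.r 1 ≤ ‖p.2.1‖ := (S.r_le_R 1).trans (S.R_one.trans h)
  have hr := S.r_pos 1
  rw [F, h1, add_zero, D0, GG_smul _ _ _ (by positivity), cut_eq_one (by norm_num) (by norm_num),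
    smul_smul]
  · congr 2; field_simp
  · rw [norm_smul, Real.norm_of_nonneg (by positivity), inv_mul_eq_div, le_div_iff₀ hr]; linarith

lemma F_fst (p : ℝ × (ℂ × ℂ)) (h : ‖p.2.1‖ ≤ 1 / 2) : ‖(S.F p).1‖ ≤ 1 := by
  rcases le_total (1 / 16) ‖p.2.1‖ with h1 | h1
  · rw [S.F_far p h1, norm_smul, norm_cc]; simp only [Real.norm_ofNat]; linarith
  · simp only [F, D0, Prod.fst_add]
    have a1 := norm_gamma_le (S.r_pos 1) 1 p.2.1
    have a2 := (norm_fst_le _).trans (S.norm_tsum_le p)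
    exact (norm_add_le _ _).trans (by linarith)

lemma R_small (j : ℕ) : S.R (j + 1) ≤ 1 / 2 ^ j := by
  have : ∀ j, S.r j ≤ 1 / 2 ^ j := by
    intro j
    induction j with
    | zero => rw [S.r_zero]; norm_num
    | succ j ih =>
      have a1 := S.R_le' j
      have a2 := S.r_le_R (j + 1)
      have a3 := S.r_pos j
      rw [pow_succ, ← div_div]; linarith
  linarith [this j, S.R_le' j, S.R_pos (j + 1)]

theorem tame {ε : ℝ} (hε : 0 < ε) : ∃ K : ℕ, ∀ θ : ℝ, ∃ t0 : ℕ, ∀ (x : ℕ → ℂ × ℂ) (a : ℕ),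
    (a + 2 * K < t0 ∨ t0 < a) →
    (∀ u, u < 2 * K → x (u + 1) = S.F (S.B.b^[a + u] θ, x u)) →
    (∀ u, u ≤ 2 * K → ‖(x u).1‖ ≤ 1 / 2) → ‖x K‖ ≤ ε := by
  obtain ⟨j, hj⟩ := exists_pow_lt_of_lt_one hε (show (1 / 2 : ℝ) < 1 by norm_num)
  obtain ⟨K, hK⟩ := S.core (j + 1)
  refine ⟨K + S.B.W (j + 1), fun θ => ?_⟩
  obtain ⟨t0, ht0⟩ := S.B.good θ
  refine ⟨t0, fun x a ha hx hx' => ?_⟩
  set W := S.B.W (j + 1) with hW
  have hg : ∀ s, s ≤ 2 * K + W → Good S.B.b S.B.V S.B.T (j + 1) (S.B.b^[a + s] θ) :=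
    fun s hs => ht0 (j + 1) (a + s) (by omega)
  have hgw : ∀ s, s ≤ 2 * K + W → GoodW S.T (j + 1) (S.B.wd (j + 1) (S.B.b^[a + s] θ)) :=
    fun s hs => by rw [S.T_eq]; exact S.B.goodW (hg s hs)
  have := hK (2 * K + W) (fun s => S.B.wd (j + 1) (S.B.b^[a + s] θ)) x
    (fun s _ => by simp only [← add_assoc, iterate_succ_apply']; rfl) hgw
    (fun s hs => by rw [hx s (by omega)]; exact S.step (hg s hs.le) _)
    (fun s hs => hx' s (by omega)) (K + W) (by omega) (by omega)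
  refine (S.In_small (hgw _ (by omega)) this).trans ((S.R_small j).trans ?_)
  rw [one_div, ← inv_pow, ← one_div]; exact hj.le

end Sys

end Crest.Agent.Ent
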