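import Crest.Agent.Ent.Dyn

set_option autoImplicit false

open Function

namespace Crest.Agent.Ent

noncomputable def aa (k : ℕ) : ℝ := 16 / 2 ^ k
noncomputable def tauW (m : ℕ) (e : ℕ → ℕ) : ℕ := sInf {t | 1 ≤ t ∧ m ≤ e t}
noncomputable def ppW (m : ℕ) (e : ℕ → ℕ) : ℝ := ∏ t ∈ Finset.Ico 1 (tauW m e), aa (e t)
noncomputable def qqW (m : ℕ) (e : ℕ → ℕ) : ℝ := if m ≤ e 0 then 1 else aa (e 0) * ppW m e
noncomputable def sigW (m : ℕ) (e : ℕ → ℕ) : ℕ := if m ≤ e 0 then 0 else tauW m e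
def sh (e : ℕ → ℕ) : ℕ → ℕ := fun t => e (t + 1)
def Rec (m T : ℕ) (e : ℕ → ℕ) : Prop := ∃ t, 1 ≤ t ∧ t ≤ T ∧ m ≤ e t
noncomputable def BB (T : ℕ → ℕ) (j : ℕ) : ℝ := (16 * 2 ^ j) ^ T j

lemma aa_pos (k : ℕ) : 0 < aa k := by unfold aa; positivity
lemma ppW_pos (m : ℕ) (e : ℕ → ℕ) : 0 < ppW m e := Finset.prod_pos fun _ _ => aa_pos _
lemma qqW_pos (m : ℕ) (e : ℕ → ℕ) : 0 < qqW m e := by
  unfold qqW; split_ifs
  · exact one_pos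
  · exact mul_pos (aa_pos _) (ppW_pos _ _)

lemma BB_ge (T : ℕ → ℕ) (j : ℕ) : 1 ≤ BB T j :=
  one_le_pow₀ (by nlinarith [one_le_pow₀ (show (1 : ℝ) ≤ 2 by norm_num) (n := j)])

lemma BB_pos (T : ℕ → ℕ) (j : ℕ) : 0 < BB T j := one_pos.trans_le (BB_ge T j)

section
variable {m T : ℕ} {e : ℕ → ℕ}

lemma Rec.tau_spec (h : Rec m T e) : 1 ≤ tauW m e ∧ m ≤ e (tauW m e) := by
  obtain ⟨t, h1, -, h2⟩ := h
  exact Nat.sInf_mem (s := {t | 1 ≤ t ∧ m ≤ e t}) ⟨t, h1, h2⟩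

lemma tau_le {t : ℕ} (h1 : 1 ≤ t) (h2 : m ≤ e t) : tauW m e ≤ t :=
  Nat.sInf_le (s := {t | 1 ≤ t ∧ m ≤ e t}) ⟨h1, h2⟩

lemma tau_min {t : ℕ} (h1 : 1 ≤ t) (h2 : t < tauW m e) : e t < m :=
  not_le.1 fun h => absurd (tau_le h1 h) (by omega)

lemma Rec.tau_le (h : Rec m T e) : tauW m e ≤ T := by
  obtain ⟨t, h1, h3, h2⟩ := h
  exact (Ent.tau_le h1 h2).trans h3

lemma Rec.mono {T' m' : ℕ} (h : Rec m T e) (h1 : T ≤ T') (h2 : m' ≤ m) : Rec m' T' e := by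
  obtain ⟨t, a1, a2, a3⟩ := h
  exact ⟨t, a1, by omega, by omega⟩

lemma Rec.shift (h : Rec m T e) : tauW m e = sigW m (sh e) + 1 ∧ ppW m e = qqW m (sh e) := by
  have h1 := h.tau_spec
  unfold sigW qqW
  split_ifs with hm
  · have : tauW m e = 1 := le_antisymm (Ent.tau_le le_rfl hm) h1.1
    exact ⟨this, by simp [ppW, this]⟩
  · have h2 : tauW m e ≠ 1 := fun h => hm (by rw [h] at h1; exact h1.2)
    have h3 : Rec m (tauW m e) (sh e) := ⟨tauW m e - 1, by omega, by omega, by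
      unfold sh; rw [Nat.sub_add_cancel h1.1]; exact h1.2⟩
    have h4 := h3.tau_spec
    have h5 : tauW m e = tauW m (sh e) + 1 := by
      apply le_antisymm (Ent.tau_le (e := e) (t := tauW m (sh e) + 1) (by omega) h4.2)
      have : tauW m (sh e) ≤ tauW m e - 1 := Ent.tau_le (by omega) (by
        unfold sh; rw [Nat.sub_add_cancel h1.1]; exact h1.2)
      omega
    refine ⟨h5, ?_⟩
    unfold ppW
    rw [h5, Finset.prod_eq_prod_Ico_succ_bot (by omega), ← Finset.prod_Ico_add' _ _ _ 1]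
    rfl

lemma aa_bd {k j : ℕ} (h : k ≤ j) : (16 * 2 ^ j : ℝ)⁻¹ ≤ aa k ∧ aa k ≤ 16 * 2 ^ j := by
  unfold aa
  have h1 : (2 : ℝ) ^ k ≤ 2 ^ j := pow_le_pow_right₀ (by norm_num) h
  have h2 : (1 : ℝ) ≤ 2 ^ k := one_le_pow₀ (by norm_num)
  constructor
  · rw [inv_eq_one_div, div_le_div_iff₀ (by positivity) (by positivity)]; nlinarith
  · rw [div_le_iff₀ (by positivity)]; nlinarith

lemma pp_bd {j : ℕ} (hm : m ≤ j) : ((16 * 2 ^ j : ℝ) ^ (tauW m e - 1))⁻¹ ≤ ppW m e ∧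
    ppW m e ≤ (16 * 2 ^ j) ^ (tauW m e - 1) := by
  have key : ∀ t ∈ Finset.Ico 1 (tauW m e), e t ≤ j := fun t ht => by
    rw [Finset.mem_Ico] at ht
    exact ((tau_min ht.1 ht.2).trans_le hm).le
  constructor
  · rw [← inv_pow, ← Nat.card_Ico, ← Finset.prod_const]
    exact Finset.prod_le_prod (fun _ _ => by positivity) fun t ht => (aa_bd (key t ht)).1
  · rw [← Nat.card_Ico, ← Finset.prod_const]
    exact Finset.prod_le_prod (fun _ _ => (aa_pos _).le) fun t ht => (aa_bd (key t ht)).2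

lemma Rec.bd {T : ℕ → ℕ} {j : ℕ} (h : Rec m (T j) e) (hm : m ≤ j) :
    ppW m e ≤ BB T j ∧ qqW m e ≤ BB T j ∧ 1 ≤ qqW m e * BB T j := by
  have h1 := h.tau_spec.1
  have h2 := h.tau_le
  have hβ : (1 : ℝ) ≤ 16 * 2 ^ j := by
    nlinarith [one_le_pow₀ (show (1 : ℝ) ≤ 2 by norm_num) (n := j)]
  have h3 := pp_bd (e := e) hm
  have h4 : (16 * 2 ^ j : ℝ) * (16 * 2 ^ j) ^ (tauW m e - 1) ≤ BB T j := by
    rw [← pow_succ', Nat.sub_add_cancel h1]; exact pow_le_pow_right₀ hβ h2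
  have h5 : (0 : ℝ) < (16 * 2 ^ j) ^ (tauW m e - 1) := by positivity
  refine ⟨h3.2.trans (le_trans (by nlinarith) h4), ?_⟩
  unfold qqW
  split_ifs with hk
  · exact ⟨BB_ge T j, by simpa using BB_ge T j⟩
  · have h6 := aa_bd (show e 0 ≤ j by omega)
    refine ⟨le_trans (mul_le_mul h6.2 h3.2 (ppW_pos _ _).le (by positivity)) h4, ?_⟩
    calc (1 : ℝ) = ((16 * 2 ^ j : ℝ)⁻¹ * ((16 * 2 ^ j : ℝ) ^ (tauW m e - 1))⁻¹) *
          ((16 * 2 ^ j : ℝ) * (16 * 2 ^ j) ^ (tauW m e - 1)) := by field_simp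
      _ ≤ _ := mul_le_mul (mul_le_mul h6.1 h3.1 (by positivity) (aa_pos _).le) h4 (by positivity)
          (mul_pos (aa_pos _) (ppW_pos _ _)).le

end

lemma tauW_zero (e : ℕ → ℕ) : tauW 0 e = 1 :=
  le_antisymm (tau_le le_rfl (Nat.zero_le _))
    (Rec.tau_spec (T := 1) ⟨1, le_rfl, le_rfl, Nat.zero_le _⟩).1

lemma ppW_zero (e : ℕ → ℕ) : ppW 0 e = 1 := by simp [ppW, tauW_zero]
lemma qqW_zero (e : ℕ → ℕ) : qqW 0 e = 1 := by simp [qqW]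

/-- swap to the coordinates of level `j` -/
noncomputable def sw (j : ℕ) : (ℂ × ℂ) ≃ₗᵢ[ℝ] (ℂ × ℂ) := (LinearIsometryEquiv.prodComm ℝ ℂ ℂ) ^ j

lemma sw_zero (x : ℂ × ℂ) : sw 0 x = x := rfl
lemma sw_succ (j : ℕ) (x : ℂ × ℂ) : sw (j + 1) x = (sw j x).swap := by
  unfold sw; rw [pow_succ']; rfl
lemma sw_succ' (j : ℕ) (x : ℂ × ℂ) : sw (j + 1) x = sw j x.swap := by
  unfold sw; rw [pow_succ]; rfl
lemma sw_sw (j : ℕ) (x : ℂ × ℂ) : sw j (sw j x) = x := by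
  induction j generalizing x with
  | zero => rfl
  | succ j ih => rw [sw_succ, sw_succ', ih, Prod.swap_swap]

def Adm (j : ℕ) (e : ℕ → ℕ) : Prop :=
  3 ^ tauW (j + 1) e ≤ 8 / 2 ^ (j + 1) * ppW (j + 1) e ∧ 3 ^ tauW j e ≤ 8 / 2 ^ (j + 1) * ppW j e

open Classical in
noncomputable def Dy (T : ℕ → ℕ) (r : ℕ → ℝ) (j : ℕ) (e : ℕ → ℕ) (y : ℂ × ℂ) : ℂ × ℂ :=
  if j + 1 ≤ e 0 then
    (if Adm j e then Ret (tauW (j + 1) e) (tauW j e) (ppW (j + 1) e) (ppW j e) (r (j + 1))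
      (r (j + 2)) y else 0)
  else if j + 1 ≤ e 0 + 2 then Lin (aa (e 0)) (r (j + 1) * BB T (j + 1)) y else 0

noncomputable def Dw (T : ℕ → ℕ) (r : ℕ → ℝ) (j : ℕ) (e : ℕ → ℕ) (x : ℂ × ℂ) : ℂ × ℂ :=
  sw (j + 1) (Dy T r j e (sw (j + 1) x))

noncomputable def D0 (r : ℕ → ℝ) (x : ℂ × ℂ) : ℂ × ℂ :=
  ((2 * r 1) • GG 1 (1/2) 1 ((r 1)⁻¹ • x.1), 0)

noncomputable def RR (T : ℕ → ℕ) (r : ℕ → ℝ) (j : ℕ) : ℝ := 6 * (r j * BB T j)

lemma Dy_smooth (T : ℕ → ℕ) (r : ℕ → ℝ) (j : ℕ) (e : ℕ → ℕ) : ContDiff ℝ 1 (Dy T r j e) := by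
  unfold Dy
  split_ifs
  · exact Ret_smooth _ _ _ _ _ _
  · exact contDiff_const
  · exact Lin_smooth _ _
  · exact contDiff_const

lemma Dw_smooth (T : ℕ → ℕ) (r : ℕ → ℝ) (j : ℕ) (e : ℕ → ℕ) : ContDiff ℝ 1 (Dw T r j e) :=
  (sw (j + 1)).contDiff.comp ((Dy_smooth T r j e).comp (sw (j + 1)).contDiff)

lemma D0_smooth (r : ℕ → ℝ) : ContDiff ℝ 1 (D0 r) :=
  (((GG_smooth 1 (by norm_num) (by norm_num)).comp (contDiff_fst.const_smul _)).const_smul _).prodMk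
    contDiff_const

lemma Dw_zero (T : ℕ → ℕ) (r : ℕ → ℝ) (j : ℕ) (e : ℕ → ℕ) : Dw T r j e 0 = 0 := by
  unfold Dw Dy
  split_ifs <;> simp [Ret_zero, Lin_zero]

lemma Dw_eq_zero (T : ℕ → ℕ) {r : ℕ → ℝ} (hr : ∀ j, 0 < r j) (j : ℕ) (e : ℕ → ℕ) {x : ℂ × ℂ}
    (hx : RR T r (j + 1) ≤ ‖x‖) : Dw T r j e x = 0 := by
  have h1 : 6 * (r (j + 1) * BB T (j + 1)) ≤ ‖sw (j + 1) x‖ := by rwa [LinearIsometryEquiv.norm_map]
  have h2 : 6 * r (j + 1) ≤ ‖sw (j + 1) x‖ :=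
    le_trans (by nlinarith [BB_ge T (j + 1), hr (j + 1)]) h1
  unfold Dw Dy
  split_ifs
  · rw [Ret_eq_zero _ _ _ _ _ (hr _) h2, map_zero]
  · simp
  · rw [Lin_eq_zero _ (mul_pos (hr _) (BB_pos _ _)) h1, map_zero]
  · simp

lemma exists_C' : ∃ C : ℝ, 1 ≤ C ∧ ∀ (T : ℕ → ℕ) (r : ℕ → ℝ), (∀ j, 0 < r j) → ∀ j e,
    Lip (C / 2 ^ (j + 1)) (Dw T r j e) := by
  obtain ⟨C, hC, h1, h2⟩ := exists_C
  refine ⟨64 * C, by linarith, fun T r hr j e => ?_⟩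
  have key : Lip (64 * C / 2 ^ (j + 1)) (Dy T r j e) := by
    unfold Dy
    split_ifs with a1 a2 a3
    · refine (h1 _ _ _ _ _ _ _ (ppW_pos _ _) (ppW_pos _ _) (hr _) (hr _) a2.1 a2.2).mono ?_
      rw [← mul_div_assoc]
      exact div_le_div_of_nonneg_right (by linarith) (by positivity)
    · exact lip_zero (by positivity)
    · refine (h2 _ _ (aa_pos _).le (mul_pos (hr _) (BB_pos _ _))).mono ?_
      unfold aa
      have : (2 : ℝ) ^ (j + 1) ≤ 2 ^ (e 0 + 2) := pow_le_pow_right₀ (by norm_num) a3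
      rw [← mul_div_assoc, div_le_div_iff₀ (by positivity) (by positivity)]
      rw [pow_add (2 : ℝ) (e 0)] at this
      nlinarith
    · exact lip_zero (by positivity)
  intro x y
  unfold Dw
  rw [← map_sub, LinearIsometryEquiv.norm_map, ← (sw (j + 1)).norm_map (x - y), map_sub]
  exact key _ _

end Crest.Agent.Ent
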